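import Crest.Agent.SW.Defs
import Crest.Prelude.Def_SwitchChain

/-!
Chunk K (row 299), part 1: kernel of the switch chain: row sums, symmetry, support.
-/

set_option autoImplicit false
open Finset

namespace Crest.Agent.SW.CK

open Crest.SwitchChain

variable {n : ℕ}

/-- edge from two distinct vertices -/
def ed (x y : Fin n) (h : x ≠ y) : Edge n := ⟨s(x, y), by simpa using h⟩

theorem ed_eq {x y z w : Fin n} (h : x ≠ y) (h' : z ≠ w) :
    ed x y h = ed z w h' ↔ (x = z ∧ y = w) ∨ (x = w ∧ y = z) := by
  unfold ed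
  rw [Subtype.mk.injEq]
  exact Sym2.eq_iff

theorem ed_symm {x y : Fin n} (h : x ≠ y) : ed x y h = ed y x h.symm := by
  rw [ed_eq]; right; exact ⟨rfl, rfl⟩

theorem exists_ed (e : Edge n) : ∃ x y, ∃ h : x ≠ y, e = ed x y h := by
  obtain ⟨e, he⟩ := e
  induction e using Sym2.ind with
  | _ x y =>
    exact ⟨x, y, by simpa using he, rfl⟩

theorem mem_ed {x y v : Fin n} (h : x ≠ y) : v ∈ (ed x y h).1 ↔ v = x ∨ v = y := by
  unfold ed; simp

theorem pmSet_mem {S : Finset (Fin n)} {F : Finset (Edge n)} :
    F ∈ pmSet S ↔ F.card = 2 ∧ (∀ e ∈ F, ∀ v : Fin n, v ∈ e.1 → v ∈ S) ∧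
      ∀ v ∈ S, (F.filter fun e => v ∈ e.1).card = 1 := by
  unfold pmSet
  simp only [mem_filter, mem_powersetCard, subset_univ, true_and]

/-- the matching `{xy, zw}` -/
def mt (x y z w : Fin n) (h : x ≠ y) (h' : z ≠ w) : Finset (Edge n) := {ed x y h, ed z w h'}

theorem mt_mem_pm {x y z w : Fin n} (h : x ≠ y) (h' : z ≠ w) (h1 : x ≠ z) (h2 : x ≠ w) (h3 : y ≠ z)
    (h4 : y ≠ w) {S : Finset (Fin n)} (hS : S = {x, y, z, w}) : mt x y z w h h' ∈ pmSet S := by
  subst hS
  rw [pmSet_mem]
  have hne : ed x y h ≠ ed z w h' := by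
    rw [Ne, ed_eq]; tauto
  refine ⟨?_, ?_, ?_⟩
  · unfold mt; rw [card_pair hne]
  · intro e he v hv
    unfold mt at he
    simp only [mem_insert, mem_singleton] at he ⊢
    rcases he with rfl | rfl
    · rw [mem_ed] at hv; tauto
    · rw [mem_ed] at hv; tauto
  · intro v hv
    rw [card_eq_one]
    simp only [mem_insert, mem_singleton] at hv
    have key : v = x ∨ v = y ∨ v = z ∨ v = w := hv
    by_cases hxy : v = x ∨ v = y
    · refine ⟨ed x y h, ?_⟩
      ext e
      simp only [mt, mem_filter, mem_insert, mem_singleton]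
      constructor
      · rintro ⟨rfl | rfl, hv2⟩
        · rfl
        · rw [mem_ed] at hv2
          exfalso
          rcases hxy with rfl | rfl <;> rcases hv2 with rfl | rfl <;> simp_all
      · rintro rfl
        exact ⟨Or.inl rfl, (mem_ed h).2 hxy⟩
    · have hzw : v = z ∨ v = w := by tauto
      refine ⟨ed z w h', ?_⟩
      ext e
      simp only [mt, mem_filter, mem_insert, mem_singleton]
      constructor
      · rintro ⟨rfl | rfl, hv2⟩
        · rw [mem_ed] at hv2
          exact absurd hv2 hxy
        · rfl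
      · rintro rfl
        exact ⟨Or.inr rfl, (mem_ed h').2 hzw⟩

theorem pm_eq_mt {x y z w : Fin n} (h : x ≠ y) (h' : z ≠ w) (h1 : x ≠ z) (h2 : x ≠ w) (h3 : y ≠ z)
    (h4 : y ≠ w) {F : Finset (Edge n)} (hF : F ∈ pmSet {x, y, z, w}) (hxy : ed x y h ∈ F) :
    F = mt x y z w h h' := by
  rw [pmSet_mem] at hF
  obtain ⟨hc, hS, h1v⟩ := hF
  -- the edge at `z`
  have hz := h1v z (by simp)
  have hw := h1v w (by simp)
  have hx := h1v x (by simp)
  have hy := h1v y (by simp)
  rw [card_eq_one] at hz hx hy
  obtain ⟨ez, hez⟩ := hz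
  have hez1 : ez ∈ F ∧ z ∈ ez.1 := by
    have : ez ∈ F.filter (fun e => z ∈ e.1) := by rw [hez]; simp
    simpa using this
  obtain ⟨ex, hex⟩ := hx
  obtain ⟨ey, hey⟩ := hy
  have hxu : ∀ e ∈ F, x ∈ e.1 → e = ed x y h := by
    intro e he hxe
    have m1 : e ∈ F.filter (fun e => x ∈ e.1) := by simp [he, hxe]
    have m2 : ed x y h ∈ F.filter (fun e => x ∈ e.1) := by
      simp only [mem_filter, hxy, true_and]; rw [mem_ed]; simp
    rw [hex, mem_singleton] at m1 m2
    rw [m1, m2]
  have hyu : ∀ e ∈ F, y ∈ e.1 → e = ed x y h := by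
    intro e he hye
    have m1 : e ∈ F.filter (fun e => y ∈ e.1) := by simp [he, hye]
    have m2 : ed x y h ∈ F.filter (fun e => y ∈ e.1) := by
      simp only [mem_filter, hxy, true_and]; rw [mem_ed]; simp
    rw [hey, mem_singleton] at m1 m2
    rw [m1, m2]
  have hzez : ez = ed z w h' := by
    obtain ⟨p, q, hpq, rfl⟩ := exists_ed ez
    have hp := hS _ hez1.1 p (by rw [mem_ed]; simp)
    have hq := hS _ hez1.1 q (by rw [mem_ed]; simp)
    have hnx : x ∉ (ed p q hpq).1 := by
      intro hc'
      have := hxu _ hez1.1 hc'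
      have hz' := hez1.2
      rw [this, mem_ed] at hz'
      rcases hz' with rfl | rfl <;> simp_all
    have hny : y ∉ (ed p q hpq).1 := by
      intro hc'
      have := hyu _ hez1.1 hc'
      have hz' := hez1.2
      rw [this, mem_ed] at hz'
      rcases hz' with rfl | rfl <;> simp_all
    have hz' := hez1.2
    rw [mem_ed] at hnx hny hz'
    rw [ed_eq]
    simp only [mem_insert, mem_singleton] at hp hq
    push Not at hnx hny
    rcases hz' with hz' | hz'
    · left
      refine ⟨hz'.symm, ?_⟩
      rcases hq with rfl | rfl | rfl | rfl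
      · exact absurd rfl hnx.2
      · exact absurd rfl hny.2
      · exact absurd hz'.symm hpq
      · rfl
    · right
      refine ⟨?_, hz'.symm⟩
      rcases hp with rfl | rfl | rfl | rfl
      · exact absurd rfl hnx.1
      · exact absurd rfl hny.1
      · exact absurd hz' hpq
      · rfl
  have hsub : mt x y z w h h' ⊆ F := by
    intro e he
    simp only [mt, mem_insert, mem_singleton] at he
    rcases he with rfl | rfl
    · exact hxy
    · rw [← hzez]; exact hez1.1
  have hcard : (mt x y z w h h').card = 2 := by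
    have hne : ed x y h ≠ ed z w h' := by
      rw [Ne, ed_eq]; tauto
    unfold mt; rw [card_pair hne]
  exact (eq_of_subset_of_card_le hsub (by rw [hc, hcard])).symm

theorem pmSet_card {S : Finset (Fin n)} (hS : S.card = 4) : (pmSet S).card = 3 := by
  obtain ⟨x, y, z, w, h1, h2, h3, h4, h5, h6, rfl⟩ := card_eq_four.1 hS
  -- h1 : x ≠ y, h2 : x ≠ z, h3 : x ≠ w, h4 : y ≠ z, h5 : y ≠ w, h6 : z ≠ w
  have e1 : pmSet {x, y, z, w} = {mt x y z w h1 h6, mt x z y w h2 h5, mt x w y z h3 h4} := by
    ext F
    constructor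
    · intro hF
      have hF' := pmSet_mem.1 hF
      have hx := hF'.2.2 x (by simp)
      rw [card_eq_one] at hx
      obtain ⟨ex, hex⟩ := hx
      have hex1 : ex ∈ F ∧ x ∈ ex.1 := by
        have : ex ∈ F.filter (fun e => x ∈ e.1) := by rw [hex]; simp
        simpa using this
      obtain ⟨p, q, hpq, rfl⟩ := exists_ed ex
      have hp := hF'.2.1 _ hex1.1 p (by rw [mem_ed]; simp)
      have hq := hF'.2.1 _ hex1.1 q (by rw [mem_ed]; simp)
      -- wlog p = x
      have : ∃ r, ∃ hr : x ≠ r, ed x r hr ∈ F ∧ r ∈ ({x, y, z, w} : Finset (Fin n)) := by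
        have hx' := hex1.2
        rw [mem_ed] at hx'
        rcases hx' with rfl | rfl
        · exact ⟨q, hpq, hex1.1, hq⟩
        · exact ⟨p, hpq.symm, by rw [ed_symm]; exact hex1.1, hp⟩
      obtain ⟨r, hr, hrF, hrS⟩ := this
      simp only [mem_insert, mem_singleton] at hrS ⊢
      rcases hrS with rfl | rfl | rfl | rfl
      · exact absurd rfl hr
      · left
        exact pm_eq_mt h1 h6 h2 h3 h4 h5 hF hrF
      · right; left
        apply pm_eq_mt h2 h5 h1 h3 h4.symm h6 _ hrF
        have : ({x, r, y, w} : Finset (Fin n)) = {x, y, r, w} := by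
          ext; simp; tauto
        rw [this]; exact hF
      · right; right
        apply pm_eq_mt h3 h4 h1 h2 h5.symm h6.symm _ hrF
        have : ({x, r, y, z} : Finset (Fin n)) = {x, y, z, r} := by
          ext; simp; tauto
        rw [this]; exact hF
    · intro hF
      simp only [mem_insert, mem_singleton] at hF
      rcases hF with rfl | rfl | rfl
      · exact mt_mem_pm h1 h6 h2 h3 h4 h5 rfl
      · exact mt_mem_pm h2 h5 h1 h3 h4.symm h6 (by ext; simp; tauto)
      · exact mt_mem_pm h3 h4 h1 h2 h5.symm h6.symm (by ext; simp; tauto)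
  rw [e1]
  have n1 : mt x y z w h1 h6 ≠ mt x z y w h2 h5 := by
    intro hc
    have : ed x y h1 ∈ mt x z y w h2 h5 := by rw [← hc]; simp [mt]
    simp only [mt, mem_insert, mem_singleton, ed_eq] at this
    tauto
  have n2 : mt x y z w h1 h6 ≠ mt x w y z h3 h4 := by
    intro hc
    have : ed x y h1 ∈ mt x w y z h3 h4 := by rw [← hc]; simp [mt]
    simp only [mt, mem_insert, mem_singleton, ed_eq] at this
    tauto
  have n3 : mt x z y w h2 h5 ≠ mt x w y z h3 h4 := by
    intro hc
    have : ed x z h2 ∈ mt x w y z h3 h4 := by rw [← hc]; simp [mt]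
    simp only [mt, mem_insert, mem_singleton, ed_eq] at this
    tauto
  rw [card_eq_three]
  exact ⟨_, _, _, n1, n2, n3, rfl⟩


/-! row sums, symmetry, support -/

theorem sum_proposalCount (E : Finset (Edge n)) :
    ∑ E' : Finset (Edge n), proposalCount E E' = 6 * n.choose 4 := by
  unfold proposalCount
  rw [sum_comm]
  have : ∀ S ∈ (univ : Finset (Fin n)).powersetCard 4,
      ∑ E' : Finset (Edge n), ∑ F ∈ pmSet S, ∑ F' ∈ (pmSet S).erase F,
        (if switchResult E F F' = E' then 1 else 0) = 6 := by
    intro S hS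
    have hS4 : S.card = 4 := (mem_powersetCard.1 hS).2
    rw [sum_comm]
    have : ∀ F ∈ pmSet S, ∑ E' : Finset (Edge n), ∑ F' ∈ (pmSet S).erase F,
        (if switchResult E F F' = E' then 1 else 0) = 2 := by
      intro F hF
      rw [sum_comm]
      simp only [sum_ite_eq, mem_univ, if_true, sum_const, smul_eq_mul, mul_one]
      rw [card_erase_of_mem hF, pmSet_card hS4]
    rw [sum_congr rfl this, sum_const, pmSet_card hS4]
    rfl
  rw [sum_congr rfl this, sum_const, card_powersetCard, card_univ, Fintype.card_fin, smul_eq_mul,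
    mul_comm]

theorem switch_symm_aux {E E' F F' : Finset (Edge n)} (hne : E ≠ E')
    (h : switchResult E F F' = E') : switchResult E' F' F = E := by
  unfold switchResult at h
  split_ifs at h with hc
  · obtain ⟨h1, h2⟩ := hc
    have hd : Disjoint F F' := by
      rw [disjoint_left]
      intro e he he'
      exact (disjoint_left.1 h2) he' (h1 he)
    unfold switchResult
    rw [if_pos]
    · subst h
      ext e
      simp only [mem_union, mem_sdiff]
      constructor
      · rintro (⟨⟨h3, h4⟩ | h3, h5⟩ | h3)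
        · exact h3
        · exact absurd h3 h5
        · exact h1 h3
      · intro he
        by_cases hF : e ∈ F
        · right; exact hF
        · left
          refine ⟨Or.inl ⟨he, hF⟩, ?_⟩
          intro hF'
          exact (disjoint_left.1 h2) hF' he
    · subst h
      constructor
      · exact subset_union_right
      · rw [disjoint_left]
        intro e he he'
        simp only [mem_union, mem_sdiff] at he'
        rcases he' with h3 | h3
        · exact h3.2 he
        · exact (disjoint_left.1 hd) he h3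
  · exact absurd h hne

theorem proposalCount_symm (E E' : Finset (Edge n)) : proposalCount E E' = proposalCount E' E := by
  by_cases hne : E = E'
  · rw [hne]
  · unfold proposalCount
    apply sum_congr rfl
    intro S _
    have hL : ∀ (A B : Finset (Edge n)), ∑ F ∈ pmSet S, ∑ F' ∈ (pmSet S).erase F,
        (if switchResult A F F' = B then 1 else 0) =
        ∑ F ∈ pmSet S, ∑ F' ∈ pmSet S, (if F' ≠ F ∧ switchResult A F F' = B then 1 else 0) := by
      intro A B
      apply sum_congr rfl
      intro F _
      rw [← sum_filter_add_sum_filter_not (pmSet S) (fun F' => F' ≠ F)]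
      have z : ∑ F' ∈ (pmSet S).filter (fun F' => ¬ F' ≠ F),
          (if F' ≠ F ∧ switchResult A F F' = B then 1 else 0) = 0 := by
        apply sum_eq_zero
        intro F' hF'
        rw [mem_filter] at hF'
        rw [if_neg]
        rintro ⟨h, -⟩
        exact hF'.2 h
      rw [z, add_zero]
      have : (pmSet S).erase F = (pmSet S).filter (fun F' => F' ≠ F) := by
        ext F'; simp [and_comm]
      rw [this]
      apply sum_congr rfl
      intro F' hF'
      rw [mem_filter] at hF'
      simp [hF'.2]
    rw [hL, hL, sum_comm]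
    apply sum_congr rfl
    intro F _
    apply sum_congr rfl
    intro F' _
    have hiff : (F ≠ F' ∧ switchResult E F' F = E') ↔ (F' ≠ F ∧ switchResult E' F F' = E) := by
      constructor
      · rintro ⟨h1, h2⟩
        exact ⟨h1.symm, switch_symm_aux hne h2⟩
      · rintro ⟨h1, h2⟩
        exact ⟨h1.symm, switch_symm_aux (Ne.symm hne) h2⟩
    simp only [hiff]

theorem deg_pm {S : Finset (Fin n)} {F : Finset (Edge n)} (hF : F ∈ pmSet S) (v : Fin n) :
    deg F v = if v ∈ S then 1 else 0 := by
  rw [pmSet_mem] at hF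
  unfold deg
  split_ifs with h
  · exact hF.2.2 v h
  · rw [card_eq_zero, filter_eq_empty_iff]
    intro e he hv
    exact h (hF.2.1 e he v hv)

theorem deg_switch {S : Finset (Fin n)} {E F F' : Finset (Edge n)} (hF : F ∈ pmSet S)
    (hF' : F' ∈ pmSet S) (v : Fin n) : deg (switchResult E F F') v = deg E v := by
  unfold switchResult
  split_ifs with hc
  · obtain ⟨h1, h2⟩ := hc
    have e1 : deg (E \ F ∪ F') v = deg (E \ F) v + deg F' v := by
      unfold deg
      rw [filter_union, card_union_of_disjoint]
      rw [disjoint_left]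
      intro e he he'
      simp only [mem_filter, mem_sdiff] at he he'
      exact (disjoint_left.1 h2) he'.1 he.1.1
    have e2 : deg E v = deg (E \ F) v + deg F v := by
      unfold deg
      rw [← card_union_of_disjoint, ← filter_union, sdiff_union_of_subset h1]
      rw [disjoint_left]
      intro e he he'
      simp only [mem_filter, mem_sdiff] at he he'
      exact he.1.2 he'.1
    rw [e1, e2, deg_pm hF, deg_pm hF']
  · rfl

theorem switch_mem {d : Fin n → ℕ} {S : Finset (Fin n)} {E F F' : Finset (Edge n)}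
    (hE : E ∈ realizations d) (hF : F ∈ pmSet S)
    (hF' : F' ∈ pmSet S) : switchResult E F F' ∈ realizations d := by
  unfold realizations at *
  simp only [mem_filter, mem_univ, true_and] at *
  intro v
  rw [deg_switch hF hF', hE v]

theorem proposalCount_support {d : Fin n → ℕ} {E E' : Finset (Edge n)}
    (hE : E ∈ realizations d) (hE' : E' ∉ realizations d) : proposalCount E E' = 0 := by
  unfold proposalCount
  apply sum_eq_zero
  intro S _
  apply sum_eq_zero
  intro F hF
  apply sum_eq_zero
  intro F' hF'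
  rw [if_neg]
  rintro rfl
  exact hE' (switch_mem hE hF (mem_of_mem_erase hF'))

theorem kernel_symm (E E' : Finset (Edge n)) : kernel n E E' = kernel n E' E := by
  unfold kernel
  rw [proposalCount_symm]
  by_cases h : E = E'
  · rw [h]
  · rw [if_neg h, if_neg (Ne.symm h)]

theorem kernel_nonneg (E E' : Finset (Edge n)) : 0 ≤ kernel n E E' := by
  unfold kernel
  have : (0:ℝ) ≤ (proposalCount E E' : ℝ) / (12 * (n.choose 4 : ℝ)) := by positivity
  split_ifs <;> linarith

theorem kernel_support {d : Fin n → ℕ} {E E' : Finset (Edge n)}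
    (hE : E ∈ realizations d) (hE' : E' ∉ realizations d) : kernel n E E' = 0 := by
  unfold kernel
  rw [proposalCount_support hE hE', if_neg]
  · simp
  · rintro rfl; exact hE' hE

theorem choose_pos' (hn : 4 ≤ n) : (0:ℝ) < (n.choose 4 : ℝ) := by
  exact_mod_cast Nat.choose_pos hn

theorem kernel_row (hn : 4 ≤ n) (E : Finset (Edge n)) :
    ∑ E' : Finset (Edge n), kernel n E E' = 1 := by
  unfold kernel
  rw [sum_add_distrib, sum_ite_eq, if_pos (mem_univ _), ← sum_div, ← Nat.cast_sum,
    sum_proposalCount]
  have := choose_pos' hn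
  push_cast
  field_simp
  norm_num

theorem kernel_row' (hn : 4 ≤ n) {d : Fin n → ℕ} {E : Finset (Edge n)}
    (hE : E ∈ realizations d) : ∑ E' ∈ realizations d, kernel n E E' = 1 := by
  rw [← kernel_row hn E]
  apply sum_subset (subset_univ _)
  intro E' _ hE'
  exact kernel_support hE hE'

/-- sum of `g` over all proposals at `E` -/
noncomputable def prop (E : Finset (Edge n)) (g : Finset (Edge n) → ℝ) : ℝ :=
  ∑ S ∈ (univ : Finset (Fin n)).powersetCard 4,
    ∑ F ∈ pmSet S, ∑ F' ∈ (pmSet S).erase F, g (switchResult E F F')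

theorem prop_eq {d : Fin n → ℕ} {E : Finset (Edge n)}
    (hE : E ∈ realizations d) (g : Finset (Edge n) → ℝ) :
    ∑ E' ∈ realizations d, (proposalCount E E' : ℝ) * g E' = prop E g := by
  have h1 : ∑ E' ∈ realizations d, (proposalCount E E' : ℝ) * g E' =
      ∑ E' : Finset (Edge n), (proposalCount E E' : ℝ) * g E' := by
    apply sum_subset (subset_univ _)
    intro E' _ hE'
    rw [proposalCount_support hE hE']; simp
  rw [h1]
  unfold proposalCount prop
  push_cast
  simp only [sum_mul]
  rw [sum_comm]
  apply sum_congr rfl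
  intro S _
  rw [sum_comm]
  apply sum_congr rfl
  intro F _
  rw [sum_comm]
  apply sum_congr rfl
  intro F' _
  simp

/-- Dirichlet form -/
theorem dirichlet (hn : 4 ≤ n) (d : Fin n → ℕ) (f : Finset (Edge n) → ℝ) :
    ∑ G ∈ realizations d, f G * (f G - ∑ G' ∈ realizations d, kernel n G G' * f G') =
      (1 / (24 * (n.choose 4 : ℝ))) *
        ∑ G ∈ realizations d, prop G (fun G' => (f G - f G') ^ 2) := by
  set R := realizations d with hR
  have hC := choose_pos' hn
  have h1 : ∀ G ∈ R, f G * (f G - ∑ G' ∈ R, kernel n G G' * f G') =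
      ∑ G' ∈ R, kernel n G G' * (f G * f G - f G * f G') := by
    intro G hG
    have : f G * f G = ∑ G' ∈ R, kernel n G G' * (f G * f G) := by
      rw [← sum_mul, kernel_row' hn hG, one_mul]
    have e : f G * (f G - ∑ G' ∈ R, kernel n G G' * f G') =
        (∑ G' ∈ R, kernel n G G' * (f G * f G)) - ∑ G' ∈ R, kernel n G G' * (f G * f G') := by
      rw [← this, mul_sub, mul_sum]
      congr 1
      apply sum_congr rfl
      intro G' _
      ring
    rw [e, ← sum_sub_distrib]
    apply sum_congr rfl
    intro G' _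
    ring
  rw [sum_congr rfl h1]
  have h2 : ∑ G ∈ R, ∑ G' ∈ R, kernel n G G' * (f G * f G - f G * f G') =
      ∑ G ∈ R, ∑ G' ∈ R, kernel n G G' * (f G' * f G' - f G * f G') := by
    rw [sum_comm]
    apply sum_congr rfl
    intro G _
    apply sum_congr rfl
    intro G' _
    rw [kernel_symm]
    ring
  have h3 : ∑ G ∈ R, ∑ G' ∈ R, kernel n G G' * (f G * f G - f G * f G') =
      (1/2) * ∑ G ∈ R, ∑ G' ∈ R, kernel n G G' * (f G - f G') ^ 2 := by
    have : ∑ G ∈ R, ∑ G' ∈ R, kernel n G G' * (f G - f G') ^ 2 =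
        ∑ G ∈ R, ∑ G' ∈ R, kernel n G G' * (f G * f G - f G * f G') +
        ∑ G ∈ R, ∑ G' ∈ R, kernel n G G' * (f G' * f G' - f G * f G') := by
      rw [← sum_add_distrib]
      apply sum_congr rfl
      intro G _
      rw [← sum_add_distrib]
      apply sum_congr rfl
      intro G' _
      ring
    rw [this, ← h2]
    ring
  rw [h3]
  have h4 : ∀ G ∈ R, ∑ G' ∈ R, kernel n G G' * (f G - f G') ^ 2 =
      (1 / (12 * (n.choose 4 : ℝ))) * prop G (fun G' => (f G - f G') ^ 2) := by
    intro G hG
    rw [← prop_eq hG, mul_sum]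
    apply sum_congr rfl
    intro G' _
    unfold kernel
    by_cases h : G = G'
    · subst h; simp
    · rw [if_neg h]
      field_simp
      ring
  rw [sum_congr rfl h4, ← mul_sum]
  field_simp
  ring

end Crest.Agent.SW.CK
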