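import Crest.Agent.SW.Defs
import Crest.Agent.SW.ChainK1
import Crest.Prelude.Def_SwitchChain

/-!
Chunk K (row 299), part 2: transfer between the two graph models.
-/

set_option autoImplicit false
open Finset

namespace Crest.Agent.SW.CK

open Crest.SwitchChain

variable {n : ℕ}

/-- adjacency function of an edge set -/
def Phi (E : Finset (Edge n)) : Adj n :=
  fun x y => if h : x ≠ y then decide (ed x y h ∈ E) else false

/-- edge set of an adjacency function -/
def Psi (G : Adj n) : Finset (Edge n) :=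
  univ.filter fun e => ∃ x y, ∃ h : x ≠ y, e = ed x y h ∧ G x y = true

theorem Phi_iff (E : Finset (Edge n)) {x y : Fin n} (h : x ≠ y) :
    Phi E x y = true ↔ ed x y h ∈ E := by
  unfold Phi
  rw [dif_pos h, decide_eq_true_iff]

theorem Phi_self (E : Finset (Edge n)) (x : Fin n) : Phi E x x = false := by
  unfold Phi; simp

theorem IsG_Phi (E : Finset (Edge n)) : IsG (Phi E) := by
  refine ⟨?_, Phi_self E⟩
  intro x y
  by_cases h : x = y
  · rw [h]
  · have h1 := Phi_iff E h
    have h2 := Phi_iff E (Ne.symm h)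
    rw [ed_symm] at h2
    rw [Bool.eq_iff_iff, h1, h2]

theorem mem_Psi {G : Adj n} (hG : IsG G) {x y : Fin n} (h : x ≠ y) :
    ed x y h ∈ Psi G ↔ G x y = true := by
  unfold Psi
  simp only [mem_filter, mem_univ, true_and]
  constructor
  · rintro ⟨z, w, h', he, hg⟩
    rw [ed_eq] at he
    rcases he with ⟨rfl, rfl⟩ | ⟨rfl, rfl⟩
    · exact hg
    · rw [hG.1]; exact hg
  · intro hg
    exact ⟨x, y, h, rfl, hg⟩

theorem Psi_Phi (E : Finset (Edge n)) : Psi (Phi E) = E := by
  ext e
  obtain ⟨x, y, h, rfl⟩ := exists_ed e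
  rw [mem_Psi (IsG_Phi E), Phi_iff]

theorem Phi_Psi {G : Adj n} (hG : IsG G) : Phi (Psi G) = G := by
  funext x y
  by_cases h : x = y
  · subst h; rw [Phi_self, hG.2]
  · rw [Bool.eq_iff_iff, Phi_iff _ h, mem_Psi hG]

theorem dg_Phi (E : Finset (Edge n)) (v : Fin n) : dg (Phi E) v = deg E v := by
  unfold dg deg
  have hne : ∀ u, Phi E v u = true → v ≠ u := by
    rintro u hu rfl
    simp [Phi_self] at hu
  apply card_bij (i := fun u hu => ed v u (hne u (mem_filter.1 hu).2))
  · intro u hu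
    have h1 := (mem_filter.1 hu).2
    rw [mem_filter]
    refine ⟨(Phi_iff E (hne u h1)).1 h1, ?_⟩
    rw [mem_ed]; left; rfl
  · intro u hu w hw h
    rw [ed_eq] at h
    rcases h with ⟨-, h⟩ | ⟨h1, h2⟩
    · exact h
    · rw [h2, ← h1]
  · intro e he
    obtain ⟨h1, h2⟩ := mem_filter.1 he
    obtain ⟨x, y, hxy, rfl⟩ := exists_ed e
    rw [mem_ed] at h2
    rcases h2 with rfl | rfl
    · exact ⟨y, by rw [mem_filter]; exact ⟨mem_univ _, (Phi_iff E hxy).2 h1⟩, rfl⟩
    · refine ⟨x, ?_, ?_⟩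
      · rw [mem_filter]
        refine ⟨mem_univ _, (Phi_iff E hxy.symm).2 ?_⟩
        rw [ed_symm]; exact h1
      · exact ed_symm _

theorem Phi_mem {d : Fin n → ℕ} {E : Finset (Edge n)} (hE : E ∈ realizations d) :
    Phi E ∈ Om d := by
  unfold realizations at hE
  unfold Om
  simp only [mem_filter, mem_univ, true_and] at hE ⊢
  exact ⟨IsG_Phi E, fun v => by rw [dg_Phi, hE v]⟩

theorem Psi_mem {d : Fin n → ℕ} {G : Adj n} (hG : G ∈ Om d) : Psi G ∈ realizations d := by
  unfold Om at hG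
  unfold realizations
  simp only [mem_filter, mem_univ, true_and] at hG ⊢
  intro v
  rw [← dg_Phi, Phi_Psi hG.1, hG.2 v]

theorem Om_isG {d : Fin n → ℕ} {G : Adj n} (hG : G ∈ Om d) : IsG G := by
  unfold Om at hG
  simp only [mem_filter, mem_univ, true_and] at hG
  exact hG.1

theorem sum_Om (d : Fin n → ℕ) (F : Adj n → ℝ) :
    ∑ G ∈ Om d, F G = ∑ E ∈ realizations d, F (Phi E) := by
  apply sum_nbij' Psi Phi
  · intro G hG; exact Psi_mem hG
  · intro E hE; exact Phi_mem hE
  · intro G hG; exact Phi_Psi (Om_isG hG)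
  · intro E _; exact Psi_Phi E
  · intro G hG; rw [Phi_Psi (Om_isG hG)]

theorem card_Om (d : Fin n → ℕ) : (Om d).card = (realizations d).card := by
  apply card_nbij' Psi Phi
  · intro G hG; exact Psi_mem hG
  · intro E hE; exact Phi_mem hE
  · intro G hG; exact Phi_Psi (Om_isG hG)
  · intro E _; exact Psi_Phi E

theorem blk_symm {a b c e x y : Fin n} : blk a b c e x y ↔ blk a b c e y x := by
  unfold blk; tauto

theorem IsG_sg {a b c e : Fin n} (hD : D4 a b c e) {G : Adj n} (hG : IsG G) :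
    IsG (sg a b c e G) := by
  obtain ⟨h1, h2, h3, h4, h5, h6⟩ := hD
  constructor
  · intro x y
    unfold sg
    rw [hG.1 x y]
    by_cases h : blk a b c e x y
    · rw [if_pos h, if_pos (blk_symm.1 h)]
    · rw [if_neg h, if_neg (fun h' => h (blk_symm.1 h'))]
  · intro x
    unfold sg
    rw [if_neg, hG.2]
    unfold blk
    rintro (⟨rfl | rfl, rfl | rfl⟩ | ⟨rfl | rfl, rfl | rfl⟩) <;> simp_all

theorem blk_iff {a b c e : Fin n} (hac : a ≠ c) (hbe : b ≠ e) (hae : a ≠ e) (hbc : b ≠ c)
    {x y : Fin n} (h : x ≠ y) :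
    blk a b c e x y ↔ (ed x y h ∈ mt a c b e hac hbe ∨ ed x y h ∈ mt a e b c hae hbc) := by
  simp only [mt, mem_insert, mem_singleton, ed_eq, blk]
  constructor
  · rintro (⟨h1 | h1, h2 | h2⟩ | ⟨h1 | h1, h2 | h2⟩)
    · exact Or.inl (Or.inl (Or.inl ⟨h1, h2⟩))
    · exact Or.inr (Or.inl (Or.inl ⟨h1, h2⟩))
    · exact Or.inr (Or.inr (Or.inl ⟨h1, h2⟩))
    · exact Or.inl (Or.inr (Or.inl ⟨h1, h2⟩))
    · exact Or.inl (Or.inl (Or.inr ⟨h1, h2⟩))
    · exact Or.inr (Or.inr (Or.inr ⟨h1, h2⟩))
    · exact Or.inr (Or.inl (Or.inr ⟨h1, h2⟩))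
    · exact Or.inl (Or.inr (Or.inr ⟨h1, h2⟩))
  · rintro (((⟨h1, h2⟩ | ⟨h1, h2⟩) | (⟨h1, h2⟩ | ⟨h1, h2⟩)) | ((⟨h1, h2⟩ | ⟨h1, h2⟩) | (⟨h1, h2⟩ | ⟨h1, h2⟩)))
    · exact Or.inl ⟨Or.inl h1, Or.inl h2⟩
    · exact Or.inr ⟨Or.inl h1, Or.inl h2⟩
    · exact Or.inl ⟨Or.inr h1, Or.inr h2⟩
    · exact Or.inr ⟨Or.inr h1, Or.inr h2⟩
    · exact Or.inl ⟨Or.inl h1, Or.inr h2⟩
    · exact Or.inr ⟨Or.inr h1, Or.inl h2⟩
    · exact Or.inl ⟨Or.inr h1, Or.inl h2⟩
    · exact Or.inr ⟨Or.inl h1, Or.inr h2⟩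

/-- one alternating block with given orientation -/
theorem Psi_sg_aux {a b c e : Fin n} (hD : D4 a b c e) (hac : a ≠ c) (hbe : b ≠ e) (hae : a ≠ e)
    (hbc : b ≠ c) {E : Finset (Edge n)} (k1 : ed a c hac ∈ E) (k2 : ed b e hbe ∈ E)
    (k3 : ed a e hae ∉ E) (k4 : ed b c hbc ∉ E) :
    Psi (sg a b c e (Phi E)) = switchResult E (mt a c b e hac hbe) (mt a e b c hae hbc) := by
  have hdisj : Disjoint (mt a e b c hae hbc) E := by
    rw [disjoint_left]
    intro t ht
    simp only [mt, mem_insert, mem_singleton] at ht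
    rcases ht with rfl | rfl
    · exact k3
    · exact k4
  have hsub : mt a c b e hac hbe ⊆ E := by
    intro t ht
    simp only [mt, mem_insert, mem_singleton] at ht
    rcases ht with rfl | rfl
    · exact k1
    · exact k2
  unfold switchResult
  rw [if_pos ⟨hsub, hdisj⟩]
  ext t
  obtain ⟨x, y, h, rfl⟩ := exists_ed t
  rw [mem_Psi (IsG_sg hD (IsG_Phi E))]
  simp only [mem_union, mem_sdiff]
  unfold sg
  by_cases hb : blk a b c e x y
  · rw [if_pos hb]
    rw [blk_iff hac hbe hae hbc h] at hb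
    rcases hb with hb | hb
    · have hE := hsub hb
      have hF' : ed x y h ∉ mt a e b c hae hbc := fun hc => (disjoint_left.1 hdisj) hc hE
      have : Phi E x y = true := (Phi_iff E h).2 hE
      rw [this]
      simp [hb, hF']
    · have hE : ed x y h ∉ E := (disjoint_left.1 hdisj) hb
      have : Phi E x y = false := by
        rw [← Bool.not_eq_true, Phi_iff E h]; exact hE
      rw [this]
      simp [hb]
  · rw [if_neg hb]
    rw [blk_iff hac hbe hae hbc h] at hb
    push Not at hb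
    rw [Phi_iff E h]
    simp [hb.1, hb.2]

theorem sg_swap {a b c e : Fin n} (G : Adj n) : sg a b c e G = sg a b e c G := by
  funext x y
  unfold sg
  have : blk a b c e x y ↔ blk a b e c x y := by unfold blk; tauto
  by_cases h : blk a b c e x y
  · rw [if_pos h, if_pos (this.1 h)]
  · rw [if_neg h, if_neg (fun h' => h (this.2 h'))]

theorem mt_ne {a b c e : Fin n} (hac : a ≠ c) (hbe : b ≠ e) (hae : a ≠ e) (hbc : b ≠ c)
    (hab : a ≠ b) (hce : c ≠ e) : mt a c b e hac hbe ≠ mt a e b c hae hbc := by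
  intro hc
  have : ed a c hac ∈ mt a e b c hae hbc := by rw [← hc]; simp [mt]
  simp only [mt, mem_insert, mem_singleton, ed_eq] at this
  tauto

theorem Psi_sg {a b c e : Fin n} (hD : D4 a b c e) {E : Finset (Edge n)}
    (hij : ij a b c e (Phi E) = true) :
    ∃ F ∈ pmSet ({a, b, c, e} : Finset (Fin n)), ∃ F' ∈ (pmSet ({a, b, c, e} : Finset (Fin n))).erase F,
      Psi (sg a b c e (Phi E)) = switchResult E F F' := by
  obtain ⟨hab, hce, hac, hae, hbc, hbe⟩ := id hD
  unfold ij at hij
  by_cases h : Phi E a c = true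
  · have h1 : Phi E b e = true := by
      rw [h] at hij; revert hij
      cases Phi E b e <;> simp
    have h2 : Phi E a e = false := by
      rw [h] at hij; revert hij
      cases Phi E a e <;> simp
    have h3 : Phi E b c = false := by
      rw [h2] at hij; revert hij
      cases Phi E b c <;> simp
    refine ⟨mt a c b e hac hbe, mt_mem_pm _ _ hab hae hbc.symm hce (by ext; simp; tauto), 
      mt a e b c hae hbc, ?_, ?_⟩
    · rw [mem_erase]
      refine ⟨(mt_ne hac hbe hae hbc hab hce).symm, ?_⟩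
      exact mt_mem_pm _ _ hab hac hbe.symm hce.symm (by ext; simp; tauto)
    · apply Psi_sg_aux hD
      · exact (Phi_iff E hac).1 h
      · exact (Phi_iff E hbe).1 h1
      · rw [← Phi_iff E hae, h2]; simp
      · rw [← Phi_iff E hbc, h3]; simp
  · have h0 : Phi E a c = false := by simpa using h
    have h1 : Phi E b e = false := by
      rw [h0] at hij; revert hij
      cases Phi E b e <;> simp
    have h2 : Phi E a e = true := by
      rw [h0] at hij; revert hij
      cases Phi E a e <;> simp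
    have h3 : Phi E b c = true := by
      rw [h2] at hij; revert hij
      cases Phi E b c <;> simp
    refine ⟨mt a e b c hae hbc, mt_mem_pm _ _ hab hac hbe.symm hce.symm (by ext; simp; tauto), 
      mt a c b e hac hbe, ?_, ?_⟩
    · rw [mem_erase]
      refine ⟨mt_ne hac hbe hae hbc hab hce, ?_⟩
      exact mt_mem_pm _ _ hab hae hbc.symm hce (by ext; simp; tauto)
    · rw [sg_swap]
      apply Psi_sg_aux (c := e) (e := c)
      · exact ⟨hab, hce.symm, hae, hac, hbe, hbc⟩
      · exact (Phi_iff E hae).1 h2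
      · exact (Phi_iff E hbc).1 h3
      · rw [← Phi_iff E hac, h0]; simp
      · rw [← Phi_iff E hbe, h1]; simp

/-- sum over proposals on the four-set `S` -/
noncomputable def HS (E : Finset (Edge n)) (g : Finset (Edge n) → ℝ) (S : Finset (Fin n)) : ℝ :=
  ∑ F ∈ pmSet S, ∑ F' ∈ (pmSet S).erase F, g (switchResult E F F')

theorem HS_nonneg (E : Finset (Edge n)) (g : Finset (Edge n) → ℝ) (hg : ∀ G, 0 ≤ g G)
    (S : Finset (Fin n)) : 0 ≤ HS E g S :=
  sum_nonneg fun _ _ => sum_nonneg fun _ _ => hg _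

theorem tuple_le (E : Finset (Edge n)) (g : Finset (Edge n) → ℝ) (hg : ∀ G, 0 ≤ g G)
    (a b c e : Fin n) :
    (if D4 a b c e ∧ ij a b c e (Phi E) = true then g (Psi (sg a b c e (Phi E))) else 0) ≤
      ∑ S ∈ (univ : Finset (Fin n)).powersetCard 4,
        (if a ∈ S then (if b ∈ S then (if c ∈ S then (if e ∈ S then HS E g S else 0) else 0)
          else 0) else 0) := by
  have hterm : ∀ S : Finset (Fin n), 0 ≤ (if a ∈ S then (if b ∈ S then (if c ∈ S then
      (if e ∈ S then HS E g S else 0) else 0) else 0) else 0) := by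
    intro S
    have := HS_nonneg E g hg S
    split_ifs <;> first | exact this | exact le_rfl
  split_ifs with h
  · obtain ⟨hD, hij⟩ := h
    obtain ⟨F, hF, F', hF', heq⟩ := Psi_sg hD hij
    obtain ⟨hab, hce, hac, hae, hbc, hbe⟩ := id hD
    have hcard : ({a, b, c, e} : Finset (Fin n)).card = 4 := by
      rw [card_eq_four]
      exact ⟨a, b, c, e, hab, hac, hae, hbc, hbe, hce, rfl⟩
    have hmem : ({a, b, c, e} : Finset (Fin n)) ∈ (univ : Finset (Fin n)).powersetCard 4 := by
      rw [mem_powersetCard]; exact ⟨subset_univ _, hcard⟩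
    refine le_trans ?_ (single_le_sum (fun S _ => hterm S) hmem)
    simp only [mem_insert, mem_singleton, true_or, or_true, if_true]
    rw [heq]
    unfold HS
    refine le_trans ?_ (single_le_sum (f := fun F => ∑ F' ∈ (pmSet ({a, b, c, e} : Finset (Fin n))).erase F, g (switchResult E F F')) (fun F _ => sum_nonneg fun _ _ => hg _) hF)
    exact single_le_sum (f := fun F' => g (switchResult E F F')) (fun _ _ => hg _) hF'
  · exact sum_nonneg fun S _ => hterm S

theorem tuples_le (E : Finset (Edge n)) (g : Finset (Edge n) → ℝ) (hg : ∀ G, 0 ≤ g G) :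
    ∑ a, ∑ b, ∑ c, ∑ e,
      (if D4 a b c e ∧ ij a b c e (Phi E) = true then g (Psi (sg a b c e (Phi E))) else 0) ≤
      256 * prop E g := by
  have h1 : ∑ a, ∑ b, ∑ c, ∑ e,
      (if D4 a b c e ∧ ij a b c e (Phi E) = true then g (Psi (sg a b c e (Phi E))) else 0) ≤
      ∑ a, ∑ b, ∑ c, ∑ e, ∑ S ∈ (univ : Finset (Fin n)).powersetCard 4,
        (if a ∈ S then (if b ∈ S then (if c ∈ S then (if e ∈ S then HS E g S else 0) else 0)
          else 0) else 0) := by
    apply sum_le_sum; intro a _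
    apply sum_le_sum; intro b _
    apply sum_le_sum; intro c _
    apply sum_le_sum; intro e _
    exact tuple_le E g hg a b c e
  refine h1.trans (le_of_eq ?_)
  have h2 : ∀ S : Finset (Fin n), S ∈ (univ : Finset (Fin n)).powersetCard 4 →
      ∑ a, ∑ b, ∑ c, ∑ e, (if a ∈ S then (if b ∈ S then (if c ∈ S then
        (if e ∈ S then HS E g S else 0) else 0) else 0) else 0) = 256 * HS E g S := by
    intro S hS
    have h4 : S.card = 4 := (mem_powersetCard.1 hS).2
    have e1 : ∀ X : ℝ, ∑ e : Fin n, (if e ∈ S then X else 0) = 4 * X := by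
      intro X
      rw [sum_ite_mem, univ_inter, sum_const, h4, nsmul_eq_mul]
      norm_num
    have e2 : ∀ a b c : Fin n, ∑ e, (if a ∈ S then (if b ∈ S then (if c ∈ S then
        (if e ∈ S then HS E g S else 0) else 0) else 0) else 0) =
        (if a ∈ S then (if b ∈ S then (if c ∈ S then 4 * HS E g S else 0) else 0) else 0) := by
      intro a b c
      by_cases ha : a ∈ S <;> by_cases hb : b ∈ S <;> by_cases hc : c ∈ S <;>
        simp only [ha, hb, hc, if_true, if_false, sum_const_zero, e1]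
    simp only [e2]
    have e3 : ∀ a b : Fin n, ∑ c, (if a ∈ S then (if b ∈ S then (if c ∈ S then
        4 * HS E g S else 0) else 0) else 0) =
        (if a ∈ S then (if b ∈ S then 4 * (4 * HS E g S) else 0) else 0) := by
      intro a b
      by_cases ha : a ∈ S <;> by_cases hb : b ∈ S <;>
        simp only [ha, hb, if_true, if_false, sum_const_zero, e1]
    simp only [e3]
    have e4 : ∀ a : Fin n, ∑ b, (if a ∈ S then (if b ∈ S then 4 * (4 * HS E g S) else 0) else 0) =
        (if a ∈ S then 4 * (4 * (4 * HS E g S)) else 0) := by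
      intro a
      by_cases ha : a ∈ S <;> simp only [ha, if_true, if_false, sum_const_zero, e1]
    simp only [e4, e1]
    ring
  unfold prop
  rw [mul_sum]
  have h3 : ∀ S ∈ (univ : Finset (Fin n)).powersetCard 4,
      256 * ∑ F ∈ pmSet S, ∑ F' ∈ (pmSet S).erase F, g (switchResult E F F') =
      ∑ a, ∑ b, ∑ c, ∑ e, (if a ∈ S then (if b ∈ S then (if c ∈ S then
        (if e ∈ S then HS E g S else 0) else 0) else 0) else 0) := by
    intro S hS
    rw [h2 S hS]
    rfl
  rw [sum_congr rfl h3]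
  symm
  rw [sum_comm]
  apply sum_congr rfl; intro a _
  rw [sum_comm]
  apply sum_congr rfl; intro b _
  rw [sum_comm]
  apply sum_congr rfl; intro c _
  exact sum_comm

end Crest.Agent.SW.CK
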