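import Crest.Agent.SW.Defs
import Crest.Agent.SW.ChainK1
import Crest.Prelude.Def_SwitchChain

/-!
Chunk K (row 299), part 3: mixing from a Poincare inequality.
-/

set_option autoImplicit false
open Finset

namespace Crest.Agent.SW.CK

open Crest.SwitchChain

section Abs

variable {α : Type*} (R : Finset α) (K : α → α → ℝ)

/-- bilinear form -/
noncomputable def BB (f g : α → ℝ) : ℝ := ∑ x ∈ R, ∑ y ∈ R, K x y * f x * g y

/-- operator -/
noncomputable def KK (f : α → ℝ) (x : α) : ℝ := ∑ y ∈ R, K x y * f y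

/-- squared norm -/
noncomputable def NN (f : α → ℝ) : ℝ := ∑ x ∈ R, f x ^ 2

variable {R K}

theorem BB_symm (hs : ∀ x y, K x y = K y x) (f g : α → ℝ) : BB R K f g = BB R K g f := by
  unfold BB
  rw [sum_comm]
  apply sum_congr rfl; intro x _
  apply sum_congr rfl; intro y _
  rw [hs]; ring

theorem BB_eq (f g : α → ℝ) : BB R K f g = ∑ x ∈ R, f x * KK R K g x := by
  unfold BB KK
  apply sum_congr rfl; intro x _
  rw [mul_sum]
  apply sum_congr rfl; intro y _
  ring

theorem BB_psd (hs : ∀ x y, K x y = K y x) (h0 : ∀ x y, 0 ≤ K x y) (hd : ∀ x, 1 / 2 ≤ K x x)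
    (hr : ∀ x ∈ R, ∑ y ∈ R, K x y = 1) (f : α → ℝ) : 0 ≤ BB R K f f := by
  have h1 : ∑ x ∈ R, ∑ y ∈ R, K x y * (f x + f y) ^ 2 = 2 * NN R f + 2 * BB R K f f := by
    have e1 : ∑ x ∈ R, ∑ y ∈ R, K x y * (f x + f y) ^ 2 =
        ∑ x ∈ R, ∑ y ∈ R, K x y * f x ^ 2 + ∑ x ∈ R, ∑ y ∈ R, K x y * f y ^ 2 +
        2 * ∑ x ∈ R, ∑ y ∈ R, K x y * f x * f y := by
      rw [mul_sum, ← sum_add_distrib, ← sum_add_distrib]
      apply sum_congr rfl; intro x _
      rw [mul_sum, ← sum_add_distrib, ← sum_add_distrib]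
      apply sum_congr rfl; intro y _
      ring
    have e2 : ∑ x ∈ R, ∑ y ∈ R, K x y * f x ^ 2 = NN R f := by
      unfold NN
      apply sum_congr rfl; intro x hx
      rw [← sum_mul, hr x hx, one_mul]
    have e3 : ∑ x ∈ R, ∑ y ∈ R, K x y * f y ^ 2 = NN R f := by
      rw [← e2, sum_comm]
      apply sum_congr rfl; intro x _
      apply sum_congr rfl; intro y _
      rw [hs]
    rw [e1, e2, e3]
    unfold BB
    ring
  have h2 : 2 * NN R f ≤ ∑ x ∈ R, ∑ y ∈ R, K x y * (f x + f y) ^ 2 := by
    unfold NN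
    rw [mul_sum]
    apply sum_le_sum; intro x hx
    refine le_trans ?_ (single_le_sum (f := fun y => K x y * (f x + f y) ^ 2)
      (fun y _ => mul_nonneg (h0 x y) (sq_nonneg _)) hx)
    have := hd x
    have h4 : (f x + f x) ^ 2 = 4 * f x ^ 2 := by ring
    simp only [h4]
    nlinarith [sq_nonneg (f x)]
  linarith

theorem BB_cs (hs : ∀ x y, K x y = K y x) (hp : ∀ f : α → ℝ, 0 ≤ BB R K f f) (f g : α → ℝ) :
    BB R K f g ^ 2 ≤ BB R K f f * BB R K g g := by
  have h1 : ∀ t : ℝ, 0 ≤ BB R K g g * (t * t) + (2 * BB R K f g) * t + BB R K f f := by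
    intro t
    have h2 := hp (fun x => f x + t * g x)
    have h3 : BB R K (fun x => f x + t * g x) (fun x => f x + t * g x) =
        BB R K f f + t * BB R K f g + t * BB R K g f + t * t * BB R K g g := by
      unfold BB
      rw [mul_sum, mul_sum, mul_sum, ← sum_add_distrib, ← sum_add_distrib, ← sum_add_distrib]
      apply sum_congr rfl; intro x _
      rw [mul_sum, mul_sum, mul_sum, ← sum_add_distrib, ← sum_add_distrib, ← sum_add_distrib]
      apply sum_congr rfl; intro y _
      ring
    rw [h3, BB_symm hs g f] at h2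
    linarith
  have h4 := discrim_le_zero h1
  unfold discrim at h4
  nlinarith

theorem contraction (hs : ∀ x y, K x y = K y x) (hp : ∀ f : α → ℝ, 0 ≤ BB R K f f)
    (hr : ∀ x ∈ R, ∑ y ∈ R, K x y = 1) {r : ℝ} (hr0 : 0 ≤ r)
    (hgap : ∀ f : α → ℝ, ∑ x ∈ R, f x = 0 → BB R K f f ≤ r * NN R f) (f : α → ℝ)
    (hf : ∑ x ∈ R, f x = 0) : NN R (KK R K f) ≤ r ^ 2 * NN R f ∧ ∑ x ∈ R, KK R K f x = 0 := by
  have hsum : ∑ x ∈ R, KK R K f x = 0 := by
    unfold KK
    rw [sum_comm]
    have : ∀ y ∈ R, ∑ x ∈ R, K x y * f y = f y := by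
      intro y hy
      rw [← sum_mul]
      have : ∑ x ∈ R, K x y = 1 := by
        rw [← hr y hy]
        apply sum_congr rfl; intro x _; rw [hs]
      rw [this, one_mul]
    rw [sum_congr rfl this, hf]
  refine ⟨?_, hsum⟩
  set A := NN R (KK R K f) with hA
  have hA0 : 0 ≤ A := sum_nonneg fun _ _ => sq_nonneg _
  have hF0 : 0 ≤ NN R f := sum_nonneg fun _ _ => sq_nonneg _
  have h1 : BB R K f (KK R K f) = A := by
    rw [BB_symm hs, BB_eq, hA]
    unfold NN
    apply sum_congr rfl; intro x _; ring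
  have h2 := BB_cs hs hp f (KK R K f)
  rw [h1] at h2
  have h3 := hgap f hf
  have h4 := hgap (KK R K f) hsum
  have h5 : BB R K f f * BB R K (KK R K f) (KK R K f) ≤ (r * NN R f) * (r * A) := by
    apply mul_le_mul h3 h4 (hp _)
    positivity
  have h6 : A * A ≤ (r ^ 2 * NN R f) * A := by nlinarith
  by_cases hA1 : A = 0
  · rw [hA1]; positivity
  · have hA2 : 0 < A := lt_of_le_of_ne hA0 (Ne.symm hA1)
    exact le_of_mul_le_mul_right h6 hA2

end Abs

variable {n : ℕ}

theorem pow_support {d : Fin n → ℕ} {G : Finset (Edge n)} (hG : G ∈ realizations d) (t : ℕ) :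
    ∀ H, H ∉ realizations d → (kernel n ^ t) G H = 0 := by
  induction t with
  | zero =>
    intro H hH
    rw [pow_zero, Matrix.one_apply_ne]
    rintro rfl; exact hH hG
  | succ t ih =>
    intro H hH
    rw [pow_succ, Matrix.mul_apply]
    apply sum_eq_zero
    intro J _
    by_cases hJ : J ∈ realizations d
    · rw [kernel_support hJ hH, mul_zero]
    · rw [ih J hJ, zero_mul]

theorem pow_step {d : Fin n → ℕ} {G : Finset (Edge n)} (hG : G ∈ realizations d) (t : ℕ)
    (H : Finset (Edge n)) :
    (kernel n ^ (t+1)) G H = ∑ J ∈ realizations d, kernel n H J * (kernel n ^ t) G J := by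
  rw [pow_succ, Matrix.mul_apply]
  symm
  rw [sum_congr rfl (fun J _ => by rw [kernel_symm, mul_comm])]
  apply sum_subset (subset_univ _)
  intro J _ hJ
  rw [pow_support hG t J hJ, zero_mul]

/-- abstract mixing statement -/
theorem mixing (hn : 4 ≤ n) (d : Fin n → ℕ) {γ : ℝ} (hγ1 : γ ≤ 1)
    (hgap : ∀ f : Finset (Edge n) → ℝ, ∑ x ∈ realizations d, f x = 0 →
      γ * NN (realizations d) f ≤ ∑ G ∈ realizations d,
              f G * (f G - ∑ G' ∈ realizations d, kernel n G G' * f G'))
    {G : Finset (Edge n)} (hG : G ∈ realizations d) (t : ℕ) :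
    tvDist (fun G' => (kernel n ^ t) G G') (unifOn (realizations d)) ^ 2 ≤
      ((realizations d).card : ℝ) * (1 - γ) ^ (2 * t) / 4 := by
  set R := realizations d with hR
  set N : ℝ := (R.card : ℝ) with hN
  have hN1 : 1 ≤ N := by
    rw [hN]
    have : 0 < R.card := card_pos.2 ⟨G, hG⟩
    exact_mod_cast this
  obtain ⟨K, hK⟩ : ∃ K : Finset (Edge n) → Finset (Edge n) → ℝ, ∀ x y, K x y = kernel n x y :=
    ⟨fun x y => kernel n x y, fun _ _ => rfl⟩
  have hs : ∀ x y, K x y = K y x := by intro x y; rw [hK, hK, kernel_symm]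
  have hrow : ∀ x ∈ R, ∑ y ∈ R, K x y = 1 := by
    intro x hx
    simp only [hK]
    exact kernel_row' hn hx
  have hp : ∀ f : Finset (Edge n) → ℝ, 0 ≤ BB R K f f := by
    apply BB_psd hs (fun x y => by rw [hK]; exact kernel_nonneg x y) _ hrow
    intro x
    rw [hK]
    unfold kernel
    rw [if_pos rfl]
    have : (0:ℝ) ≤ (proposalCount x x : ℝ) / (12 * (n.choose 4 : ℝ)) := by positivity
    linarith
  have hgap' : ∀ f : Finset (Edge n) → ℝ, ∑ x ∈ R, f x = 0 →
      BB R K f f ≤ (1 - γ) * NN R f := by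
    intro f hf
    have h1 := hgap f hf
    simp only [← hK] at h1
    have h2 : ∑ G ∈ R, f G * (f G - ∑ G' ∈ R, K G G' * f G') =
        NN R f - BB R K f f := by
      rw [BB_eq]
      unfold NN KK
      rw [← sum_sub_distrib]
      apply sum_congr rfl; intro x _; ring
    rw [h2] at h1
    linarith
  -- deviation
  let g : ℕ → Finset (Edge n) → ℝ := fun t H => (kernel n ^ t) G H - 1 / N
  have hstep : ∀ t, ∀ H ∈ R, g (t+1) H = KK R K (g t) H := by
    intro t H hH
    simp only [g]
    unfold KK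
    rw [pow_step hG t H]
    simp only [← hK]
    have : ∑ y ∈ R, K H y * ((kernel n ^ t) G y - 1 / N) =
        ∑ y ∈ R, K H y * (kernel n ^ t) G y - (∑ y ∈ R, K H y) * (1 / N) := by
      rw [sum_mul, ← sum_sub_distrib]
      apply sum_congr rfl; intro y _; ring
    rw [this, hrow H hH, one_mul]
  have hmain : ∀ t, NN R (g t) ≤ (1 - γ) ^ (2 * t) ∧ ∑ x ∈ R, g t x = 0 := by
    intro t
    induction t with
    | zero =>
      have e1 : ∑ x ∈ R, (kernel n ^ 0) G x = 1 := by
        rw [pow_zero]
        rw [sum_eq_single G]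
        · simp
        · intro b _ hb; rw [Matrix.one_apply_ne (Ne.symm hb)]
        · intro h; exact absurd hG h
      have e2 : ∑ x ∈ R, ((kernel n ^ 0) G x) ^ 2 = 1 := by
        rw [pow_zero]
        rw [sum_eq_single G]
        · simp
        · intro b _ hb; rw [Matrix.one_apply_ne (Ne.symm hb)]; simp
        · intro h; exact absurd hG h
      have hNne : N ≠ 0 := by linarith
      constructor
      · have : NN R (g 0) = ∑ x ∈ R, ((kernel n ^ 0) G x) ^ 2 - 2 / N * ∑ x ∈ R, (kernel n ^ 0) G x
            + N * (1 / N) ^ 2 := by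
          unfold NN
          have e3 : N * (1 / N) ^ 2 = ∑ x ∈ R, (1 / N) ^ 2 := by
            rw [sum_const, nsmul_eq_mul]
          rw [e3, mul_sum, ← sum_sub_distrib, ← sum_add_distrib]
          apply sum_congr rfl; intro x _
          simp only [g]
          ring
        rw [this, e1, e2]
        have : N * (1 / N) ^ 2 = 1 / N := by field_simp
        rw [this]
        have : 0 < 1 / N := by positivity
        simp
        have h7 : 2 / N = 2 * N⁻¹ := by ring
        rw [h7]
        have : 0 < N⁻¹ := by positivity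
        linarith
      · simp only [g]
        rw [sum_sub_distrib, e1, sum_const, nsmul_eq_mul]
        field_simp
        simp [hN]
    | succ t ih =>
      obtain ⟨ih1, ih2⟩ := ih
      have hc := contraction hs hp hrow (r := 1 - γ) (by linarith) hgap' (g t) ih2
      constructor
      · have : NN R (g (t+1)) = NN R (KK R K (g t)) := by
          unfold NN
          apply sum_congr rfl; intro x hx
          rw [hstep t x hx]
        rw [this]
        refine hc.1.trans ?_
        have h8 : (1 - γ) ^ (2 * (t+1)) = (1 - γ) ^ 2 * (1 - γ) ^ (2 * t) := by ring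
        rw [h8]
        exact mul_le_mul_of_nonneg_left ih1 (sq_nonneg _)
      · rw [← hc.2]
        apply sum_congr rfl; intro x hx
        rw [hstep t x hx]
  obtain ⟨m1, -⟩ := hmain t
  unfold tvDist
  have e1 : ∑ a, |(kernel n ^ t) G a - unifOn R a| = ∑ a ∈ R, |g t a| := by
    symm
    have : ∀ a ∈ R, |g t a| = |(kernel n ^ t) G a - unifOn R a| := by
      intro a ha
      simp only [g]
      unfold unifOn
      rw [if_pos ha]
    rw [sum_congr rfl this]
    apply sum_subset (subset_univ _)
    intro a _ ha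
    rw [pow_support hG t a ha]
    unfold unifOn
    rw [if_neg ha]
    simp
  rw [e1]
  have h2 : (∑ a ∈ R, |g t a|) ^ 2 ≤ N * NN R (g t) := by
    have := sq_sum_le_card_mul_sum_sq (s := R) (f := fun a => |g t a|)
    simp only [sq_abs] at this
    exact this
  have h3 : N * NN R (g t) ≤ N * (1 - γ) ^ (2 * t) :=
    mul_le_mul_of_nonneg_left m1 (by linarith)
  rw [div_pow]
  have : (2:ℝ) ^ 2 = 4 := by norm_num
  rw [this]
  apply div_le_div_of_nonneg_right _ (by norm_num)
  linarith

theorem card_real_le (d : Fin n → ℕ) : ((realizations d).card : ℝ) ≤ 2 ^ (n * n) := by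
  have h1 : (realizations d).card ≤ 2 ^ (n * n) := by
    calc (realizations d).card ≤ Fintype.card (Finset (Edge n)) := card_le_univ _
      _ = 2 ^ Fintype.card (Edge n) := Fintype.card_finset
      _ ≤ 2 ^ (n * n) := by
          apply Nat.pow_le_pow_right (by norm_num)
          have h2 : Fintype.card (Edge n) ≤ Fintype.card (Sym2 (Fin n)) :=
            Fintype.card_subtype_le _
          have h3 : Fintype.card (Sym2 (Fin n)) ≤ Fintype.card (Fin n × Fin n) := by
            apply Fintype.card_le_of_surjective (fun p : Fin n × Fin n => s(p.1, p.2))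
            intro e
            induction e using Sym2.ind with
            | _ x y => exact ⟨(x, y), rfl⟩
          have h4 : Fintype.card (Fin n × Fin n) = n * n := by simp
          omega
  exact_mod_cast h1

end Crest.Agent.SW.CK
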