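import Crest.Agent.SW.Defs
import Crest.Agent.SW.ChainK1
import Crest.Agent.SW.ChainK2
import Crest.Agent.SW.ChainK3
import Crest.Prelude.Def_SwitchChain

/-!
Chunk K (row 299): from the Poincare inequality in the Boolean model to S0453.
-/

set_option autoImplicit false
open Finset

namespace Crest.Agent.SW

open Crest.SwitchChain CK

theorem CK.part2 (n : ℕ) (hn : 4 ≤ n) (d : Fin n → ℕ)
    (hP : ∀ f : Adj n → ℝ,
      ((Om d).card : ℝ) * (∑ G ∈ Om d, f G ^ 2) - (∑ G ∈ Om d, f G) ^ 2 ≤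
        ((Om d).card : ℝ) * ((1 / 16) * ∑ a, ∑ b, ∑ c, ∑ e, (if D4 a b c e then
          ∑ G ∈ IJs d a b c e, (f G - f (sg a b c e G)) ^ 2 else 0)))
    (f : Finset (Edge n) → ℝ) :
        ((realizations d).card : ℝ) * (∑ G ∈ realizations d, f G ^ 2) -
            (∑ G ∈ realizations d, f G) ^ 2 ≤
          24 * (n : ℝ) ^ 2 * (n.choose 4 : ℝ) * (realizations d).card *
            ∑ G ∈ realizations d,
              f G * (f G - ∑ G' ∈ realizations d, kernel n G G' * f G') := by
  have hC := choose_pos' hn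
  have h := hP (fun G => f (Psi G))
  have hcard : ((Om d).card : ℝ) = ((realizations d).card : ℝ) := by rw [card_Om]
  have e1 : ∑ G ∈ Om d, f (Psi G) ^ 2 = ∑ E ∈ realizations d, f E ^ 2 := by
    rw [sum_Om]
    simp only [Psi_Phi]
  have e2 : ∑ G ∈ Om d, f (Psi G) = ∑ E ∈ realizations d, f E := by
    rw [sum_Om]
    simp only [Psi_Phi]
  have e3 : ∑ a, ∑ b, ∑ c, ∑ e, (if D4 a b c e then
          ∑ G ∈ IJs d a b c e, (f (Psi G) - f (Psi (sg a b c e G))) ^ 2 else 0) =
      ∑ E ∈ realizations d, ∑ a, ∑ b, ∑ c, ∑ e,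
        (if D4 a b c e ∧ ij a b c e (Phi E) = true then
          (f E - f (Psi (sg a b c e (Phi E)))) ^ 2 else 0) := by
    have e4 : ∀ a b c e : Fin n, (if D4 a b c e then
          ∑ G ∈ IJs d a b c e, (f (Psi G) - f (Psi (sg a b c e G))) ^ 2 else 0) =
        ∑ E ∈ realizations d, (if D4 a b c e ∧ ij a b c e (Phi E) = true then
          (f E - f (Psi (sg a b c e (Phi E)))) ^ 2 else 0) := by
      intro a b c e
      by_cases hD : D4 a b c e
      · rw [if_pos hD]
        unfold IJs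
        rw [sum_filter, sum_Om]
        apply sum_congr rfl; intro E _
        simp only [Psi_Phi, hD, true_and]
      · rw [if_neg hD]
        simp only [hD, false_and, if_false, sum_const_zero]
    simp only [e4]
    symm
    rw [sum_comm]
    apply sum_congr rfl; intro a _
    rw [sum_comm]
    apply sum_congr rfl; intro b _
    rw [sum_comm]
    apply sum_congr rfl; intro c _
    exact sum_comm

  rw [e1, e2, e3, hcard] at h
  refine h.trans ?_
  rw [dirichlet hn]
  have hN : (0:ℝ) ≤ ((realizations d).card : ℝ) := by positivity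
  set P := ∑ G ∈ realizations d, prop G (fun G' => (f G - f G') ^ 2) with hPdef
  have hP0 : 0 ≤ P := by
    apply sum_nonneg; intro G _
    unfold prop
    exact sum_nonneg fun _ _ => sum_nonneg fun _ _ => sum_nonneg fun _ _ => sq_nonneg _
  have h5 : ∑ E ∈ realizations d, ∑ a, ∑ b, ∑ c, ∑ e,
        (if D4 a b c e ∧ ij a b c e (Phi E) = true then
          (f E - f (Psi (sg a b c e (Phi E)))) ^ 2 else 0) ≤ 256 * P := by
    rw [hPdef, mul_sum]
    apply sum_le_sum; intro E _
    exact tuples_le E (fun G' => (f E - f G') ^ 2) (fun _ => sq_nonneg _)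
  have h6 : 24 * (n : ℝ) ^ 2 * (n.choose 4 : ℝ) * ((realizations d).card : ℝ) *
      (1 / (24 * (n.choose 4 : ℝ)) * P) = ((realizations d).card : ℝ) * ((n:ℝ)^2 * P) := by
    field_simp
  rw [h6]
  apply mul_le_mul_of_nonneg_left _ hN
  have hn2 : (16:ℝ) ≤ (n:ℝ)^2 := by
    have : (4:ℝ) ≤ n := by exact_mod_cast hn
    nlinarith
  have h7 : 16 * P ≤ (n:ℝ)^2 * P := mul_le_mul_of_nonneg_right hn2 hP0
  linarith

theorem CK.part1 (n : ℕ) (hn : 4 ≤ n) (d : Fin n → ℕ)
    (hgap : ∀ f : Finset (Edge n) → ℝ,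
        ((realizations d).card : ℝ) * (∑ G ∈ realizations d, f G ^ 2) -
            (∑ G ∈ realizations d, f G) ^ 2 ≤
          24 * (n : ℝ) ^ 2 * (n.choose 4 : ℝ) * (realizations d).card *
            ∑ G ∈ realizations d,
              f G * (f G - ∑ G' ∈ realizations d, kernel n G G' * f G'))
    {G : Finset (Edge n)} (hG : G ∈ realizations d) :
    tvDist (fun G' => (kernel n ^ (2 * n ^ 8)) G G') (unifOn (realizations d)) ≤ 1 / 4 := by
  have hC := choose_pos' hn
  have hn4 : (4:ℝ) ≤ n := by exact_mod_cast hn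
  set C : ℝ := (n.choose 4 : ℝ) with hCdef
  have hC1 : 1 ≤ C := by
    have : 0 < n.choose 4 := Nat.choose_pos hn
    rw [hCdef]
    exact_mod_cast this
  have hC2 : 24 * C ≤ (n:ℝ)^4 := by
    have := Nat.choose_le_pow_div (α := ℝ) 4 n
    have h24 : ((Nat.factorial 4 : ℕ) : ℝ) = 24 := by norm_num [Nat.factorial]
    rw [h24] at this
    rw [le_div_iff₀ (by norm_num)] at this
    linarith
  set D : ℝ := 24 * (n:ℝ)^2 * C with hD
  have hDpos : 0 < D := by positivity
  have hD1 : 1 ≤ D := by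
    rw [hD]
    nlinarith
  have hDle : D ≤ (n:ℝ)^6 := by
    rw [hD]
    calc 24 * (n:ℝ)^2 * C = (n:ℝ)^2 * (24 * C) := by ring
      _ ≤ (n:ℝ)^2 * (n:ℝ)^4 := by gcongr
      _ = (n:ℝ)^6 := by ring
  set N : ℝ := ((realizations d).card : ℝ) with hN
  have hN1 : 1 ≤ N := by
    rw [hN]
    have : 0 < (realizations d).card := card_pos.2 ⟨G, hG⟩
    exact_mod_cast this
  have hmix := mixing hn d (γ := 1 / D) (by rw [div_le_one hDpos]; exact hD1) (by
    intro f hf
    have h1 := hgap f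
    rw [hf] at h1
    have h2 : N * (∑ G ∈ realizations d, f G ^ 2) ≤ N * (D * ∑ G ∈ realizations d,
              f G * (f G - ∑ G' ∈ realizations d, kernel n G G' * f G')) := by
      have : D * N * ∑ G ∈ realizations d,
              f G * (f G - ∑ G' ∈ realizations d, kernel n G G' * f G') =
          N * (D * ∑ G ∈ realizations d,
              f G * (f G - ∑ G' ∈ realizations d, kernel n G G' * f G')) := by ring
      rw [this] at h1
      linarith
    have h3 := le_of_mul_le_mul_left h2 (by linarith)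
    rw [one_div, inv_mul_le_iff₀ hDpos]
    exact h3) hG (2 * n ^ 8)
  have hb : N * (1 - 1 / D) ^ (2 * (2 * n ^ 8)) ≤ 1 / 4 := by
    have h0 : 0 ≤ 1 - 1 / D := by
      have : 1 / D ≤ 1 := by rw [div_le_one hDpos]; exact hD1
      linarith
    have h1 : 1 - 1 / D ≤ Real.exp (-(1 / D)) := Real.one_sub_le_exp_neg _
    have h2 : (1 - 1 / D) ^ (2 * (2 * n ^ 8)) ≤ Real.exp (-(4 * (n:ℝ)^2)) := by
      calc (1 - 1 / D) ^ (2 * (2 * n ^ 8)) ≤ (Real.exp (-(1 / D))) ^ (2 * (2 * n ^ 8)) :=
            pow_le_pow_left₀ h0 h1 _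
        _ = Real.exp (((2 * (2 * n ^ 8) : ℕ) : ℝ) * (-(1 / D))) := (Real.exp_nat_mul _ _).symm
        _ ≤ Real.exp (-(4 * (n:ℝ)^2)) := by
            apply Real.exp_le_exp.2
            push_cast
            have h3 : 4 * (n:ℝ)^2 ≤ (2 * (2 * (n:ℝ)^8)) * (1 / D) := by
              rw [mul_one_div, le_div_iff₀ hDpos]
              calc 4 * (n:ℝ)^2 * D ≤ 4 * (n:ℝ)^2 * (n:ℝ)^6 := by gcongr
                _ = 2 * (2 * (n:ℝ)^8) := by ring
            linarith
    have h4 : N ≤ Real.exp ((n:ℝ)^2) := by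
      refine (card_real_le d).trans ?_
      have h5 : (2:ℝ) ≤ Real.exp 1 := by
        have := Real.add_one_le_exp (1:ℝ)
        linarith
      calc (2:ℝ) ^ (n * n) ≤ (Real.exp 1) ^ (n * n) := pow_le_pow_left₀ (by norm_num) h5 _
        _ = Real.exp (((n * n : ℕ) : ℝ) * 1) := (Real.exp_nat_mul _ _).symm
        _ = Real.exp ((n:ℝ)^2) := by push_cast; ring_nf
    calc N * (1 - 1 / D) ^ (2 * (2 * n ^ 8)) ≤ Real.exp ((n:ℝ)^2) * Real.exp (-(4 * (n:ℝ)^2)) := by
          apply mul_le_mul h4 h2 (by positivity) (by positivity)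
      _ = Real.exp (-(3 * (n:ℝ)^2)) := by rw [← Real.exp_add]; ring_nf
      _ ≤ 1 / 4 := by
          rw [Real.exp_neg]
          have h6 : 4 ≤ Real.exp (3 * (n:ℝ)^2) := by
            have := Real.add_one_le_exp (3 * (n:ℝ)^2)
            nlinarith
          rw [one_div]
          exact inv_anti₀ (by norm_num) h6
  have hfin : tvDist (fun G' => (kernel n ^ (2 * n ^ 8)) G G') (unifOn (realizations d)) ^ 2 ≤
      (1/4) ^ 2 := by
    refine hmix.trans ?_
    linarith
  exact (abs_le_of_sq_le_sq' hfin (by norm_num)).2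

/-- If the Poincare inequality holds in the Boolean model, then S0453 holds. -/
theorem chain_of_poincare (n : ℕ) (hn : 4 ≤ n) (d : Fin n → ℕ)
    (hd : (Crest.SwitchChain.realizations d).Nonempty)
    (hP : ∀ f : Adj n → ℝ,
      ((Om d).card : ℝ) * (∑ G ∈ Om d, f G ^ 2) - (∑ G ∈ Om d, f G) ^ 2 ≤
        ((Om d).card : ℝ) * ((1 / 16) * ∑ a, ∑ b, ∑ c, ∑ e, (if D4 a b c e then
          ∑ G ∈ IJs d a b c e, (f G - f (sg a b c e G)) ^ 2 else 0))) :
    (∃ t : ℕ, t ≤ 2 * n ^ 8 ∧ ∀ G ∈ Crest.SwitchChain.realizations d,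
        Crest.SwitchChain.tvDist (fun G' => (Crest.SwitchChain.kernel n ^ t) G G')
          (Crest.SwitchChain.unifOn (Crest.SwitchChain.realizations d)) ≤ 1 / 4) ∧
      ∀ f : Finset (Crest.SwitchChain.Edge n) → ℝ,
        ((Crest.SwitchChain.realizations d).card : ℝ) *
              (∑ G ∈ Crest.SwitchChain.realizations d, f G ^ 2) -
            (∑ G ∈ Crest.SwitchChain.realizations d, f G) ^ 2 ≤
          24 * (n : ℝ) ^ 2 * (n.choose 4 : ℝ) * (Crest.SwitchChain.realizations d).card *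
            ∑ G ∈ Crest.SwitchChain.realizations d,
              f G * (f G - ∑ G' ∈ Crest.SwitchChain.realizations d,
                Crest.SwitchChain.kernel n G G' * f G') := by
  have h2 := CK.part2 n hn d hP
  exact ⟨⟨2 * n ^ 8, le_rfl, fun G hG => CK.part1 n hn d h2 hG⟩, h2⟩

end Crest.Agent.SW
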