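import Crest.Agent.SW.Bochner

/-!
The Poincare inequality in the Boolean model (row 299).
-/

set_option autoImplicit false
open Finset

namespace Crest.Agent.SW

variable {n : ℕ} {δ : Fin n → ℕ}

theorem ip_Mop_nonneg (f : Adj n → ℝ) : 0 ≤ ip δ f (Mop δ f) := by
  rw [ip_Mop]
  refine sum_nonneg fun a _ => sum_nonneg fun b _ => ?_
  by_cases h : a ≠ b
  · rw [if_pos h]; exact ip_Ga_nonneg f
  · rw [if_neg h]

theorem const_of_ip_Mop_zero (f : Adj n → ℝ) (h : ip δ f (Mop δ f) = 0) :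
    ∀ G ∈ Om δ, ∀ H ∈ Om δ, f G = f H := by
  have h1 : ∀ a b : Fin n, a ≠ b → ∀ G ∈ Om δ, f G = EE δ {a, b} f G := by
    intro a b hab
    rw [ip_Mop] at h
    have h2 := (sum_eq_zero_iff_of_nonneg (fun a _ => sum_nonneg fun b _ => by
      by_cases h : a ≠ b
      · rw [if_pos h]; exact ip_Ga_nonneg f
      · rw [if_neg h])).1 h a (mem_univ a)
    have h3 := (sum_eq_zero_iff_of_nonneg (fun b _ => by
      by_cases h : a ≠ b
      · rw [if_pos h]; exact ip_Ga_nonneg f
      · rw [if_neg h])).1 h2 b (mem_univ b)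
    rw [if_pos hab, ip_Ga_self] at h3
    intro G hG
    have h4 := (sum_eq_zero_iff_of_nonneg (fun G _ => sq_nonneg _)).1 h3 G hG
    have h5 : Ga δ a b f G = 0 := by simpa using h4
    unfold Ga at h5
    linarith
  refine switch_connected δ f fun a b c d h4 G hG => ?_
  have hGO := (mem_IJs.1 hG).1
  rw [h1 a b h4.1 G hGO, h1 a b h4.1 _ (sg_mem_Om h4 hG)]
  exact condE_congr (off_sg {a, b} (by simp) (by simp))

/-- extension by zero of a function on `Om δ` -/
noncomputable def ext0 (δ : Fin n → ℕ) (g : {G : Adj n // G ∈ Om δ} → ℝ) : Adj n → ℝ :=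
  fun G => if h : G ∈ Om δ then g ⟨G, h⟩ else 0

theorem ext0_apply (g : {G : Adj n // G ∈ Om δ} → ℝ) (G : {G : Adj n // G ∈ Om δ}) :
    ext0 δ g G.1 = g G := by
  unfold ext0; rw [dif_pos G.2]

theorem Mop_congr {f g : Adj n → ℝ} (h : ∀ G ∈ Om δ, f G = g G) : ∀ G ∈ Om δ, Mop δ f G = Mop δ g G := by
  intro G hG
  unfold Mop Ga EE
  refine sum_congr rfl fun a _ => sum_congr rfl fun b _ => ?_
  rw [h G hG, condE_congr_fun' h]

theorem Mop_add (f g : Adj n → ℝ) (G : Adj n) :
    Mop δ (fun G => f G + g G) G = Mop δ f G + Mop δ g G := by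
  unfold Mop
  rw [← sum_add_distrib]
  refine sum_congr rfl fun a _ => ?_
  rw [← sum_add_distrib]
  refine sum_congr rfl fun b _ => ?_
  by_cases h : a ≠ b
  · rw [if_pos h, if_pos h, if_pos h]; unfold Ga EE; rw [condE_add]; ring
  · rw [if_neg h, if_neg h, if_neg h, add_zero]

theorem Mop_smul (c : ℝ) (f : Adj n → ℝ) (G : Adj n) :
    Mop δ (fun G => c * f G) G = c * Mop δ f G := by
  unfold Mop
  rw [mul_sum]
  refine sum_congr rfl fun a _ => ?_
  rw [mul_sum]
  refine sum_congr rfl fun b _ => ?_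
  by_cases h : a ≠ b
  · rw [if_pos h, if_pos h]; unfold Ga EE; rw [condE_smul]; ring
  · rw [if_neg h, if_neg h, mul_zero]

theorem Mop_one (G : Adj n) (hG : G ∈ Om δ) : Mop δ (fun _ => (1 : ℝ)) G = 0 := by
  unfold Mop Ga EE
  refine sum_eq_zero fun a _ => sum_eq_zero fun b _ => ?_
  rw [condE_of_meas hG fun _ _ _ => rfl]
  simp

theorem poincare_M (f : Adj n → ℝ) (hne : (Om δ).Nonempty) :
    2 * (∑ G ∈ Om δ, f G ^ 2) - 2 * ((∑ G ∈ Om δ, f G) ^ 2 / ((Om δ).card : ℝ)) ≤ ip δ f (Mop δ f) := by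
  classical
  set N : ℝ := ((Om δ).card : ℝ) with hN
  have hNpos : 0 < N := by rw [hN]; exact_mod_cast hne.card_pos
  let I := {G : Adj n // G ∈ Om δ}
  have hsum : ∀ F : Adj n → ℝ, ∑ x : I, F x.1 = ∑ G ∈ Om δ, F G := fun F => by
    rw [← sum_coe_sort (Om δ) F]
  let T : (I → ℝ) →ₗ[ℝ] (I → ℝ) :=
    { toFun := fun g x => Mop δ (ext0 δ g) x.1 + 2 / N * ∑ y : I, g y
      map_add' := by
        intro g g'
        funext x
        have e1 : Mop δ (ext0 δ (g + g')) x.1 = Mop δ (ext0 δ g) x.1 + Mop δ (ext0 δ g') x.1 := by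
          rw [← Mop_add]
          refine Mop_congr (fun G hG => ?_) x.1 x.2
          have := ext0_apply (δ := δ) (g + g') ⟨G, hG⟩
          have h2 := ext0_apply (δ := δ) g ⟨G, hG⟩
          have h3 := ext0_apply (δ := δ) g' ⟨G, hG⟩
          simp only at this h2 h3
          rw [this, h2, h3]; rfl
        simp only [Pi.add_apply]
        rw [e1, sum_add_distrib]; ring
      map_smul' := by
        intro c g
        funext x
        have e1 : Mop δ (ext0 δ (c • g)) x.1 = c * Mop δ (ext0 δ g) x.1 := by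
          rw [← Mop_smul]
          refine Mop_congr (fun G hG => ?_) x.1 x.2
          have := ext0_apply (δ := δ) (c • g) ⟨G, hG⟩
          have h2 := ext0_apply (δ := δ) g ⟨G, hG⟩
          simp only at this h2
          rw [this, h2]; rfl
        simp only [Pi.smul_apply, RingHom.id_apply, smul_eq_mul]
        rw [e1, ← mul_sum]; ring }
  have hTapp : ∀ (g : I → ℝ) (x : I), T g x = Mop δ (ext0 δ g) x.1 + 2 / N * ∑ y : I, g y :=
    fun _ _ => rfl
  have hip : ∀ g h : I → ℝ, ∑ x : I, g x * T h x =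
      ip δ (ext0 δ g) (Mop δ (ext0 δ h)) + 2 / N * (∑ y : I, g y) * ∑ y : I, h y := by
    intro g h
    simp_rw [hTapp, mul_add]
    rw [sum_add_distrib]
    congr 1
    · unfold ip
      rw [← hsum]
      exact sum_congr rfl fun x _ => by rw [ext0_apply]
    · rw [← sum_mul]; ring
  have hsymm : ∀ g h : I → ℝ, ∑ x : I, g x * T h x = ∑ x : I, T g x * h x := by
    intro g h
    have : ∑ x : I, T g x * h x = ∑ x : I, h x * T g x := sum_congr rfl fun _ _ => mul_comm _ _
    rw [this, hip, hip, ip_Mop_symm (ext0 δ h) (ext0 δ g), ip_comm (Mop δ (ext0 δ g))]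
    ring
  have heig : ∀ (μ : ℝ) (g : I → ℝ), μ < 2 → T g = μ • g → g = 0 := by
    intro μ g hμ hg
    -- the sum of g vanishes
    have h1 : ∑ x : I, (1 : ℝ) * T g x = 2 * ∑ y : I, g y := by
      have h2 := hip (fun _ => 1) g
      have h3 : ip δ (ext0 δ fun _ => 1) (Mop δ (ext0 δ g)) = 0 := by
        rw [ip_Mop_symm]
        unfold ip
        refine sum_eq_zero fun G hG => ?_
        have : Mop δ (ext0 δ fun _ => 1) G = 0 := by
          rw [Mop_congr (g := fun _ => (1 : ℝ)) (fun H hH => ?_) G hG, Mop_one G hG]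
          exact ext0_apply (δ := δ) (fun _ => (1 : ℝ)) ⟨H, hH⟩
        rw [this, zero_mul]
      have h4 : ∑ y : I, (1 : ℝ) = N := by
        rw [hN]; simp [I]
      rw [h2, h3, h4]
      field_simp
      ring
    have h5 : ∑ x : I, (1 : ℝ) * T g x = μ * ∑ y : I, g y := by
      rw [hg, mul_sum]
      exact sum_congr rfl fun x _ => by simp
    have hs0 : ∑ y : I, g y = 0 := by
      have : (2 - μ) * ∑ y : I, g y = 0 := by linarith
      rcases mul_eq_zero.1 this with h | h
      · linarith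
      · exact h
    set F := ext0 δ g with hF
    have hMF : ∀ G ∈ Om δ, Mop δ F G = μ * F G := by
      intro G hG
      have h6 := congrFun hg ⟨G, hG⟩
      rw [hTapp, hs0, mul_zero, add_zero] at h6
      have h7 := ext0_apply (δ := δ) g ⟨G, hG⟩
      simp only [Pi.smul_apply, smul_eq_mul] at h6 h7
      rw [hF, h6, ← h7]
    have hb := bochner (δ := δ) F
    have e1 : ip δ F (Mop δ F) = μ * ip δ F F := by
      unfold ip
      rw [mul_sum]
      exact sum_congr rfl fun G hG => by rw [hMF G hG]; ring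
    have e2 : ip δ (Mop δ F) (Mop δ F) = μ * μ * ip δ F F := by
      unfold ip
      rw [mul_sum]
      exact sum_congr rfl fun G hG => by rw [hMF G hG]; ring
    have hpos := ip_Mop_nonneg (δ := δ) F
    have hFF : 0 ≤ ip δ F F := by unfold ip; exact sum_nonneg fun _ _ => mul_self_nonneg _
    have hconst : ∀ G ∈ Om δ, ∀ H ∈ Om δ, F G = F H := by
      apply const_of_ip_Mop_zero
      rw [e1] at hpos ⊢
      rw [e1, e2] at hb
      rcases hFF.eq_or_lt with h | h
      · rw [← h, mul_zero]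
      · have hμ0 : 0 ≤ μ := by
          by_contra hneg
          push Not at hneg
          have := mul_neg_of_neg_of_pos hneg h
          linarith
        have hμ1 : μ * (2 - μ) * ip δ F F ≤ 0 := by nlinarith
        have hμ2 : μ = 0 := by
          by_contra hne0
          have : 0 < μ := lt_of_le_of_ne hμ0 (Ne.symm hne0)
          have : 0 < μ * (2 - μ) * ip δ F F := by
            apply mul_pos (mul_pos this (by linarith)) h
          linarith
        rw [hμ2, zero_mul]
    obtain ⟨G0, hG0⟩ := hne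
    have hall : ∀ x : I, g x = g ⟨G0, hG0⟩ := by
      intro x
      have h8 := hconst x.1 x.2 G0 hG0
      rw [hF, ext0_apply] at h8
      have h9 := ext0_apply (δ := δ) g ⟨G0, hG0⟩
      simp only at h9
      rw [h8, h9]
    have : (N : ℝ) * g ⟨G0, hG0⟩ = 0 := by
      rw [sum_congr rfl fun x _ => hall x, sum_const, nsmul_eq_mul] at hs0
      have hc : ((univ : Finset I).card : ℝ) = N := by rw [hN]; simp [I]
      rw [hc] at hs0
      exact hs0
    have h10 : g ⟨G0, hG0⟩ = 0 := by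
      rcases mul_eq_zero.1 this with h | h
      · exact absurd h hNpos.ne'
      · exact h
    funext x
    rw [hall x, h10]; rfl
  have hfin := SwitchChain.le_quad_of_eig T hsymm 2 heig (fun x => f x.1)
  rw [hip] at hfin
  have e1 : ∑ x : I, (f x.1) ^ 2 = ∑ G ∈ Om δ, f G ^ 2 := hsum fun G => f G ^ 2
  have e2 : ∑ x : I, f x.1 = ∑ G ∈ Om δ, f G := hsum f
  have e3 : ip δ (ext0 δ fun x => f x.1) (Mop δ (ext0 δ fun x => f x.1)) = ip δ f (Mop δ f) := by
    have h0 : ∀ G ∈ Om δ, ext0 δ (fun x => f x.1) G = f G := fun G hG =>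
      ext0_apply (δ := δ) (fun x => f x.1) ⟨G, hG⟩
    exact ip_congr h0 (Mop_congr h0)
  rw [e1, e2, e3] at hfin
  have : 2 / N * (∑ G ∈ Om δ, f G) * ∑ G ∈ Om δ, f G = 2 * ((∑ G ∈ Om δ, f G) ^ 2 / N) := by ring
  rw [this] at hfin
  linarith

theorem ip_Mop_le_WW (f : Adj n → ℝ) : 8 * ip δ f (Mop δ f) ≤ WW δ f := by
  rw [ip_Mop]
  unfold WW
  rw [mul_sum]
  refine sum_le_sum fun a _ => ?_
  rw [mul_sum]
  refine sum_le_sum fun b _ => ?_
  by_cases hab : a = b
  · subst hab
    have : ∀ c d : Fin n, ¬ D4 a a c d := fun c d h => h.1 rfl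
    simp [this]
  · rw [if_pos hab, ip_Ga_self]
    exact trade_TC2 δ a b hab f

/-- The Poincare inequality in the Boolean model. -/
theorem poincare_W (f : Adj n → ℝ) :
    ((Om δ).card : ℝ) * (∑ G ∈ Om δ, f G ^ 2) - (∑ G ∈ Om δ, f G) ^ 2 ≤
        ((Om δ).card : ℝ) * ((1 / 16) * WW δ f) := by
  rcases (Om δ).eq_empty_or_nonempty with he | hne
  · simp [he]
  · have hN : 0 < ((Om δ).card : ℝ) := by exact_mod_cast hne.card_pos
    have h1 := poincare_M f hne
    have h2 := ip_Mop_le_WW (δ := δ) f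
    have h3 : (∑ G ∈ Om δ, f G) ^ 2 = ((Om δ).card : ℝ) * ((∑ G ∈ Om δ, f G) ^ 2 / ((Om δ).card : ℝ)) := by
      field_simp
    rw [h3, ← mul_sub]
    apply mul_le_mul_of_nonneg_left _ hN.le
    linarith

end Crest.Agent.SW
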