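import Crest.Agent.SW.CondE

/-!
Basic facts on the Boolean graph model (row 299).
-/

set_option autoImplicit false
open Finset

namespace Crest.Agent.SW

variable {n : ℕ} {δ : Fin n → ℕ} {G H : Adj n} {a b c d : Fin n}

theorem mem_Om : G ∈ Om δ ↔ ((∀ x y, G x y = G y x) ∧ ∀ x, G x x = false) ∧ ∀ v, dg G v = δ v := by
  simp [Om, IsG]

theorem Om_symm (hG : G ∈ Om δ) (x y : Fin n) : G x y = G y x := (mem_Om.1 hG).1.1 x y

theorem Om_irr (hG : G ∈ Om δ) (x : Fin n) : G x x = false := (mem_Om.1 hG).1.2 x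

theorem Om_dg (hG : G ∈ Om δ) (x : Fin n) : dg G x = δ x := (mem_Om.1 hG).2 x

theorem mem_IJs : G ∈ IJs δ a b c d ↔ G ∈ Om δ ∧ ij a b c d G = true := by simp [IJs]

theorem ij_iff : ij a b c d G = true ↔ G a c = G b d ∧ G a d = G b c ∧ G a c ≠ G a d := by
  simp [ij, and_assoc]

theorem blk_comm (x y : Fin n) : blk a b c d x y ↔ blk a b c d y x := by
  unfold blk; tauto

theorem blk_swap (x y : Fin n) : blk a b c d x y ↔ blk c d a b x y := by
  unfold blk; tauto

theorem sg_swap (G : Adj n) : sg a b c d G = sg c d a b G := by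
  funext x y; unfold sg; simp only [blk_swap (a := a) (b := b) (c := c) (d := d)]

theorem D4.swap (h : D4 a b c d) : D4 c d a b := by
  unfold D4 at *; tauto

theorem D4.comm1 (h : D4 a b c d) : D4 b a c d := by
  unfold D4 at *; tauto

theorem D4.comm2 (h : D4 a b c d) : D4 a b d c := by
  unfold D4 at *; tauto

theorem D4_swap_iff : D4 a b c d ↔ D4 c d a b := ⟨D4.swap, D4.swap⟩

theorem ij_swap (hs : ∀ x y, G x y = G y x) : ij a b c d G = ij c d a b G := by
  unfold ij
  rw [hs c a, hs d b, hs c b, hs d a]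
  cases G a c <;> cases G b d <;> cases G a d <;> cases G b c <;> rfl

theorem IJs_swap : IJs δ a b c d = IJs δ c d a b := by
  ext G
  rw [mem_IJs, mem_IJs]
  constructor
  · rintro ⟨h1, h2⟩; exact ⟨h1, by rw [← ij_swap (Om_symm h1)]; exact h2⟩
  · rintro ⟨h1, h2⟩; exact ⟨h1, by rw [ij_swap (Om_symm h1)]; exact h2⟩

theorem dg_eq_of_perm (σ : Equiv.Perm (Fin n)) {v : Fin n} (h : ∀ u, G v u = H v (σ u)) :
    dg G v = dg H v := by
  unfold dg
  refine card_bij (fun u _ => σ u) ?_ ?_ ?_
  · intro u hu; simp only [mem_filter, mem_univ, true_and] at hu ⊢; rw [← h]; exact hu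
  · intro u _ w _ he; exact σ.injective he
  · intro u hu
    refine ⟨σ.symm u, ?_, by simp⟩
    simp only [mem_filter, mem_univ, true_and] at hu ⊢
    rw [h]; simpa using hu

theorem sg_apply_of_not (x y : Fin n) (h : ¬ blk a b c d x y) : sg a b c d G x y = G x y := by
  unfold sg; rw [if_neg h]

theorem sg_apply_of (x y : Fin n) (h : blk a b c d x y) : sg a b c d G x y = !(G x y) := by
  unfold sg; rw [if_pos h]

theorem sg_sg (G : Adj n) : sg a b c d (sg a b c d G) = G := by
  funext x y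
  by_cases h : blk a b c d x y
  · rw [sg_apply_of x y h, sg_apply_of x y h, Bool.not_not]
  · rw [sg_apply_of_not x y h, sg_apply_of_not x y h]

/-- rows of the switched graph -/
theorem sg_row (h4 : D4 a b c d) (hs : ∀ x y, G x y = G y x) (hij : ij a b c d G = true) (v u : Fin n) :
    sg a b c d G v u = G v ((if v = a ∨ v = b then Equiv.swap c d else if v = c ∨ v = d then Equiv.swap a b
      else 1 : Equiv.Perm (Fin n)) u) := by
  obtain ⟨e1, e2, e3⟩ := ij_iff.1 hij
  obtain ⟨hab, hcd, hac, had, hbc, hbd⟩ := h4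
  have hbool : ∀ p q : Bool, p ≠ q → (!p) = q := by decide
  by_cases hva : v = a ∨ v = b
  · rw [if_pos hva]
    by_cases huc : u = c
    · rw [huc, Equiv.swap_apply_left, sg_apply_of _ _ (Or.inl ⟨hva, Or.inl rfl⟩)]
      rcases hva with rfl | rfl
      · exact hbool _ _ e3
      · apply hbool; rw [← e2, ← e1]; exact e3.symm
    · by_cases hud : u = d
      · rw [hud, Equiv.swap_apply_right, sg_apply_of _ _ (Or.inl ⟨hva, Or.inr rfl⟩)]
        rcases hva with rfl | rfl
        · exact hbool _ _ e3.symm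
        · apply hbool; rw [← e2, ← e1]; exact e3
      · rw [Equiv.swap_apply_of_ne_of_ne huc hud, sg_apply_of_not]
        unfold blk
        rintro (⟨_, h | h⟩ | ⟨h, _⟩)
        · exact huc h
        · exact hud h
        · rcases hva with rfl | rfl <;> rcases h with h | h <;> first | exact hac h | exact had h | exact hbc h | exact hbd h
  · rw [if_neg hva]
    push Not at hva
    by_cases hvc : v = c ∨ v = d
    · rw [if_pos hvc]
      by_cases hua : u = a
      · rw [hua, Equiv.swap_apply_left, sg_apply_of _ _ (Or.inr ⟨hvc, Or.inl rfl⟩)]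
        rcases hvc with rfl | rfl
        · apply hbool; rw [hs v a, hs v b, ← e2]; exact e3
        · apply hbool; rw [hs v a, hs v b, ← e1]; exact e3.symm
      · by_cases hub : u = b
        · rw [hub, Equiv.swap_apply_right, sg_apply_of _ _ (Or.inr ⟨hvc, Or.inr rfl⟩)]
          rcases hvc with rfl | rfl
          · apply hbool; rw [hs v a, hs v b, ← e2]; exact e3.symm
          · apply hbool; rw [hs v a, hs v b, ← e1]; exact e3
        · rw [Equiv.swap_apply_of_ne_of_ne hua hub, sg_apply_of_not]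
          unfold blk
          rintro (⟨h, _⟩ | ⟨_, h | h⟩)
          · rcases h with h | h
            · exact hva.1 h
            · exact hva.2 h
          · exact hua h
          · exact hub h
    · rw [if_neg hvc]
      push Not at hvc
      rw [sg_apply_of_not]
      · rfl
      · unfold blk
        rintro (⟨h | h, _⟩ | ⟨h | h, _⟩)
        · exact hva.1 h
        · exact hva.2 h
        · exact hvc.1 h
        · exact hvc.2 h

theorem sg_isG (h4 : D4 a b c d) (hs : ∀ x y, G x y = G y x) (hi : ∀ x, G x x = false) :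
    (∀ x y, sg a b c d G x y = sg a b c d G y x) ∧ ∀ x, sg a b c d G x x = false := by
  obtain ⟨hab, hcd, hac, had, hbc, hbd⟩ := h4
  constructor
  · intro x y
    by_cases h : blk a b c d x y
    · rw [sg_apply_of x y h, sg_apply_of y x ((blk_comm x y).1 h), hs]
    · rw [sg_apply_of_not x y h, sg_apply_of_not y x (fun h' => h ((blk_comm x y).2 h')), hs]
  · intro x
    rw [sg_apply_of_not, hi]
    unfold blk
    rintro (⟨h1 | h1, h2 | h2⟩ | ⟨h1 | h1, h2 | h2⟩) <;> subst h1 <;> first | exact hac h2 | exact had h2 | exact hbc h2 | exact hbd h2 | exact hac h2.symm | exact had h2.symm | exact hbc h2.symm | exact hbd h2.symm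

theorem sg_mem_Om (h4 : D4 a b c d) (hG : G ∈ IJs δ a b c d) : sg a b c d G ∈ Om δ := by
  obtain ⟨hO, hij⟩ := mem_IJs.1 hG
  refine mem_Om.2 ⟨sg_isG h4 (Om_symm hO) (Om_irr hO), fun v => ?_⟩
  rw [← Om_dg hO v]
  exact dg_eq_of_perm _ fun u => sg_row h4 (Om_symm hO) hij v u

theorem sg_ij (h4 : D4 a b c d) (hij : ij a b c d G = true) : ij a b c d (sg a b c d G) = true := by
  rw [ij_iff] at hij ⊢
  rw [sg_apply_of a c (Or.inl ⟨Or.inl rfl, Or.inl rfl⟩), sg_apply_of b d (Or.inl ⟨Or.inr rfl, Or.inr rfl⟩),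
    sg_apply_of a d (Or.inl ⟨Or.inl rfl, Or.inr rfl⟩), sg_apply_of b c (Or.inl ⟨Or.inr rfl, Or.inl rfl⟩)]
  obtain ⟨e1, e2, e3⟩ := hij
  exact ⟨by rw [e1], by rw [e2], fun h => e3 (Bool.not_inj h)⟩

theorem sg_mem_IJs (h4 : D4 a b c d) (hG : G ∈ IJs δ a b c d) : sg a b c d G ∈ IJs δ a b c d :=
  mem_IJs.2 ⟨sg_mem_Om h4 hG, sg_ij h4 (mem_IJs.1 hG).2⟩

theorem off_apply (t : Finset (Fin n)) (x y : Fin n) :
    off t G x y = if x ∈ t ∨ y ∈ t then false else G x y := rfl

theorem off_eq_iff (t : Finset (Fin n)) : off t G = off t H ↔ ∀ x y, x ∉ t → y ∉ t → G x y = H x y := by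
  constructor
  · intro h x y hx hy
    have := congrFun (congrFun h x) y
    rw [off_apply, off_apply, if_neg (by tauto), if_neg (by tauto)] at this
    exact this
  · intro h
    funext x y
    rw [off_apply, off_apply]
    by_cases hxy : x ∈ t ∨ y ∈ t
    · rw [if_pos hxy, if_pos hxy]
    · rw [if_neg hxy, if_neg hxy]; push Not at hxy; exact h x y hxy.1 hxy.2

theorem off_sg (t : Finset (Fin n)) (ha : a ∈ t) (hb : b ∈ t) : off t (sg a b c d G) = off t G := by
  rw [off_eq_iff]
  intro x y hx hy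
  rw [sg_apply_of_not]
  unfold blk
  rintro (⟨h1 | h1, _⟩ | ⟨_, h2 | h2⟩)
  · exact hx (h1 ▸ ha)
  · exact hx (h1 ▸ hb)
  · exact hy (h2 ▸ ha)
  · exact hy (h2 ▸ hb)

theorem off_mono {s t : Finset (Fin n)} (hst : s ⊆ t) (h : off s G = off s H) : off t G = off t H := by
  rw [off_eq_iff] at h ⊢
  exact fun x y hx hy => h x y (fun h => hx (hst h)) (fun h => hy (hst h))

end Crest.Agent.SW
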