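import Crest.Agent.SW.Defs

/-!
Chunk H (row 299): the switch graph is connected.
-/

set_option autoImplicit false
open Finset

namespace Crest.Agent.SW

theorem irr_sum_pair {ι : Type*} [Fintype ι] [DecidableEq ι] {c d : ι} (hcd : c ≠ d) (g g' : ι → ℤ)
    (h : ∀ u, u ≠ c → u ≠ d → g u = g' u) (h2 : g c + g d = g' c + g' d) :
    ∑ u, g u = ∑ u, g' u := by
  have key : ∀ k : ι → ℤ, ∑ u, k u = k c + k d + ∑ u ∈ (univ.erase c).erase d, k u := by
    intro k
    rw [← Finset.add_sum_erase univ k (mem_univ c),
      ← Finset.add_sum_erase (univ.erase c) k (mem_erase.2 ⟨hcd.symm, mem_univ d⟩)]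
    ring
  rw [key g, key g', h2]
  congr 1
  apply Finset.sum_congr rfl
  intro u hu
  simp only [mem_erase, mem_univ, and_true] at hu
  exact h u hu.2 hu.1

theorem irr_dg_eq {n : ℕ} (G : Adj n) (v : Fin n) :
    ((dg G v : ℕ) : ℤ) = ∑ u, (if G v u = true then (1 : ℤ) else 0) := by
  unfold dg
  rw [Finset.card_filter]
  push_cast
  rfl

/-- flipping an alternating block preserves being in `Om δ`. -/
theorem irr_sg_mem {n : ℕ} (δ : Fin n → ℕ) {a b c d : Fin n} (h4 : D4 a b c d) {G : Adj n}
    (hG : G ∈ Om δ) (hij : ij a b c d G = true) : sg a b c d G ∈ Om δ := by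
  obtain ⟨hab, hcd, hac, had, hbc, hbd⟩ := h4
  simp only [Om, mem_filter, mem_univ, true_and] at hG ⊢
  obtain ⟨⟨hs, hi⟩, hd⟩ := hG
  simp only [ij, Bool.and_eq_true, beq_iff_eq, bne_iff_ne, ne_eq] at hij
  obtain ⟨⟨h1, h2⟩, h3⟩ := hij
  refine ⟨⟨?_, ?_⟩, ?_⟩
  · intro x y
    unfold sg
    have hb : blk a b c d x y ↔ blk a b c d y x := by
      unfold blk; tauto
    by_cases hx : blk a b c d x y
    · rw [if_pos hx, if_pos (hb.1 hx), hs x y]
    · rw [if_neg hx, if_neg (fun h => hx (hb.2 h)), hs x y]
  · intro x
    unfold sg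
    have hb : ¬ blk a b c d x x := by
      unfold blk
      rintro (⟨rfl | rfl, h | h⟩ | ⟨rfl | rfl, h | h⟩) <;> simp_all
    rw [if_neg hb, hi]
  · intro v
    rw [← hd v]
    have : ((dg (sg a b c d G) v : ℕ) : ℤ) = ((dg G v : ℕ) : ℤ) := by
      rw [irr_dg_eq, irr_dg_eq]
      -- cases on v
      by_cases hv1 : v = a ∨ v = b
      · apply irr_sum_pair hcd
        · intro u huc hud
          have hb : ¬ blk a b c d v u := by
            unfold blk
            rintro (⟨_, h | h⟩ | ⟨h | h, _⟩)
            · exact huc h
            · exact hud h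
            · rcases hv1 with h' | h' <;> simp_all
            · rcases hv1 with h' | h' <;> simp_all
          simp only [sg, if_neg hb]
        · have hb1 : blk a b c d v c := Or.inl ⟨hv1, Or.inl rfl⟩
          have hb2 : blk a b c d v d := Or.inl ⟨hv1, Or.inr rfl⟩
          simp only [sg, if_pos hb1, if_pos hb2]
          have hne : G v c ≠ G v d := by
            rcases hv1 with rfl | rfl
            · exact h3
            · rw [← h1, ← h2]; exact fun h => h3 h.symm
          cases hc : G v c <;> cases hd' : G v d <;> simp_all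
      · by_cases hv2 : v = c ∨ v = d
        · apply irr_sum_pair hab
          · intro u hua hub
            have hb : ¬ blk a b c d v u := by
              unfold blk
              rintro (⟨h, _⟩ | ⟨_, h | h⟩)
              · exact hv1 h
              · exact hua h
              · exact hub h
            simp only [sg, if_neg hb]
          · have hb1 : blk a b c d v a := Or.inr ⟨hv2, Or.inl rfl⟩
            have hb2 : blk a b c d v b := Or.inr ⟨hv2, Or.inr rfl⟩
            simp only [sg, if_pos hb1, if_pos hb2]
            have hne : G v a ≠ G v b := by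
              rw [hs v a, hs v b]
              rcases hv2 with rfl | rfl
              · rw [← h2]; exact h3
              · rw [← h1]; exact fun h => h3 h.symm
            cases hc : G v a <;> cases hd' : G v b <;> simp_all
        · apply Finset.sum_congr rfl
          intro u _
          have hb : ¬ blk a b c d v u := by
            unfold blk
            rintro (⟨h, _⟩ | ⟨h, _⟩)
            · exact hv1 h
            · exact hv2 h
          simp only [sg, if_neg hb]
    exact_mod_cast this

/-- one switch at `v` that decreases the symmetric difference of the neighbourhoods of `v`. -/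
theorem irr_step {n : ℕ} (δ : Fin n → ℕ) (f : Adj n → ℝ)
    (hf : ∀ a b c d, D4 a b c d → ∀ G ∈ IJs δ a b c d, f (sg a b c d G) = f G)
    (m : ℕ) (v : Fin n) (hv : v.val = m) (G H : Adj n) (hG : G ∈ Om δ) (hH : H ∈ Om δ)
    (hag : ∀ x y : Fin n, (x.val < m ∨ y.val < m) → G x y = H x y)
    (x y z : Fin n) (hGx : G v x = true) (hHx : H v x = false) (hGy : G v y = false)
    (hHy : H v y = true) (hz : ¬ z.val < m) (hzv : z ≠ v) (hzx : z ≠ x) (hzy : z ≠ y)
    (hyz : G y z = true) (hxz : G x z = false) :
    ∃ G' ∈ Om δ, f G' = f G ∧ (∀ x y : Fin n, (x.val < m ∨ y.val < m) → G' x y = H x y) ∧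
      (univ.filter fun u => G' v u ≠ H v u).card < (univ.filter fun u => G v u ≠ H v u).card := by
  have hG' := hG
  have hH' := hH
  simp only [Om, mem_filter, mem_univ, true_and] at hG' hH'
  obtain ⟨⟨hs, hi⟩, hd⟩ := hG'
  obtain ⟨⟨hs', hi'⟩, hd'⟩ := hH'
  have hvx : v ≠ x := by rintro rfl; rw [hi] at hGx; exact Bool.noConfusion hGx
  have hxy : x ≠ y := by rintro rfl; rw [hGx] at hGy; exact Bool.noConfusion hGy
  have hvy : v ≠ y := by rintro rfl; rw [hi'] at hHy; exact Bool.noConfusion hHy
  have hxm : ¬ x.val < m := by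
    intro h
    have := hag v x (Or.inr h)
    rw [hGx, hHx] at this
    exact Bool.noConfusion this
  have hym : ¬ y.val < m := by
    intro h
    have := hag v y (Or.inr h)
    rw [hGy, hHy] at this
    exact Bool.noConfusion this
  have h4 : D4 v z x y := ⟨hzv.symm, hxy, hvx, hvy, hzx, hzy⟩
  have hij : ij v z x y G = true := by
    simp only [ij, hGx, hGy, hs z y, hyz, hs z x, hxz]
    rfl
  refine ⟨sg v z x y G, irr_sg_mem δ h4 hG hij, hf v z x y h4 G ?_, ?_, ?_⟩
  · simp only [IJs, mem_filter]; exact ⟨hG, hij⟩
  · intro p q hpq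
    have hb : ¬ blk v z x y p q := by
      unfold blk
      intro h
      rcases h with ⟨h1, h2⟩ | ⟨h1, h2⟩ <;> rcases h1 with rfl | rfl <;> rcases h2 with rfl | rfl <;>
        omega
    simp only [sg, if_neg hb]
    exact hag p q hpq
  · apply Finset.card_lt_card
    rw [Finset.ssubset_iff_of_subset]
    · refine ⟨x, ?_, ?_⟩
      · simp [hGx, hHx]
      · have hb : blk v z x y v x := Or.inl ⟨Or.inl rfl, Or.inl rfl⟩
        simp [sg, hb, hGx, hHx]
    · intro u hu
      simp only [mem_filter, mem_univ, true_and] at hu ⊢
      by_cases hux : u = x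
      · rw [hux, hGx, hHx]; simp
      by_cases huy : u = y
      · rw [huy, hGy, hHy]; simp
      have hb : ¬ blk v z x y v u := by
        unfold blk
        rintro (⟨_, h | h⟩ | ⟨h | h, _⟩)
        · exact hux h
        · exact huy h
        · exact hvx h
        · exact hvy h
      simp only [sg, if_neg hb] at hu
      exact hu

/-- counting: one of the two graphs has a suitable `z`. -/
theorem irr_exists_z {n : ℕ} (δ : Fin n → ℕ) (m : ℕ) (v : Fin n) (G H : Adj n) (hG : G ∈ Om δ)
    (hH : H ∈ Om δ)
    (hag : ∀ x y : Fin n, (x.val < m ∨ y.val < m) → G x y = H x y)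
    (x y : Fin n) (hGx : G v x = true) (hHx : H v x = false) (hGy : G v y = false)
    (hHy : H v y = true) :
    ∃ z : Fin n, ¬ z.val < m ∧ z ≠ v ∧ z ≠ x ∧ z ≠ y ∧
      ((G y z = true ∧ G x z = false) ∨ (H x z = true ∧ H y z = false)) := by
  have hG' := hG
  have hH' := hH
  simp only [Om, mem_filter, mem_univ, true_and] at hG' hH'
  obtain ⟨⟨hs, hi⟩, hd⟩ := hG'
  obtain ⟨⟨hs', hi'⟩, hd'⟩ := hH'
  have hvx : v ≠ x := by rintro rfl; rw [hi] at hGx; exact Bool.noConfusion hGx
  have hxy : x ≠ y := by rintro rfl; rw [hGx] at hGy; exact Bool.noConfusion hGy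
  have hvy : v ≠ y := by rintro rfl; rw [hi'] at hHy; exact Bool.noConfusion hHy
  by_contra hcon
  push Not at hcon
  let I : Bool → ℤ := fun b => if b = true then 1 else 0
  let D : Fin n → ℤ := fun z => I (G x z) - I (G y z) + I (H y z) - I (H x z)
  have hsum : ∑ z, D z = 0 := by
    have h1 : ∑ z, I (G x z) = (δ x : ℤ) := by rw [← hd x, irr_dg_eq]
    have h2 : ∑ z, I (G y z) = (δ y : ℤ) := by rw [← hd y, irr_dg_eq]
    have h3 : ∑ z, I (H y z) = (δ y : ℤ) := by rw [← hd' y, irr_dg_eq]
    have h4 : ∑ z, I (H x z) = (δ x : ℤ) := by rw [← hd' x, irr_dg_eq]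
    simp only [D, Finset.sum_sub_distrib, Finset.sum_add_distrib, h1, h2, h3, h4]
    ring
  have hDv : D v = 2 := by
    simp only [D, I, hs x v, hs y v, hs' x v, hs' y v, hGx, hGy, hHx, hHy]
    norm_num
  have hDxy : D x + D y = 0 := by
    simp only [D, hi, hi', hs y x, hs' y x]
    ring
  have hnn : ∀ z, z ≠ v → z ≠ x → z ≠ y → 0 ≤ D z := by
    intro z hzv hzx hzy
    by_cases hzm : z.val < m
    · have e1 : G x z = H x z := hag x z (Or.inr hzm)
      have e2 : G y z = H y z := hag y z (Or.inr hzm)
      simp only [D, e1, e2]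
      linarith
    · obtain ⟨hA, hB⟩ := hcon z (not_lt.1 hzm) hzv hzx hzy
      simp only [D, I]
      cases h1 : G x z <;> cases h2 : G y z <;> cases h3 : H x z <;> cases h4 : H y z <;>
        simp_all
  have hsplit : ∑ z, D z = D v + (D x + D y) + ∑ z ∈ ((univ.erase v).erase x).erase y, D z := by
    rw [← Finset.add_sum_erase univ D (mem_univ v),
      ← Finset.add_sum_erase (univ.erase v) D (mem_erase.2 ⟨hvx.symm, mem_univ x⟩),
      ← Finset.add_sum_erase ((univ.erase v).erase x) D
        (mem_erase.2 ⟨hxy.symm, mem_erase.2 ⟨hvy.symm, mem_univ y⟩⟩)]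
    ring
  have hrest : 0 ≤ ∑ z ∈ ((univ.erase v).erase x).erase y, D z := by
    apply Finset.sum_nonneg
    intro z hz
    simp only [mem_erase, mem_univ, and_true] at hz
    exact hnn z hz.2.2 hz.2.1 hz.1
  rw [hsplit, hDv, hDxy] at hsum
  linarith

theorem irr_aux {n : ℕ} (δ : Fin n → ℕ) (f : Adj n → ℝ)
    (hf : ∀ a b c d, D4 a b c d → ∀ G ∈ IJs δ a b c d, f (sg a b c d G) = f G) :
    ∀ j m : ℕ, m + j = n → ∀ k : ℕ, ∀ G ∈ Om δ, ∀ H ∈ Om δ,
      (∀ x y : Fin n, (x.val < m ∨ y.val < m) → G x y = H x y) →
      (∀ v : Fin n, v.val = m → (univ.filter fun u => G v u ≠ H v u).card ≤ k) → f G = f H := by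
  intro j
  induction j with
  | zero =>
    intro m hm k G hG H hH hag _
    have : G = H := by
      funext x y
      exact hag x y (Or.inl (by have := x.isLt; omega))
    rw [this]
  | succ j ih =>
    intro m hm k
    have hmn : m < n := by omega
    induction k with
    | zero =>
      intro G hG H hH hag hk
      refine ih (m + 1) (by omega) n G hG H hH ?_ ?_
      · have hrow : ∀ u, G ⟨m, hmn⟩ u = H ⟨m, hmn⟩ u := by
          intro u
          by_contra hne
          have h0 := hk ⟨m, hmn⟩ rfl
          have : u ∈ (univ.filter fun u => G ⟨m, hmn⟩ u ≠ H ⟨m, hmn⟩ u) := by simp [hne]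
          have := Finset.card_pos.2 ⟨u, this⟩
          omega
        have hGs := (by simpa only [Om, mem_filter, mem_univ, true_and] using hG :
          IsG G ∧ ∀ v, dg G v = δ v).1.1
        have hHs := (by simpa only [Om, mem_filter, mem_univ, true_and] using hH :
          IsG H ∧ ∀ v, dg H v = δ v).1.1
        intro x y hxy
        by_cases h1 : x.val < m
        · exact hag x y (Or.inl h1)
        by_cases h2 : y.val < m
        · exact hag x y (Or.inr h2)
        rcases hxy with h | h
        · have : x = ⟨m, hmn⟩ := Fin.ext (by simp; omega)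
          rw [this]; exact hrow y
        · have : y = ⟨m, hmn⟩ := Fin.ext (by simp; omega)
          rw [this, hGs x, hHs x]; exact hrow x
      · intro v _
        exact (Finset.card_le_univ _).trans (by simp)
    | succ k ihk =>
      intro G hG H hH hag hk
      by_cases hlt : (univ.filter fun u => G ⟨m, hmn⟩ u ≠ H ⟨m, hmn⟩ u).card ≤ k
      · refine ihk G hG H hH hag ?_
        intro v hv
        have : v = ⟨m, hmn⟩ := Fin.ext (by simp [hv])
        rw [this]; exact hlt
      · have hcard : dg G ⟨m, hmn⟩ = dg H ⟨m, hmn⟩ := by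
          have h1 := (by simpa only [Om, mem_filter, mem_univ, true_and] using hG :
            IsG G ∧ ∀ v, dg G v = δ v).2 ⟨m, hmn⟩
          have h2 := (by simpa only [Om, mem_filter, mem_univ, true_and] using hH :
            IsG H ∧ ∀ v, dg H v = δ v).2 ⟨m, hmn⟩
          rw [h1, h2]
        set v : Fin n := ⟨m, hmn⟩ with hvdef
        have hne : (univ.filter fun u => G v u = true) ≠ (univ.filter fun u => H v u = true) := by
          intro heq
          apply hlt
          have : (univ.filter fun u => G v u ≠ H v u) = ∅ := by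
            rw [Finset.filter_eq_empty_iff]
            intro u _ hu
            have h3 := Finset.ext_iff.1 heq u
            simp only [mem_filter, mem_univ, true_and] at h3
            cases h1 : G v u <;> cases h2 : H v u <;> simp_all
          rw [this]; simp
        have hx : ∃ x, G v x = true ∧ H v x = false := by
          by_contra hcon
          push Not at hcon
          apply hne
          apply Finset.eq_of_subset_of_card_le
          · intro u hu
            simp only [mem_filter, mem_univ, true_and] at hu ⊢
            have := hcon u hu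
            cases h2 : H v u <;> simp_all
          · unfold dg at hcard
            omega
        have hy : ∃ y, G v y = false ∧ H v y = true := by
          by_contra hcon
          push Not at hcon
          apply hne
          symm
          apply Finset.eq_of_subset_of_card_le
          · intro u hu
            simp only [mem_filter, mem_univ, true_and] at hu ⊢
            have := hcon u
            cases h2 : G v u <;> simp_all
          · unfold dg at hcard
            omega
        obtain ⟨x, hGx, hHx⟩ := hx
        obtain ⟨y, hGy, hHy⟩ := hy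
        obtain ⟨z, hzm, hzv, hzx, hzy, hz | hz⟩ := irr_exists_z δ m v G H hG hH hag x y hGx hHx hGy hHy
        · obtain ⟨G', hG', hfG, hag', hlt'⟩ := irr_step δ f hf m v rfl G H hG hH hag x y z hGx hHx hGy
            hHy hzm hzv hzx hzy hz.1 hz.2
          rw [← hfG]
          refine ihk G' hG' H hH hag' ?_
          intro w hw
          have hwv : w = v := Fin.ext (by simp [hw, hvdef])
          rw [hwv]
          have := hk v rfl
          omega
        · obtain ⟨H', hH', hfH, hag', hlt'⟩ := irr_step δ f hf m v rfl H G hH hG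
            (fun p q h => (hag p q h).symm) y x z hHy hGy hHx hGx hzm hzv hzy hzx hz.1 hz.2
          rw [← hfH]
          refine ihk G hG H' hH' (fun p q h => (hag' p q h).symm) ?_
          intro w hw
          have hwv : w = v := Fin.ext (by simp [hw, hvdef])
          rw [hwv]
          have h1 := hk v rfl
          have e1 : (univ.filter fun u => H' v u ≠ G v u) = (univ.filter fun u => G v u ≠ H' v u) := by
            apply Finset.filter_congr; intro u _; exact ⟨fun h => h.symm, fun h => h.symm⟩
          have e2 : (univ.filter fun u => H v u ≠ G v u) = (univ.filter fun u => G v u ≠ H v u) := by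
            apply Finset.filter_congr; intro u _; exact ⟨fun h => h.symm, fun h => h.symm⟩
          rw [e1, e2] at hlt'
          omega

theorem switch_connected {n : ℕ} (δ : Fin n → ℕ) (f : Adj n → ℝ)
    (hf : ∀ a b c d, D4 a b c d → ∀ G ∈ IJs δ a b c d, f (sg a b c d G) = f G) :
    ∀ G ∈ Om δ, ∀ H ∈ Om δ, f G = f H := by
  intro G hG H hH
  refine irr_aux δ f hf n 0 (by omega) n G hG H hH ?_ ?_
  · intro x y h
    rcases h with h | h <;> exact absurd h (Nat.not_lt_zero _)
  · intro v _
    exact (Finset.card_le_univ _).trans (by simp)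

end Crest.Agent.SW
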