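import Crest.Agent.SW.Basic

/-!
Chunk E (row 299): disjoint pairs of rows.
-/

set_option autoImplicit false
open Finset

namespace Crest.Agent.SW

section abs
variable {α β γ β' γ' : Type*} [DecidableEq β] [DecidableEq γ] [DecidableEq β'] [DecidableEq γ']

/-- commutation from a ternary mixing map -/
theorem condE_comm_mix {Ω : Finset α} {κ₁ : α → β} {κ₂ : α → γ} (m : α → α → α → α)
    (hm : ∀ G ∈ Ω, ∀ x ∈ cls Ω κ₁ G, ∀ y ∈ cls Ω κ₂ G,
      m G x y ∈ Ω ∧ κ₂ (m G x y) = κ₂ x ∧ κ₁ (m G x y) = κ₁ y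
        ∧ m x G (m G x y) = y ∧ m y (m G x y) G = x)
    (f : α → ℝ) (G : α) (hG : G ∈ Ω) :
    condE Ω κ₁ (condE Ω κ₂ f) G = condE Ω κ₂ (condE Ω κ₁ f) G := by
  have hA : ∀ x ∈ cls Ω κ₁ G, ∑ z ∈ cls Ω κ₂ x, f z = ∑ y ∈ cls Ω κ₂ G, f (m G x y)
      ∧ (cls Ω κ₂ x).card = (cls Ω κ₂ G).card := by
    intro x hx
    have hx' := mem_cls.1 hx
    have hGx : G ∈ cls Ω κ₁ x := mem_cls.2 ⟨hG, hx'.2.symm⟩
    have i1 : ∀ y ∈ cls Ω κ₂ G, m G x y ∈ cls Ω κ₂ x := fun y hy =>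
      mem_cls.2 ⟨(hm G hG x hx y hy).1, (hm G hG x hx y hy).2.1⟩
    have i2 : ∀ z ∈ cls Ω κ₂ x, m x G z ∈ cls Ω κ₂ G := fun z hz =>
      mem_cls.2 ⟨(hm x hx'.1 G hGx z hz).1, (hm x hx'.1 G hGx z hz).2.1⟩
    have i3 : ∀ y ∈ cls Ω κ₂ G, m x G (m G x y) = y := fun y hy => (hm G hG x hx y hy).2.2.2.1
    have i4 : ∀ z ∈ cls Ω κ₂ x, m G x (m x G z) = z := fun z hz => (hm x hx'.1 G hGx z hz).2.2.2.1
    exact ⟨(sum_bij' (fun y _ => m G x y) (fun z _ => m x G z) i1 i2 i3 i4 fun _ _ => rfl).symm,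
      (card_bij' (fun y _ => m G x y) (fun z _ => m x G z) i1 i2 i3 i4).symm⟩
  have hB : ∀ y ∈ cls Ω κ₂ G, ∑ z ∈ cls Ω κ₁ y, f z = ∑ x ∈ cls Ω κ₁ G, f (m G x y)
      ∧ (cls Ω κ₁ y).card = (cls Ω κ₁ G).card := by
    intro y hy
    have hy' := mem_cls.1 hy
    have hGy : G ∈ cls Ω κ₂ y := mem_cls.2 ⟨hG, hy'.2.symm⟩
    have i1 : ∀ x ∈ cls Ω κ₁ G, m G x y ∈ cls Ω κ₁ y := fun x hx =>
      mem_cls.2 ⟨(hm G hG x hx y hy).1, (hm G hG x hx y hy).2.2.1⟩
    have i2 : ∀ z ∈ cls Ω κ₁ y, m y z G ∈ cls Ω κ₁ G := fun z hz =>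
      mem_cls.2 ⟨(hm y hy'.1 z hz G hGy).1, (hm y hy'.1 z hz G hGy).2.2.1⟩
    have i3 : ∀ x ∈ cls Ω κ₁ G, m y (m G x y) G = x := fun x hx => (hm G hG x hx y hy).2.2.2.2
    have i4 : ∀ z ∈ cls Ω κ₁ y, m G (m y z G) y = z := fun z hz => (hm y hy'.1 z hz G hGy).2.2.2.2
    exact ⟨(sum_bij' (fun x _ => m G x y) (fun z _ => m y z G) i1 i2 i3 i4 fun _ _ => rfl).symm,
      (card_bij' (fun x _ => m G x y) (fun z _ => m y z G) i1 i2 i3 i4).symm⟩
  unfold condE
  rw [sum_congr rfl (fun x hx => by rw [(hA x hx).1, (hA x hx).2]),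
    sum_congr (s₂ := cls Ω κ₂ G) rfl (fun y hy => by rw [(hB y hy).1, (hB y hy).2]),
    ← sum_div, ← sum_div, sum_comm, div_div, div_div, mul_comm]

theorem condE_zero {Ω : Finset α} {κ : α → β} {g : α → ℝ} (h : ∀ y ∈ Ω, g y = 0) (x : α) :
    condE Ω κ g x = 0 := by
  rw [condE_congr_fun' h]
  unfold condE
  simp

theorem cross_nonneg (Ω : Finset α) (A : α → β') (q : α → γ) (B : α → γ')
    (hQ : ∀ x ∈ Ω, ∀ y ∈ Ω, B y = B x → q y = q x)
    (c1 : ∀ (f : α → ℝ), ∀ x ∈ Ω, condE Ω A (condE Ω B f) x = condE Ω B (condE Ω A f) x)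
    (c2 : ∀ (f : α → ℝ), ∀ x ∈ Ω, condE Ω A (condE Ω q f) x = condE Ω q (condE Ω A f) x)
    (f : α → ℝ) :
    0 ≤ ∑ x ∈ Ω, (f x - condE Ω A f x) * (condE Ω B f x - condE Ω q f x) := by
  set u : α → ℝ := fun x => condE Ω B f x - condE Ω q f x with hu
  set v : α → ℝ := fun x => u x - condE Ω A u x with hv
  have hBu : ∀ x ∈ Ω, condE Ω B u x = u x := by
    intro x hx
    simp only [hu]
    rw [condE_sub, condE_idem hx, condE_fine_coarse hQ hx]
  have hqu : ∀ x ∈ Ω, condE Ω q u x = 0 := by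
    intro x hx
    simp only [hu]
    rw [condE_sub, condE_coarse_fine hQ hx, condE_idem hx, sub_self]
  have hBv : ∀ x ∈ Ω, condE Ω B v x = v x := by
    intro x hx
    simp only [hv]
    rw [condE_sub, hBu x hx, ← c1 u x hx, condE_congr_fun' hBu]
  have hqv : ∀ x ∈ Ω, condE Ω q v x = 0 := by
    intro x hx
    simp only [hv]
    rw [condE_sub, hqu x hx, ← c2 u x hx, condE_zero hqu, sub_self]
  have e1 : ∑ x ∈ Ω, (f x - condE Ω A f x) * (condE Ω B f x - condE Ω q f x) = ∑ x ∈ Ω, f x * v x :=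
    sum_sub_condE_mul f u
  have e2 : ∑ x ∈ Ω, v x ^ 2 = ∑ x ∈ Ω, f x * v x := by
    have e3 : ∑ x ∈ Ω, v x ^ 2 = ∑ x ∈ Ω, (u x - condE Ω A u x) * u x := by
      have := sum_mul_sub_condE (Ω := Ω) (κ := A) u
      rw [← this]
      exact sum_congr rfl fun x _ => mul_comm _ _
    have e4 : ∑ x ∈ Ω, (u x - condE Ω A u x) * u x = ∑ x ∈ Ω, u x * v x :=
      sum_congr rfl fun x _ => mul_comm _ _
    have e5 : ∑ x ∈ Ω, u x * v x = ∑ x ∈ Ω, condE Ω B f x * v x - ∑ x ∈ Ω, condE Ω q f x * v x := by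
      rw [← sum_sub_distrib]
      exact sum_congr rfl fun x _ => by simp only [hu]; ring
    rw [e3, e4, e5, sum_condE_mul, sum_condE_mul, ← sum_sub_distrib]
    refine sum_congr rfl fun x hx => ?_
    rw [hBv x hx, hqv x hx]; ring
  rw [e1, ← e2]
  exact sum_nonneg fun _ _ => sq_nonneg _

/-- The abstract inequality. -/
theorem proj_ineq (Ω Ω' : Finset α) (hsub : Ω' ⊆ Ω) (P : α → β) (P' : α → β') (Q : α → γ) (Q' : α → γ')
    (hP : ∀ x ∈ Ω, ∀ y ∈ Ω, P' y = P' x → P y = P x)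
    (hQ : ∀ x ∈ Ω, ∀ y ∈ Ω, Q' y = Q' x → Q y = Q x)
    (c1 : ∀ (f : α → ℝ), ∀ x ∈ Ω, condE Ω P' (condE Ω Q' f) x = condE Ω Q' (condE Ω P' f) x)
    (c2 : ∀ (f : α → ℝ), ∀ x ∈ Ω, condE Ω P' (condE Ω Q f) x = condE Ω Q (condE Ω P' f) x)
    (c3 : ∀ (f : α → ℝ), ∀ x ∈ Ω, condE Ω Q' (condE Ω P f) x = condE Ω P (condE Ω Q' f) x)
    (f : α → ℝ)
    (hD : ∀ x ∈ Ω, x ∉ Ω' → condE Ω P' f x = condE Ω P f x ∨ condE Ω Q' f x = condE Ω Q f x) :
    - (1 / 2) * ∑ x ∈ Ω', (condE Ω P' f x - condE Ω P f x) ^ 2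
      - (1 / 2) * ∑ x ∈ Ω', (condE Ω Q' f x - condE Ω Q f x) ^ 2
      ≤ ∑ x ∈ Ω, (f x - condE Ω P f x) * (f x - condE Ω Q f x) := by
  -- the main part
  set c : α → ℝ := fun x => f x - condE Ω Q' f x with hc
  set h : α → ℝ := fun x => c x - condE Ω P' c x with hh
  have hQc : ∀ x ∈ Ω, condE Ω Q' c x = 0 := by
    intro x hx
    simp only [hc]
    rw [condE_sub, condE_idem hx, sub_self]
  have hQh : ∀ x ∈ Ω, condE Ω Q' h x = 0 := by
    intro x hx
    simp only [hh]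
    rw [condE_sub, hQc x hx, ← c1 c x hx, condE_zero hQc, sub_self]
  have e1 : ∑ x ∈ Ω, (f x - condE Ω P' f x) * (f x - condE Ω Q' f x) = ∑ x ∈ Ω, h x ^ 2 := by
    have e2 : ∑ x ∈ Ω, (f x - condE Ω P' f x) * (f x - condE Ω Q' f x) = ∑ x ∈ Ω, f x * h x :=
      sum_sub_condE_mul f c
    have e3 : ∑ x ∈ Ω, h x ^ 2 = ∑ x ∈ Ω, c x * h x := (sum_mul_sub_condE (Ω := Ω) (κ := P') c).symm
    have e4 : ∑ x ∈ Ω, c x * h x = ∑ x ∈ Ω, f x * (h x - condE Ω Q' h x) := sum_sub_condE_mul f h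
    rw [e2, e3, e4]
    exact sum_congr rfl fun x hx => by rw [hQh x hx, sub_zero]
  have e5 : 0 ≤ ∑ x ∈ Ω, h x ^ 2 := sum_nonneg fun _ _ => sq_nonneg _
  have e10 := cross_nonneg Ω P' Q Q' hQ c1 c2 f
  have e11 := cross_nonneg Ω Q' P P' hP (fun f x hx => (c1 f x hx).symm) c3 f
  have e12 : - (1 / 2) * ∑ x ∈ Ω', (condE Ω P' f x - condE Ω P f x) ^ 2
      - (1 / 2) * ∑ x ∈ Ω', (condE Ω Q' f x - condE Ω Q f x) ^ 2
      ≤ ∑ x ∈ Ω, (condE Ω P' f x - condE Ω P f x) * (condE Ω Q' f x - condE Ω Q f x) := by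
    have a1 : ∑ x ∈ Ω', (condE Ω P' f x - condE Ω P f x) * (condE Ω Q' f x - condE Ω Q f x)
        = ∑ x ∈ Ω, (condE Ω P' f x - condE Ω P f x) * (condE Ω Q' f x - condE Ω Q f x) := by
      refine sum_subset hsub fun x hx hx' => ?_
      rcases hD x hx hx' with h1 | h1
      · rw [h1, sub_self, zero_mul]
      · rw [h1, sub_self, mul_zero]
    rw [← a1, mul_sum, mul_sum, ← sum_sub_distrib]
    refine sum_le_sum fun x _ => ?_
    nlinarith [sq_nonneg ((condE Ω P' f x - condE Ω P f x) + (condE Ω Q' f x - condE Ω Q f x))]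
  have e13 : ∑ x ∈ Ω, (f x - condE Ω P f x) * (f x - condE Ω Q f x)
      = ∑ x ∈ Ω, (f x - condE Ω P' f x) * (f x - condE Ω Q' f x)
        + ∑ x ∈ Ω, (f x - condE Ω P' f x) * (condE Ω Q' f x - condE Ω Q f x)
        + ∑ x ∈ Ω, (f x - condE Ω Q' f x) * (condE Ω P' f x - condE Ω P f x)
        + ∑ x ∈ Ω, (condE Ω P' f x - condE Ω P f x) * (condE Ω Q' f x - condE Ω Q f x) := by
    rw [← sum_add_distrib, ← sum_add_distrib, ← sum_add_distrib]
    exact sum_congr rfl fun x _ => by ring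
  rw [e13, e1]
  linarith

end abs

section block

/-- a 2x2 block `(ac, ad, bc, bd)` -/
abbrev B4 := Bool × Bool × Bool × Bool

/-- first row sum -/
def r1 (H : B4) : ℕ := H.1.toNat + H.2.1.toNat
/-- second row sum -/
def r2 (H : B4) : ℕ := H.2.2.1.toNat + H.2.2.2.toNat
/-- first column sum -/
def c1 (H : B4) : ℕ := H.1.toNat + H.2.2.1.toNat
/-- second column sum -/
def c2 (H : B4) : ℕ := H.2.1.toNat + H.2.2.2.toNat
/-- is a permutation matrix -/
def ijB (H : B4) : Bool := (H.1 == H.2.2.2) && (H.2.1 == H.2.2.1) && (H.1 != H.2.1)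

/-- the mixed block -/
def bm (H H1 H2 : B4) : B4 :=
  if r1 H1 = 1 ∧ r2 H1 = 1 ∧ c1 H2 = 1 ∧ c2 H2 = 1 then
    (xor (xor H.1 H1.1) H2.1, xor (xor H.2.1 H1.2.1) H2.2.1,
      xor (xor H.2.2.1 H1.2.2.1) H2.2.2.1, xor (xor H.2.2.2 H1.2.2.2) H2.2.2.2)
  else
    (decide (r1 H1 + r2 H1 + 2 ≤ 2 * (r1 H1 + c1 H2)), decide (r1 H1 + r2 H1 + 2 ≤ 2 * (r1 H1 + c2 H2)),
      decide (r1 H1 + r2 H1 + 2 ≤ 2 * (r2 H1 + c1 H2)), decide (r1 H1 + r2 H1 + 2 ≤ 2 * (r2 H1 + c2 H2)))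

/-- same flag, and equal if alternating -/
def TT (H H1 : B4) : Prop := ijB H1 = ijB H ∧ (ijB H = true → H1 = H)

instance (H H1 : B4) : Decidable (TT H H1) := by unfold TT; infer_instance

set_option synthInstance.maxHeartbeats 200000 in
set_option synthInstance.maxSize 1000 in
theorem bm_spec : ∀ H H1 H2 : B4, c1 H1 = c1 H → c2 H1 = c2 H → r1 H2 = r1 H → r2 H2 = r2 H →
    (TT H H1 ∨ TT H H2) →
    r1 (bm H H1 H2) = r1 H1 ∧ r2 (bm H H1 H2) = r2 H1 ∧ c1 (bm H H1 H2) = c1 H2 ∧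
    c2 (bm H H1 H2) = c2 H2 ∧ (TT H H1 → TT H2 (bm H H1 H2)) ∧
    (TT H H2 → TT H1 (bm H H1 H2)) ∧
    bm H1 H (bm H H1 H2) = H2 ∧ bm H2 (bm H H1 H2) H = H1 := by
  decide +kernel

set_option synthInstance.maxHeartbeats 200000 in
set_option synthInstance.maxSize 1000 in
theorem TT_iff : ∀ H H1 : B4, (ijB H1 = ijB H ∧ (ijB H1 && H1.1) = (ijB H && H.1)) ↔ TT H H1 := by
  decide +kernel

set_option synthInstance.maxHeartbeats 200000 in
set_option synthInstance.maxSize 1000 in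
theorem ij_of_margins : ∀ H : B4, r1 H = 1 → r2 H = 1 → c1 H = 1 → c2 H = 1 → ijB H = true := by
  decide +kernel

set_option synthInstance.maxHeartbeats 200000 in
set_option synthInstance.maxSize 1000 in
theorem margins_of_ij : ∀ H : B4, ijB H = true → r1 H = 1 ∧ r2 H = 1 ∧ c1 H = 1 ∧ c2 H = 1 := by
  decide +kernel

end block

section graph

variable {n : ℕ} {δ : Fin n → ℕ} {a b c d : Fin n}

/-- the block of a graph -/
def hb (a b c d : Fin n) (G : Adj n) : B4 := (G a c, G a d, G b c, G b d)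

theorem ij_eq (G : Adj n) : ij a b c d G = ijB (hb a b c d G) := rfl

/-- entry of a block at a pair -/
def pick (a c : Fin n) (H : B4) (x y : Fin n) : Bool :=
  if x = a ∨ y = a then (if x = c ∨ y = c then H.1 else H.2.1)
  else (if x = c ∨ y = c then H.2.2.1 else H.2.2.2)

theorem pick_comm (H : B4) (x y : Fin n) : pick a c H x y = pick a c H y x := by
  have e1 : (x = a ∨ y = a) ↔ (y = a ∨ x = a) := or_comm
  have e2 : (x = c ∨ y = c) ↔ (y = c ∨ x = c) := or_comm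
  unfold pick
  simp only [e1, e2]

theorem pick_hb (h4 : D4 a b c d) {G : Adj n} (hs : ∀ x y, G x y = G y x) {x y : Fin n}
    (h : blk a b c d x y) : pick a c (hb a b c d G) x y = G x y := by
  obtain ⟨hab, hcd, hac, had, hbc, hbd⟩ := h4
  unfold pick hb
  rcases h with ⟨rfl | rfl, rfl | rfl⟩ | ⟨rfl | rfl, rfl | rfl⟩
  · simp
  · simp [hcd.symm, hac]
  · simp [hab.symm, hac.symm]
  · simp [hab.symm, hbc, hcd.symm, had.symm]
  · simp [hs]
  · simp [hab.symm, hac.symm, hs]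
  · simp [hcd.symm, hac, hs]
  · simp [hab.symm, hbc, hcd.symm, had.symm, hs]

/-- the mixed graph -/
def mix (a b c d : Fin n) (G G1 G2 : Adj n) : Adj n := fun x y =>
  if blk a b c d x y then pick a c (bm (hb a b c d G) (hb a b c d G1) (hb a b c d G2)) x y
  else if x = a ∨ x = b ∨ y = a ∨ y = b then G1 x y else G2 x y

theorem mix_blk {G G1 G2 : Adj n} {x y : Fin n} (h : blk a b c d x y) :
    mix a b c d G G1 G2 x y = pick a c (bm (hb a b c d G) (hb a b c d G1) (hb a b c d G2)) x y := if_pos h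

theorem mix_1 {G G1 G2 : Adj n} {x y : Fin n} (h : ¬ blk a b c d x y)
    (h' : x = a ∨ x = b ∨ y = a ∨ y = b) : mix a b c d G G1 G2 x y = G1 x y := by
  unfold mix; rw [if_neg h, if_pos h']

theorem mix_2 {G G1 G2 : Adj n} {x y : Fin n} (h : ¬ blk a b c d x y)
    (h' : ¬ (x = a ∨ x = b ∨ y = a ∨ y = b)) : mix a b c d G G1 G2 x y = G2 x y := by
  unfold mix; rw [if_neg h, if_neg h']

theorem mix_symm {G G1 G2 : Adj n} (h1 : ∀ x y, G1 x y = G1 y x) (h2 : ∀ x y, G2 x y = G2 y x)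
    (x y : Fin n) : mix a b c d G G1 G2 x y = mix a b c d G G1 G2 y x := by
  by_cases h : blk a b c d x y
  · rw [mix_blk h, mix_blk ((blk_comm x y).1 h), pick_comm]
  · have h' : ¬ blk a b c d y x := fun h' => h ((blk_comm x y).2 h')
    by_cases hx : x = a ∨ x = b ∨ y = a ∨ y = b
    · rw [mix_1 h hx, mix_1 h' (by tauto), h1]
    · rw [mix_2 h hx, mix_2 h' (by tauto), h2]

theorem not_blk_self (h4 : D4 a b c d) (x : Fin n) : ¬ blk a b c d x x := by
  obtain ⟨hab, hcd, hac, had, hbc, hbd⟩ := h4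
  unfold blk
  rintro (⟨h1 | h1, h2 | h2⟩ | ⟨h1 | h1, h2 | h2⟩) <;> subst h1 <;>
    first | exact hac h2 | exact had h2 | exact hbc h2 | exact hbd h2 |
      exact hac h2.symm | exact had h2.symm | exact hbc h2.symm | exact hbd h2.symm

theorem hb_mix (h4 : D4 a b c d) (G G1 G2 : Adj n) :
    hb a b c d (mix a b c d G G1 G2) = bm (hb a b c d G) (hb a b c d G1) (hb a b c d G2) := by
  obtain ⟨hab, hcd, hac, had, hbc, hbd⟩ := h4
  set M := bm (hb a b c d G) (hb a b c d G1) (hb a b c d G2) with hM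
  have e1 : mix a b c d G G1 G2 a c = M.1 := by
    rw [mix_blk (Or.inl ⟨Or.inl rfl, Or.inl rfl⟩), ← hM]; simp [pick]
  have e2 : mix a b c d G G1 G2 a d = M.2.1 := by
    rw [mix_blk (Or.inl ⟨Or.inl rfl, Or.inr rfl⟩), ← hM]; simp [pick, hac, hcd.symm]
  have e3 : mix a b c d G G1 G2 b c = M.2.2.1 := by
    rw [mix_blk (Or.inl ⟨Or.inr rfl, Or.inl rfl⟩), ← hM]; simp [pick, hab.symm, hac.symm]
  have e4 : mix a b c d G G1 G2 b d = M.2.2.2 := by
    rw [mix_blk (Or.inl ⟨Or.inr rfl, Or.inr rfl⟩), ← hM]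
    simp [pick, hab.symm, had.symm, hbc, hcd.symm]
  unfold hb
  rw [e1, e2, e3, e4]

theorem dg_sum (G : Adj n) (v : Fin n) : dg G v = ∑ z, (G v z).toNat := by
  unfold dg
  rw [card_filter]
  refine sum_congr rfl fun z _ => ?_
  cases G v z <;> simp

theorem dg_split (G : Adj n) (v u w : Fin n) (hne : u ≠ w) :
    dg G v = (G v u).toNat + (G v w).toNat + ∑ z ∈ univ \ {u, w}, (G v z).toNat := by
  rw [dg_sum, ← sum_sdiff (subset_univ {u, w}), sum_pair hne]; ring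

theorem dg_rest {G G' : Adj n} {v u w : Fin n} (h : ∀ z, z ≠ u → z ≠ w → G v z = G' v z) :
    ∑ z ∈ univ \ {u, w}, (G v z).toNat = ∑ z ∈ univ \ {u, w}, (G' v z).toNat := by
  refine sum_congr rfl fun z hz => ?_
  simp only [mem_sdiff, mem_univ, mem_insert, mem_singleton, true_and, not_or] at hz
  rw [h z hz.1 hz.2]

theorem dg_eq_of {G G' : Adj n} {v u w : Fin n} (hne : u ≠ w)
    (h : ∀ z, z ≠ u → z ≠ w → G v z = G' v z)
    (hs : (G v u).toNat + (G v w).toNat = (G' v u).toNat + (G' v w).toNat) : dg G v = dg G' v := by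
  rw [dg_split G v u w hne, dg_split G' v u w hne, dg_rest h, hs]

theorem pair_sum_eq {G G' : Adj n} {v u w : Fin n} (hG : G ∈ Om δ) (hG' : G' ∈ Om δ) (hne : u ≠ w)
    (h : ∀ z, z ≠ u → z ≠ w → G v z = G' v z) :
    (G v u).toNat + (G v w).toNat = (G' v u).toNat + (G' v w).toNat := by
  have h1 := dg_split G v u w hne
  have h2 := dg_split G' v u w hne
  rw [dg_rest h] at h1
  rw [Om_dg hG] at h1
  rw [Om_dg hG'] at h2
  omega

theorem off_pair_iff {G H : Adj n} {u w : Fin n} : off {u, w} G = off {u, w} H ↔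
    ∀ x y, x ≠ u → x ≠ w → y ≠ u → y ≠ w → G x y = H x y := by
  rw [off_eq_iff]
  constructor
  · intro h x y h1 h2 h3 h4
    exact h x y (by simp [h1, h2]) (by simp [h3, h4])
  · intro h x y hx hy
    simp only [mem_insert, mem_singleton, not_or] at hx hy
    exact h x y hx.1 hx.2 hy.1 hy.2

/-- column sums are preserved by trades of `a, b` -/
theorem col_eq (h4 : D4 a b c d) {G G1 : Adj n} (hG : G ∈ Om δ) (hG1 : G1 ∈ Om δ)
    (h : off {a, b} G1 = off {a, b} G) :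
    c1 (hb a b c d G1) = c1 (hb a b c d G) ∧ c2 (hb a b c d G1) = c2 (hb a b c d G) := by
  obtain ⟨hab, hcd, hac, had, hbc, hbd⟩ := h4
  rw [off_pair_iff] at h
  have e1 := pair_sum_eq (v := c) hG1 hG hab fun z h1 h2 => h c z hac.symm hbc.symm h1 h2
  have e2 := pair_sum_eq (v := d) hG1 hG hab fun z h1 h2 => h d z had.symm hbd.symm h1 h2
  rw [Om_symm hG1 c a, Om_symm hG1 c b, Om_symm hG c a, Om_symm hG c b] at e1
  rw [Om_symm hG1 d a, Om_symm hG1 d b, Om_symm hG d a, Om_symm hG d b] at e2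
  exact ⟨e1, e2⟩

/-- row sums are preserved by trades of `c, d` -/
theorem row_eq (h4 : D4 a b c d) {G G2 : Adj n} (hG : G ∈ Om δ) (hG2 : G2 ∈ Om δ)
    (h : off {c, d} G2 = off {c, d} G) :
    r1 (hb a b c d G2) = r1 (hb a b c d G) ∧ r2 (hb a b c d G2) = r2 (hb a b c d G) := by
  obtain ⟨hab, hcd, hac, had, hbc, hbd⟩ := h4
  rw [off_pair_iff] at h
  exact ⟨pair_sum_eq (v := a) hG2 hG hcd fun z h1 h2 => h a z hac had h1 h2,
    pair_sum_eq (v := b) hG2 hG hcd fun z h1 h2 => h b z hbc hbd h1 h2⟩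

theorem not_blk_ab {x y : Fin n} (h1 : x ≠ a) (h2 : x ≠ b) (h3 : y ≠ a) (h4 : y ≠ b) :
    ¬ blk a b c d x y := by
  rintro (⟨h | h, _⟩ | ⟨_, h | h⟩)
  · exact h1 h
  · exact h2 h
  · exact h3 h
  · exact h4 h

theorem not_blk_cd {x y : Fin n} (h1 : x ≠ c) (h2 : x ≠ d) (h3 : y ≠ c) (h4 : y ≠ d) :
    ¬ blk a b c d x y := by
  rintro (⟨_, h | h⟩ | ⟨h | h, _⟩)
  · exact h3 h
  · exact h4 h
  · exact h1 h
  · exact h2 h

theorem not_touch {x y : Fin n} (h1 : x ≠ a) (h2 : x ≠ b) (h3 : y ≠ a) (h4 : y ≠ b) :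
    ¬ (x = a ∨ x = b ∨ y = a ∨ y = b) := by
  rintro (h | h | h | h)
  · exact h1 h
  · exact h2 h
  · exact h3 h
  · exact h4 h

theorem ne_of_touch (h4 : D4 a b c d) {x y : Fin n} (hbl : ¬ blk a b c d x y)
    (hx : x = a ∨ x = b ∨ y = a ∨ y = b) : x ≠ c ∧ x ≠ d ∧ y ≠ c ∧ y ≠ d := by
  obtain ⟨hab, hcd, hac, had, hbc, hbd⟩ := h4
  refine ⟨?_, ?_, ?_, ?_⟩
  · rintro rfl
    rcases hx with h | h | h | h
    · exact hac h.symm
    · exact hbc h.symm
    · exact hbl (Or.inr ⟨Or.inl rfl, Or.inl h⟩)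
    · exact hbl (Or.inr ⟨Or.inl rfl, Or.inr h⟩)
  · rintro rfl
    rcases hx with h | h | h | h
    · exact had h.symm
    · exact hbd h.symm
    · exact hbl (Or.inr ⟨Or.inr rfl, Or.inl h⟩)
    · exact hbl (Or.inr ⟨Or.inr rfl, Or.inr h⟩)
  · rintro rfl
    rcases hx with h | h | h | h
    · exact hbl (Or.inl ⟨Or.inl h, Or.inl rfl⟩)
    · exact hbl (Or.inl ⟨Or.inr h, Or.inl rfl⟩)
    · exact hac h.symm
    · exact hbc h.symm
  · rintro rfl
    rcases hx with h | h | h | h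
    · exact hbl (Or.inl ⟨Or.inl h, Or.inr rfl⟩)
    · exact hbl (Or.inl ⟨Or.inr h, Or.inr rfl⟩)
    · exact had h.symm
    · exact hbd h.symm

theorem mix_mem (h4 : D4 a b c d) {G G1 G2 : Adj n} (hG : G ∈ Om δ) (hG1 : G1 ∈ Om δ)
    (hG2 : G2 ∈ Om δ) (h1 : off {a, b} G1 = off {a, b} G) (h2 : off {c, d} G2 = off {c, d} G)
    (hrowM : r1 (hb a b c d (mix a b c d G G1 G2)) = r1 (hb a b c d G1) ∧
      r2 (hb a b c d (mix a b c d G G1 G2)) = r2 (hb a b c d G1))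
    (hcolM : c1 (hb a b c d (mix a b c d G G1 G2)) = c1 (hb a b c d G2) ∧
      c2 (hb a b c d (mix a b c d G G1 G2)) = c2 (hb a b c d G2)) :
    mix a b c d G G1 G2 ∈ Om δ := by
  have hMs : ∀ x y, mix a b c d G G1 G2 x y = mix a b c d G G1 G2 y x :=
    mix_symm (Om_symm hG1) (Om_symm hG2)
  rw [off_pair_iff] at h1 h2
  have hself := not_blk_self h4
  obtain ⟨hab, hcd, hac, had, hbc, hbd⟩ := h4
  refine mem_Om.2 ⟨⟨hMs, fun x => ?_⟩, fun v => ?_⟩
  · by_cases hx : x = a ∨ x = b ∨ x = a ∨ x = b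
    · rw [mix_1 (hself x) hx, Om_irr hG1]
    · rw [mix_2 (hself x) hx, Om_irr hG2]
  · by_cases hva : v = a
    · subst hva
      rw [← Om_dg hG1 v]
      exact dg_eq_of hcd (fun z hz1 hz2 => mix_1 (not_blk_cd hac had hz1 hz2) (Or.inl rfl)) hrowM.1
    by_cases hvb : v = b
    · subst hvb
      rw [← Om_dg hG1 v]
      exact dg_eq_of hcd (fun z hz1 hz2 => mix_1 (not_blk_cd hbc hbd hz1 hz2) (Or.inr (Or.inl rfl)))
        hrowM.2
    by_cases hvc : v = c
    · subst hvc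
      rw [← Om_dg hG2 v]
      refine dg_eq_of hab (fun z hz1 hz2 => mix_2 (not_blk_ab hva hvb hz1 hz2)
        (not_touch hva hvb hz1 hz2)) ?_
      rw [hMs v a, hMs v b, Om_symm hG2 v a, Om_symm hG2 v b]; exact hcolM.1
    by_cases hvd : v = d
    · subst hvd
      rw [← Om_dg hG2 v]
      refine dg_eq_of hab (fun z hz1 hz2 => mix_2 (not_blk_ab hva hvb hz1 hz2)
        (not_touch hva hvb hz1 hz2)) ?_
      rw [hMs v a, hMs v b, Om_symm hG2 v a, Om_symm hG2 v b]; exact hcolM.2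
    · rw [← Om_dg hG2 v]
      refine dg_eq_of hab (fun z hz1 hz2 => mix_2 (not_blk_ab hva hvb hz1 hz2)
        (not_touch hva hvb hz1 hz2)) ?_
      rw [mix_1 (not_blk_cd hvc hvd hac had) (Or.inr (Or.inr (Or.inl rfl))),
        mix_1 (not_blk_cd hvc hvd hbc hbd) (Or.inr (Or.inr (Or.inr rfl))),
        pair_sum_eq hG1 hG hab fun z hz1 hz2 => h1 v z hva hvb hz1 hz2,
        h2 v a hvc hvd hac had, h2 v b hvc hvd hbc hbd]

/-- the main mixing lemma -/
theorem mix_spec (h4 : D4 a b c d) {G G1 G2 : Adj n} (hG : G ∈ Om δ) (hG1 : G1 ∈ Om δ)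
    (hG2 : G2 ∈ Om δ) (h1 : off {a, b} G1 = off {a, b} G) (h2 : off {c, d} G2 = off {c, d} G)
    (hT : TT (hb a b c d G) (hb a b c d G1) ∨ TT (hb a b c d G) (hb a b c d G2)) :
    mix a b c d G G1 G2 ∈ Om δ ∧ off {a, b} (mix a b c d G G1 G2) = off {a, b} G2
      ∧ off {c, d} (mix a b c d G G1 G2) = off {c, d} G1
      ∧ mix a b c d G1 G (mix a b c d G G1 G2) = G2
      ∧ mix a b c d G2 (mix a b c d G G1 G2) G = G1
      ∧ (TT (hb a b c d G) (hb a b c d G1) → TT (hb a b c d G2) (hb a b c d (mix a b c d G G1 G2)))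
      ∧ (TT (hb a b c d G) (hb a b c d G2) → TT (hb a b c d G1) (hb a b c d (mix a b c d G G1 G2))) := by
  have hcol := col_eq h4 hG hG1 h1
  have hrow := row_eq h4 hG hG2 h2
  obtain ⟨s1, s2, s3, s4, s5, s6, s7, s8⟩ := bm_spec (hb a b c d G) (hb a b c d G1) (hb a b c d G2)
    hcol.1 hcol.2 hrow.1 hrow.2 hT
  have hM := hb_mix h4 G G1 G2
  have hMO : mix a b c d G G1 G2 ∈ Om δ :=
    mix_mem h4 hG hG1 hG2 h1 h2 (by rw [hM]; exact ⟨s1, s2⟩) (by rw [hM]; exact ⟨s3, s4⟩)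
  set M := mix a b c d G G1 G2 with hMd
  rw [off_pair_iff] at h1 h2
  have hoff1 : off {a, b} M = off {a, b} G2 := by
    rw [off_pair_iff]
    intro x y hx1 hx2 hy1 hy2
    rw [hMd, mix_2 (not_blk_ab hx1 hx2 hy1 hy2) (not_touch hx1 hx2 hy1 hy2)]
  have hoff2 : off {c, d} M = off {c, d} G1 := by
    rw [off_pair_iff]
    intro x y hx1 hx2 hy1 hy2
    have hnb : ¬ blk a b c d x y := not_blk_cd hx1 hx2 hy1 hy2
    by_cases hx : x = a ∨ x = b ∨ y = a ∨ y = b
    · rw [hMd, mix_1 hnb hx]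
    · rw [hMd, mix_2 hnb hx, h2 x y hx1 hx2 hy1 hy2]
      push Not at hx
      exact (h1 x y hx.1 hx.2.1 hx.2.2.1 hx.2.2.2).symm
  refine ⟨hMO, hoff1, hoff2, ?_, ?_, ?_, ?_⟩
  · funext x y
    by_cases hbl : blk a b c d x y
    · rw [mix_blk hbl, hM, s7, pick_hb h4 (Om_symm hG2) hbl]
    · by_cases hx : x = a ∨ x = b ∨ y = a ∨ y = b
      · rw [mix_1 hbl hx]
        obtain ⟨n1, n2, n3, n4⟩ := ne_of_touch h4 hbl hx
        exact (h2 x y n1 n2 n3 n4).symm
      · rw [mix_2 hbl hx, hMd, mix_2 hbl hx]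
  · funext x y
    by_cases hbl : blk a b c d x y
    · rw [mix_blk hbl, hM, s8, pick_hb h4 (Om_symm hG1) hbl]
    · by_cases hx : x = a ∨ x = b ∨ y = a ∨ y = b
      · rw [mix_1 hbl hx, hMd, mix_1 hbl hx]
      · rw [mix_2 hbl hx]
        push Not at hx
        exact (h1 x y hx.1 hx.2.1 hx.2.2.1 hx.2.2.2).symm
  · rw [hM]; exact s5
  · rw [hM]; exact s6

theorem comm_gen (h4 : D4 a b c d) {β γ : Type*} [DecidableEq β] [DecidableEq γ]
    (κ₁ : Adj n → β) (κ₂ : Adj n → γ) (p1 p2 : Prop) (hp : p1 ∨ p2)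
    (k1 : ∀ G ∈ Om δ, ∀ G' ∈ Om δ, κ₁ G' = κ₁ G ↔
      (off {a, b} G' = off {a, b} G ∧ (p1 → TT (hb a b c d G) (hb a b c d G'))))
    (k2 : ∀ G ∈ Om δ, ∀ G' ∈ Om δ, κ₂ G' = κ₂ G ↔
      (off {c, d} G' = off {c, d} G ∧ (p2 → TT (hb a b c d G) (hb a b c d G'))))
    (f : Adj n → ℝ) (G : Adj n) (hG : G ∈ Om δ) :
    condE (Om δ) κ₁ (condE (Om δ) κ₂ f) G = condE (Om δ) κ₂ (condE (Om δ) κ₁ f) G := by
  refine condE_comm_mix (mix a b c d) ?_ f G hG
  intro G hG x hx y hy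
  rw [mem_cls] at hx hy
  have hx' := (k1 G hG x hx.1).1 hx.2
  have hy' := (k2 G hG y hy.1).1 hy.2
  have hT : TT (hb a b c d G) (hb a b c d x) ∨ TT (hb a b c d G) (hb a b c d y) := by
    rcases hp with h | h
    · exact Or.inl (hx'.2 h)
    · exact Or.inr (hy'.2 h)
  obtain ⟨m1, m2, m3, m4, m5, m6, m7⟩ := mix_spec h4 hG hx.1 hy.1 hx'.1 hy'.1 hT
  refine ⟨m1, ?_, ?_, m4, m5⟩
  · exact (k2 x hx.1 _ m1).2 ⟨m3, fun h => m7 (hy'.2 h)⟩
  · exact (k1 y hy.1 _ m1).2 ⟨m2, fun h => m6 (hx'.2 h)⟩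

/-- the finest key -/
def tkey (a b c d : Fin n) (G : Adj n) : Adj n × Bool × Bool :=
  (off {a, b} G, ij a b c d G, ij a b c d G && G a c)

theorem tkey_iff {G G' : Adj n} : tkey a b c d G' = tkey a b c d G ↔
    (off {a, b} G' = off {a, b} G ∧ (True → TT (hb a b c d G) (hb a b c d G'))) := by
  unfold tkey
  rw [Prod.ext_iff, Prod.ext_iff, ← TT_iff]
  simp only [forall_const]
  rfl

theorem tkey_swap_iff {G G' : Adj n} (hG : ∀ x y, G x y = G y x) (hG' : ∀ x y, G' x y = G' y x) :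
    tkey c d a b G' = tkey c d a b G ↔
    (off {c, d} G' = off {c, d} G ∧ (True → TT (hb a b c d G) (hb a b c d G'))) := by
  unfold tkey
  rw [Prod.ext_iff, Prod.ext_iff, ← TT_iff, ← ij_swap hG, ← ij_swap hG', hG c a, hG' c a]
  simp only [forall_const]
  rfl

/-- symmetrization -/
noncomputable def sm (a b c d : Fin n) (f : Adj n → ℝ) (G : Adj n) : ℝ :=
  if ij a b c d G = true then (f G + f (sg a b c d G)) / 2 else f G

theorem sm_inv (f : Adj n → ℝ) {G : Adj n} (hG : ij a b c d G = true)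
    (hG' : ij a b c d (sg a b c d G) = true) :
    sm a b c d f (sg a b c d G) = sm a b c d f G := by
  unfold sm
  rw [if_pos hG, if_pos hG', sg_sg]; ring

theorem sum_sg (h4 : D4 a b c d) {β : Type*} [DecidableEq β] {κ : Adj n → β}
    (hκ : ∀ G ∈ IJs δ a b c d, κ (sg a b c d G) = κ G) (G : Adj n) (f : Adj n → ℝ) :
    ∑ y ∈ (cls (Om δ) κ G).filter (fun y => ij a b c d y = true), f (sg a b c d y)
      = ∑ y ∈ (cls (Om δ) κ G).filter (fun y => ij a b c d y = true), f y := by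
  have hmem : ∀ y ∈ (cls (Om δ) κ G).filter (fun y => ij a b c d y = true),
      sg a b c d y ∈ (cls (Om δ) κ G).filter (fun y => ij a b c d y = true) := by
    intro y hy
    rw [mem_filter, mem_cls] at hy ⊢
    have h1 : y ∈ IJs δ a b c d := mem_IJs.2 ⟨hy.1.1, hy.2⟩
    have h2 := mem_IJs.1 (sg_mem_IJs h4 h1)
    exact ⟨⟨h2.1, (hκ y h1).trans hy.1.2⟩, h2.2⟩
  exact sum_bij' (fun y _ => sg a b c d y) (fun y _ => sg a b c d y) hmem hmem
    (fun y _ => sg_sg y) (fun y _ => sg_sg y) (fun _ _ => rfl)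

theorem sm_condE (h4 : D4 a b c d) {β : Type*} [DecidableEq β] {κ : Adj n → β}
    (hκ : ∀ G ∈ IJs δ a b c d, κ (sg a b c d G) = κ G) (f : Adj n → ℝ) (G : Adj n) :
    condE (Om δ) κ (sm a b c d f) G = condE (Om δ) κ f G := by
  unfold condE
  congr 1
  rw [← sum_filter_add_sum_filter_not (cls (Om δ) κ G) (fun y => ij a b c d y = true),
    ← sum_filter_add_sum_filter_not (cls (Om δ) κ G) (fun y => ij a b c d y = true) f]
  congr 1
  · have h1 : ∀ y ∈ (cls (Om δ) κ G).filter (fun y => ij a b c d y = true),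
        sm a b c d f y = (1 / 2) * f y + (1 / 2) * f (sg a b c d y) := by
      intro y hy
      unfold sm
      rw [if_pos (mem_filter.1 hy).2]; ring
    rw [sum_congr rfl h1, sum_add_distrib, ← mul_sum, ← mul_sum, sum_sg h4 hκ]
    ring
  · refine sum_congr rfl fun y hy => ?_
    unfold sm
    rw [if_neg (mem_filter.1 hy).2]

theorem key2_sg (h4 : D4 a b c d) : ∀ G ∈ IJs δ a b c d, key2 a b c d (sg a b c d G) = key2 a b c d G := by
  intro G hG
  unfold key2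
  rw [off_sg {a, b} (by simp) (by simp), sg_ij h4 (mem_IJs.1 hG).2, (mem_IJs.1 hG).2]

/-- for invariant functions the fine key is not needed -/
theorem tkey_condE (h4 : D4 a b c d) (s : Adj n → ℝ)
    (hs : ∀ G ∈ IJs δ a b c d, s (sg a b c d G) = s G) {G : Adj n} (hG : G ∈ Om δ) :
    condE (Om δ) (tkey a b c d) s G = condE (Om δ) (key2 a b c d) s G := by
  by_cases hij : ij a b c d G = true
  · -- alternating
    set K := cls (Om δ) (key2 a b c d) G with hK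
    set K1 := cls (Om δ) (tkey a b c d) G with hK1
    have hmemK : ∀ y, y ∈ K ↔ y ∈ Om δ ∧ off {a, b} y = off {a, b} G ∧ ij a b c d y = true := by
      intro y
      rw [hK, mem_cls]
      unfold key2
      rw [Prod.ext_iff, hij]
    have hmemK1 : ∀ y, y ∈ K1 ↔ y ∈ Om δ ∧ off {a, b} y = off {a, b} G ∧ ij a b c d y = true
        ∧ y a c = G a c := by
      intro y
      rw [hK1, mem_cls]
      unfold tkey
      rw [Prod.ext_iff, Prod.ext_iff, hij]
      simp only [Bool.true_and]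
      constructor
      · rintro ⟨h1, h2, h3, h4⟩
        rw [h3, Bool.true_and] at h4
        exact ⟨h1, h2, h3, h4⟩
      · rintro ⟨h1, h2, h3, h4⟩
        exact ⟨h1, h2, h3, by rw [h3, Bool.true_and, h4]⟩
    have hf1 : K.filter (fun y => y a c = G a c) = K1 := by
      ext y
      rw [mem_filter, hmemK, hmemK1]
      tauto
    have hac : ∀ y : Adj n, sg a b c d y a c = !(y a c) := fun y =>
      sg_apply_of a c (Or.inl ⟨Or.inl rfl, Or.inl rfl⟩)
    have i1 : ∀ y ∈ K1, sg a b c d y ∈ K.filter (fun y => ¬ y a c = G a c) := by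
      intro y hy
      rw [hmemK1] at hy
      have h1 := mem_IJs.1 (sg_mem_IJs h4 (mem_IJs.2 ⟨hy.1, hy.2.2.1⟩))
      rw [mem_filter, hmemK]
      refine ⟨⟨h1.1, ?_, h1.2⟩, ?_⟩
      · rw [off_sg {a, b} (by simp) (by simp), hy.2.1]
      · rw [hac, hy.2.2.2]; simp
    have i2 : ∀ y ∈ K.filter (fun y => ¬ y a c = G a c), sg a b c d y ∈ K1 := by
      intro y hy
      rw [mem_filter, hmemK] at hy
      have h1 := mem_IJs.1 (sg_mem_IJs h4 (mem_IJs.2 ⟨hy.1.1, hy.1.2.2⟩))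
      rw [hmemK1]
      refine ⟨h1.1, ?_, h1.2, ?_⟩
      · rw [off_sg {a, b} (by simp) (by simp), hy.1.2.1]
      · rw [hac]
        have h2 := hy.2
        revert h2
        cases y a c <;> cases G a c <;> simp
    have hsum : ∑ y ∈ K.filter (fun y => ¬ y a c = G a c), s y = ∑ y ∈ K1, s y := by
      refine (sum_bij' (fun y _ => sg a b c d y) (fun y _ => sg a b c d y) i1 i2
        (fun y _ => sg_sg y) (fun y _ => sg_sg y) ?_).symm
      intro y hy
      rw [hmemK1] at hy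
      exact (hs y (mem_IJs.2 ⟨hy.1, hy.2.2.1⟩)).symm
    have hcard : (K.filter (fun y => ¬ y a c = G a c)).card = K1.card :=
      (card_bij' (fun y _ => sg a b c d y) (fun y _ => sg a b c d y) i1 i2
        (fun y _ => sg_sg y) (fun y _ => sg_sg y)).symm
    have h1 := sum_filter_add_sum_filter_not K (fun y => y a c = G a c) s
    have h2 := card_filter_add_card_filter_not (s := K) (fun y => y a c = G a c)
    rw [hf1, hsum] at h1
    rw [hf1, hcard] at h2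
    have hpos : (K1.card : ℝ) ≠ 0 := cls_card_ne hG
    have h3 : (K.card : ℝ) = 2 * K1.card := by rw [← h2]; push_cast; ring
    unfold condE
    rw [← hK, ← hK1, ← h1, h3]
    field_simp
    ring
  · have hij' : ij a b c d G = false := by simpa using hij
    have : cls (Om δ) (tkey a b c d) G = cls (Om δ) (key2 a b c d) G := by
      ext y
      rw [mem_cls, mem_cls]
      unfold tkey key2
      rw [Prod.ext_iff, Prod.ext_iff, Prod.ext_iff, hij']
      simp only [Bool.false_and]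
      constructor
      · rintro ⟨h1, h2, h3, -⟩; exact ⟨h1, h2, h3⟩
      · rintro ⟨h1, h2, h3⟩; exact ⟨h1, h2, h3, by rw [h3, Bool.false_and]⟩
    unfold condE
    rw [this]

/-- outside the alternating states one of the two differences vanishes -/
theorem hD_ij (h4 : D4 a b c d) (s : Adj n → ℝ) {G : Adj n} (hG : G ∈ Om δ) (hn : G ∉ IJs δ a b c d) :
    condE (Om δ) (tkey a b c d) s G = condE (Om δ) (off {a, b}) s G ∨
      condE (Om δ) (tkey c d a b) s G = condE (Om δ) (off {c, d}) s G := by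
  have hijG : ij a b c d G = false := by
    by_contra h
    exact hn (mem_IJs.2 ⟨hG, by simpa using h⟩)
  have hGs := Om_symm hG
  by_cases hp : ∃ y ∈ cls (Om δ) (off {a, b}) G, ij a b c d y = true
  · right
    obtain ⟨y, hy, hyij⟩ := hp
    rw [mem_cls] at hy
    have hcol := col_eq h4 hG hy.1 hy.2
    have hmy := margins_of_ij (hb a b c d y) hyij
    have : cls (Om δ) (tkey c d a b) G = cls (Om δ) (off {c, d}) G := by
      ext z
      rw [mem_cls, mem_cls]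
      refine and_congr_right fun hz => ?_
      rw [tkey_swap_iff hGs (Om_symm hz)]
      refine ⟨fun h => h.1, fun h => ⟨h, fun _ => ?_⟩⟩
      have hzij : ij a b c d z = false := by
        by_contra hcon
        have hcon' : ij a b c d z = true := by simpa using hcon
        have hmz := margins_of_ij (hb a b c d z) hcon'
        have hrow := row_eq h4 hG hz h
        have := ij_of_margins (hb a b c d G) (hrow.1.symm.trans hmz.1) (hrow.2.symm.trans hmz.2.1)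
          (hcol.1.symm.trans hmy.2.2.1) (hcol.2.symm.trans hmy.2.2.2)
        rw [← ij_eq, hijG] at this
        exact Bool.false_ne_true this
      unfold TT
      rw [← ij_eq, ← ij_eq, hijG, hzij]
      exact ⟨rfl, fun h => absurd h Bool.false_ne_true⟩
    unfold condE
    rw [this]
  · left
    push Not at hp
    have : cls (Om δ) (tkey a b c d) G = cls (Om δ) (off {a, b}) G := by
      ext z
      rw [mem_cls, mem_cls]
      refine and_congr_right fun hz => ?_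
      rw [tkey_iff]
      refine ⟨fun h => h.1, fun h => ⟨h, fun _ => ?_⟩⟩
      have hzij : ij a b c d z = false := by
        have := hp z (mem_cls.2 ⟨hz, h⟩)
        simpa using this
      unfold TT
      rw [← ij_eq, ← ij_eq, hijG, hzij]
      exact ⟨rfl, fun h => absurd h Bool.false_ne_true⟩
    unfold condE
    rw [this]

theorem off_sg_cd {G : Adj n} : off {c, d} (sg a b c d G) = off {c, d} G := by
  rw [sg_swap]; exact off_sg {c, d} (by simp) (by simp)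

theorem pair_ineq (δ : Fin n → ℕ) (a b c d : Fin n) (h4 : D4 a b c d) (f : Adj n → ℝ) :
    (1 / 4) * ∑ G ∈ IJs δ a b c d, (f G - f (sg a b c d G)) ^ 2
      - (1 / 2) * ∑ G ∈ IJs δ a b c d,
          (condE (Om δ) (key2 a b c d) f G - EE δ {a, b} f G) ^ 2
      - (1 / 2) * ∑ G ∈ IJs δ a b c d,
          (condE (Om δ) (key2 c d a b) f G - EE δ {c, d} f G) ^ 2
      ≤ ∑ G ∈ Om δ, (f G - EE δ {a, b} f G) * (f G - EE δ {c, d} f G) := by
  have hsub : IJs δ a b c d ⊆ Om δ := fun G hG => (mem_IJs.1 hG).1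
  have h4' : D4 c d a b := h4.swap
  set s : Adj n → ℝ := sm a b c d f with hs
  have hsinv : ∀ G ∈ IJs δ a b c d, s (sg a b c d G) = s G := fun G hG =>
    sm_inv f (mem_IJs.1 hG).2 (mem_IJs.1 (sg_mem_IJs h4 hG)).2
  -- key invariances
  have kp : ∀ G ∈ IJs δ a b c d, off {a, b} (sg a b c d G) = off {a, b} G := fun G _ =>
    off_sg {a, b} (by simp) (by simp)
  have kq : ∀ G ∈ IJs δ a b c d, off {c, d} (sg a b c d G) = off {c, d} G := fun G _ => off_sg_cd
  have kp2 : ∀ G ∈ IJs δ a b c d, key2 a b c d (sg a b c d G) = key2 a b c d G := key2_sg h4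
  have kq2 : ∀ G ∈ IJs δ a b c d, key2 c d a b (sg a b c d G) = key2 c d a b G := by
    intro G hG
    rw [sg_swap]
    exact key2_sg (δ := δ) h4' G (by rw [← IJs_swap]; exact hG)
  have Ep : ∀ G, condE (Om δ) (off {a, b}) s G = condE (Om δ) (off {a, b}) f G := sm_condE h4 kp f
  have Eq' : ∀ G, condE (Om δ) (off {c, d}) s G = condE (Om δ) (off {c, d}) f G := sm_condE h4 kq f
  have Ep2 : ∀ G ∈ Om δ, condE (Om δ) (tkey a b c d) s G = condE (Om δ) (key2 a b c d) f G := by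
    intro G hG
    rw [tkey_condE h4 s hsinv hG]; exact sm_condE h4 kp2 f G
  have Eq2 : ∀ G ∈ Om δ, condE (Om δ) (tkey c d a b) s G = condE (Om δ) (key2 c d a b) f G := by
    intro G hG
    rw [tkey_condE h4' s (fun G hG => by
      rw [← sg_swap]; exact hsinv G (by rw [IJs_swap]; exact hG)) hG]
    exact sm_condE h4 kq2 f G
  -- commutation
  have K1 : ∀ G ∈ Om δ, ∀ G' ∈ Om δ, tkey a b c d G' = tkey a b c d G ↔
      (off {a, b} G' = off {a, b} G ∧ (True → TT (hb a b c d G) (hb a b c d G'))) :=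
    fun G _ G' _ => tkey_iff
  have K2 : ∀ G ∈ Om δ, ∀ G' ∈ Om δ, tkey c d a b G' = tkey c d a b G ↔
      (off {c, d} G' = off {c, d} G ∧ (True → TT (hb a b c d G) (hb a b c d G'))) :=
    fun G hG G' hG' => tkey_swap_iff (Om_symm hG) (Om_symm hG')
  have K3 : ∀ G ∈ Om δ, ∀ G' ∈ Om δ, off {a, b} G' = off {a, b} G ↔
      (off {a, b} G' = off {a, b} G ∧ (False → TT (hb a b c d G) (hb a b c d G'))) :=
    fun G _ G' _ => ⟨fun h => ⟨h, False.elim⟩, fun h => h.1⟩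
  have K4 : ∀ G ∈ Om δ, ∀ G' ∈ Om δ, off {c, d} G' = off {c, d} G ↔
      (off {c, d} G' = off {c, d} G ∧ (False → TT (hb a b c d G) (hb a b c d G'))) :=
    fun G _ G' _ => ⟨fun h => ⟨h, False.elim⟩, fun h => h.1⟩
  have key := proj_ineq (Om δ) (IJs δ a b c d) hsub (off {a, b}) (tkey a b c d) (off {c, d}) (tkey c d a b)
    (fun x hx y hy h => ((K1 x hx y hy).1 h).1)
    (fun x hx y hy h => ((K2 x hx y hy).1 h).1)
    (comm_gen h4 _ _ True True (Or.inl trivial) K1 K2)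
    (comm_gen h4 _ _ True False (Or.inl trivial) K1 K4)
    (fun f G hG => (comm_gen h4 _ _ False True (Or.inr trivial) K3 K2 f G hG).symm)
    s (fun G hG hn => hD_ij h4 s hG hn)
  -- decomposition
  set t : Adj n → ℝ := fun G => f G - s G with ht
  have ht0 : ∀ G ∈ Om δ, G ∉ IJs δ a b c d → t G = 0 := by
    intro G hG hn
    have hij : ¬ ij a b c d G = true := fun h => hn (mem_IJs.2 ⟨hG, h⟩)
    simp only [ht, hs, sm, if_neg hij, sub_self]
  have ht1 : ∀ G ∈ IJs δ a b c d, t G = (f G - f (sg a b c d G)) / 2 := by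
    intro G hG
    simp only [ht, hs, sm, if_pos (mem_IJs.1 hG).2]; ring
  have ht2 : ∀ G ∈ IJs δ a b c d, t (sg a b c d G) = - t G := by
    intro G hG
    rw [ht1 _ (sg_mem_IJs h4 hG), ht1 G hG, sg_sg]; ring
  have horth : ∀ φ : Adj n → ℝ, (∀ G ∈ IJs δ a b c d, φ (sg a b c d G) = φ G) →
      ∑ G ∈ Om δ, t G * φ G = 0 := by
    intro φ hφ
    have e1 : ∑ G ∈ Om δ, t G * φ G = ∑ G ∈ IJs δ a b c d, t G * φ G :=
      (sum_subset hsub fun G hG hn => by rw [ht0 G hG hn, zero_mul]).symm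
    have e2 : ∑ G ∈ IJs δ a b c d, t G * φ G
        = ∑ G ∈ IJs δ a b c d, t (sg a b c d G) * φ (sg a b c d G) :=
      sum_bij' (fun y _ => sg a b c d y) (fun y _ => sg a b c d y) (fun y hy => sg_mem_IJs h4 hy)
        (fun y hy => sg_mem_IJs h4 hy) (fun y _ => sg_sg y) (fun y _ => sg_sg y)
        (fun y _ => by simp only [sg_sg])
    have e3 : ∑ G ∈ IJs δ a b c d, t (sg a b c d G) * φ (sg a b c d G)
        = - ∑ G ∈ IJs δ a b c d, t G * φ G := by
      rw [← sum_neg_distrib]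
      exact sum_congr rfl fun G hG => by rw [ht2 G hG, hφ G hG]; ring
    rw [e1]
    linarith
  have hp0 := horth (fun G => s G - condE (Om δ) (off {a, b}) s G) (fun G hG => by
    rw [hsinv G hG, condE_congr (kp G hG)])
  have hq0 := horth (fun G => s G - condE (Om δ) (off {c, d}) s G) (fun G hG => by
    rw [hsinv G hG, condE_congr (kq G hG)])
  have ht3 : ∑ G ∈ Om δ, t G ^ 2 = (1 / 4) * ∑ G ∈ IJs δ a b c d, (f G - f (sg a b c d G)) ^ 2 := by
    have e1 : ∑ G ∈ Om δ, t G ^ 2 = ∑ G ∈ IJs δ a b c d, t G ^ 2 :=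
      (sum_subset hsub fun G hG hn => by rw [ht0 G hG hn]; ring).symm
    rw [e1, mul_sum]
    exact sum_congr rfl fun G hG => by rw [ht1 G hG]; ring
  have hfin : ∑ G ∈ Om δ, (f G - EE δ {a, b} f G) * (f G - EE δ {c, d} f G)
      = ∑ G ∈ Om δ, (s G - condE (Om δ) (off {a, b}) s G) * (s G - condE (Om δ) (off {c, d}) s G)
        + (1 / 4) * ∑ G ∈ IJs δ a b c d, (f G - f (sg a b c d G)) ^ 2 := by
    rw [← ht3]
    have e1 : ∑ G ∈ Om δ, (f G - EE δ {a, b} f G) * (f G - EE δ {c, d} f G)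
        = ∑ G ∈ Om δ, (s G - condE (Om δ) (off {a, b}) s G) * (s G - condE (Om δ) (off {c, d}) s G)
          + ∑ G ∈ Om δ, t G * (s G - condE (Om δ) (off {a, b}) s G)
          + ∑ G ∈ Om δ, t G * (s G - condE (Om δ) (off {c, d}) s G)
          + ∑ G ∈ Om δ, t G ^ 2 := by
      rw [← sum_add_distrib, ← sum_add_distrib, ← sum_add_distrib]
      refine sum_congr rfl fun G _ => ?_
      unfold EE
      rw [Ep G, Eq' G]
      simp only [ht]
      ring
    rw [e1, hp0, hq0]; ring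
  have hA : ∑ G ∈ IJs δ a b c d, (condE (Om δ) (tkey a b c d) s G - condE (Om δ) (off {a, b}) s G) ^ 2
      = ∑ G ∈ IJs δ a b c d, (condE (Om δ) (key2 a b c d) f G - EE δ {a, b} f G) ^ 2 :=
    sum_congr rfl fun G hG => by rw [Ep2 G (hsub hG), Ep G]; rfl
  have hB : ∑ G ∈ IJs δ a b c d, (condE (Om δ) (tkey c d a b) s G - condE (Om δ) (off {c, d}) s G) ^ 2
      = ∑ G ∈ IJs δ a b c d, (condE (Om δ) (key2 c d a b) f G - EE δ {c, d} f G) ^ 2 :=
    sum_congr rfl fun G hG => by rw [Eq2 G (hsub hG), Eq' G]; rfl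
  rw [hA, hB] at key
  rw [hfin]
  linarith

end graph

end Crest.Agent.SW
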