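import Crest.Agent.SW.Defs
import Crest.Agent.SwitchChain.Johnson

/-!
Chunk F (row 299): two inequalities on the Johnson scheme (`k`-subsets of a finite set `X`).
-/

set_option autoImplicit false
open Finset

namespace Crest.Agent.SW

variable {ι : Type*} [DecidableEq ι]

/-- exactly one of `c`, `d` is in `A` -/
def split (c d : ι) (A : Finset ι) : Prop := (c ∈ A ∧ d ∉ A) ∨ (c ∉ A ∧ d ∈ A)

instance (c d : ι) (A : Finset ι) : Decidable (split c d A) := by unfold split; infer_instance

/-- exchange the roles of `c` and `d` in `A` -/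
def swp (c d : ι) (A : Finset ι) : Finset ι := A.map (Equiv.swap c d).toEmbedding

theorem jh_sum (X : Finset ι) (k : ℕ) (G : Finset ι → ℝ) :
    ∑ A ∈ X.powersetCard k, G A
      = ∑ A ∈ (univ : Finset X).powersetCard k, G (A.map (Function.Embedding.subtype _)) := by
  have h1 : X = (univ : Finset X).map (Function.Embedding.subtype _) := by
    ext x; simp
  conv_lhs => rw [h1, Finset.powersetCard_map, Finset.sum_map]
  rfl

theorem jh_card (X : Finset ι) (k : ℕ) :
    (X.powersetCard k).card = ((univ : Finset X).powersetCard k).card := by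
  rw [Finset.card_powersetCard, Finset.card_powersetCard, Finset.card_univ, Fintype.card_coe]

theorem jh_swp (X : Finset ι) (c d : X) (A : Finset X) :
    swp (c : ι) (d : ι) (A.map (Function.Embedding.subtype _))
      = (SwitchChain.tr c d A).map (Function.Embedding.subtype _) := by
  unfold swp SwitchChain.tr
  rw [Finset.map_map, Finset.map_map]
  congr 1
  ext x
  simp only [Function.Embedding.trans_apply, Function.Embedding.subtype_apply, Equiv.coe_toEmbedding]
  by_cases h1 : x = c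
  · subst h1; simp
  · by_cases h2 : x = d
    · subst h2; simp
    · rw [Equiv.swap_apply_of_ne_of_ne h1 h2, Equiv.swap_apply_of_ne_of_ne]
      · exact fun h => h1 (Subtype.ext h)
      · exact fun h => h2 (Subtype.ext h)

theorem jh_split (X : Finset ι) (c d : X) (A : Finset X) :
    split (c : ι) (d : ι) (A.map (Function.Embedding.subtype _)) ↔ SwitchChain.sp c d A := by
  have h : ∀ x : X, (x : ι) ∈ A.map (Function.Embedding.subtype _) ↔ x ∈ A := by
    intro x; simp
  unfold split SwitchChain.sp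
  rw [h, h]; tauto

/-- centred energy -/
theorem jh_var {α : Type*} (J : Finset α) (F : α → ℝ) (hJ : (J.card : ℝ) ≠ 0) :
    ∑ A ∈ J, (F A - (∑ B ∈ J, F B) / (J.card : ℝ)) ^ 2
      = ∑ A ∈ J, F A ^ 2 - (∑ A ∈ J, F A) ^ 2 / (J.card : ℝ) := by
  set μ := (∑ B ∈ J, F B) / (J.card : ℝ) with hμ
  have h1 : ∀ A ∈ J, (F A - μ) ^ 2 = F A ^ 2 - 2 * μ * F A + μ ^ 2 := fun A _ => by ring
  rw [Finset.sum_congr rfl h1, Finset.sum_add_distrib, Finset.sum_sub_distrib, Finset.sum_const,
    ← Finset.mul_sum, nsmul_eq_mul, hμ]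
  field_simp
  ring

theorem jh_mean {α : Type*} (J : Finset α) (F : α → ℝ) (hJ : (J.card : ℝ) ≠ 0) :
    ∑ A ∈ J, (F A - (∑ B ∈ J, F B) / (J.card : ℝ)) = 0 := by
  rw [Finset.sum_sub_distrib, Finset.sum_const, nsmul_eq_mul]
  field_simp
  ring

/-- J1 on a fintype, general function. -/
theorem johnson_J1_type {X : Type*} [Fintype X] [DecidableEq X] (k : ℕ) (F : Finset X → ℝ) :
    (Fintype.card X : ℝ) * ∑ A ∈ (univ : Finset X).powersetCard k,
        (F A - (∑ B ∈ (univ : Finset X).powersetCard k, F B) /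
          (((univ : Finset X).powersetCard k).card : ℝ)) ^ 2 ≤
      (1 / 4) * ∑ c : X, ∑ d : X, ∑ A ∈ (univ : Finset X).powersetCard k,
        (F A - F (SwitchChain.tr c d A)) ^ 2 := by
  set J := (univ : Finset X).powersetCard k with hJ
  rcases J.eq_empty_or_nonempty with hE | hNE
  · rw [hE]; simp
  have hc : (J.card : ℝ) ≠ 0 := by
    have : 0 < J.card := Finset.card_pos.mpr hNE
    exact_mod_cast this.ne'
  set μ := (∑ B ∈ J, F B) / (J.card : ℝ) with hμ
  have h1 := SwitchChain.johnson_poincare k (fun A => F A - μ) (jh_mean J F hc)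
  rw [← hJ] at h1
  have h2 : ∑ A ∈ J, ∑ x : X, ∑ y : X, ((F A - μ) - (F (SwitchChain.tr x y A) - μ)) ^ 2
      = ∑ c : X, ∑ d : X, ∑ A ∈ J, (F A - F (SwitchChain.tr c d A)) ^ 2 := by
    rw [Finset.sum_comm]
    refine Finset.sum_congr rfl fun x _ => ?_
    rw [Finset.sum_comm]
    refine Finset.sum_congr rfl fun y _ => Finset.sum_congr rfl fun A _ => ?_
    ring
  rw [h2] at h1
  linarith

theorem jh_energy (X : Finset ι) (k : ℕ) (F : Finset ι → ℝ) :
    ∑ c ∈ X, ∑ d ∈ X, ∑ A ∈ X.powersetCard k, (F A - F (swp c d A)) ^ 2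
      = ∑ c : X, ∑ d : X, ∑ A ∈ (univ : Finset X).powersetCard k,
          (F (A.map (Function.Embedding.subtype _))
            - F ((SwitchChain.tr c d A).map (Function.Embedding.subtype _))) ^ 2 := by
  rw [← Finset.sum_coe_sort X]
  refine Finset.sum_congr rfl fun c _ => ?_
  rw [← Finset.sum_coe_sort X]
  refine Finset.sum_congr rfl fun d _ => ?_
  rw [jh_sum]
  refine Finset.sum_congr rfl fun A _ => ?_
  rw [jh_swp]

/-- J1 (spectral gap of the Bernoulli-Laplace model). -/
theorem johnson_J1 (X : Finset ι) (k : ℕ) (F : Finset ι → ℝ) :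
    (X.card : ℝ) * (∑ A ∈ X.powersetCard k, F A ^ 2 -
        (∑ A ∈ X.powersetCard k, F A) ^ 2 / ((X.powersetCard k).card : ℝ)) ≤
      (1 / 4) * ∑ c ∈ X, ∑ d ∈ X, ∑ A ∈ X.powersetCard k, (F A - F (swp c d A)) ^ 2 := by
  have h1 := johnson_J1_type (X := X) k (fun A => F (A.map (Function.Embedding.subtype _)))
  rw [jh_energy]
  refine le_trans (le_of_eq ?_) h1
  rw [Fintype.card_coe]
  congr 1
  rcases ((univ : Finset X).powersetCard k).eq_empty_or_nonempty with hE | hNE
  · rw [jh_sum X k (fun A => F A ^ 2), jh_sum X k F, hE]; simp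
  have hc : ((((univ : Finset X).powersetCard k).card : ℕ) : ℝ) ≠ 0 := by
    have : 0 < ((univ : Finset X).powersetCard k).card := Finset.card_pos.mpr hNE
    exact_mod_cast this.ne'
  rw [jh_var _ _ hc, jh_sum X k (fun A => F A ^ 2), jh_sum X k F, jh_card X k]

theorem jh_card_map {X : Type*} [Fintype X] [DecidableEq X] (k : ℕ) (π : Equiv.Perm X) (c d : X) :
    (((univ : Finset X).powersetCard k).filter (fun A => SwitchChain.sp c d A)).card
      = (((univ : Finset X).powersetCard k).filter (fun A => SwitchChain.sp (π c) (π d) A)).card := by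
  refine Finset.card_nbij' (fun A => A.map π.toEmbedding) (fun A => A.map π.symm.toEmbedding) ?_ ?_ ?_ ?_
  · intro A hA
    rw [Finset.mem_coe, Finset.mem_filter, Finset.mem_powersetCard] at hA ⊢
    refine ⟨⟨Finset.subset_univ _, by rw [Finset.card_map]; exact hA.1.2⟩, ?_⟩
    have := hA.2
    unfold SwitchChain.sp at this ⊢
    rw [Finset.mem_map_equiv, Finset.mem_map_equiv]
    simpa using this
  · intro A hA
    rw [Finset.mem_coe, Finset.mem_filter, Finset.mem_powersetCard] at hA ⊢
    refine ⟨⟨Finset.subset_univ _, by rw [Finset.card_map]; exact hA.1.2⟩, ?_⟩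
    have := hA.2
    unfold SwitchChain.sp at this ⊢
    rw [Finset.mem_map_equiv, Finset.mem_map_equiv]
    simpa using this
  · intro A _
    ext x; simp [Finset.mem_map_equiv]
  · intro A _
    ext x; simp [Finset.mem_map_equiv]

theorem jh_card_split {X : Type*} [Fintype X] [DecidableEq X] (k : ℕ) (c d c' d' : X) (h : c ≠ d)
    (h' : c' ≠ d') :
    (((univ : Finset X).powersetCard k).filter (fun A => SwitchChain.sp c d A)).card
      = (((univ : Finset X).powersetCard k).filter (fun A => SwitchChain.sp c' d' A)).card := by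
  rw [jh_card_map k (Equiv.swap c c') c d, Equiv.swap_apply_left]
  rw [jh_card_map k (Equiv.swap (Equiv.swap c c' d) d') c' (Equiv.swap c c' d), Equiv.swap_apply_left]
  rw [Equiv.swap_apply_of_ne_of_ne (a := Equiv.swap c c' d) (b := d') (x := c')]
  · intro h2
    have h3 : Equiv.swap c c' c = Equiv.swap c c' d := by rw [Equiv.swap_apply_left]; exact h2
    exact h ((Equiv.swap c c').injective h3)
  · exact h'

/-- J2. -/
theorem johnson_J2 (X : Finset ι) (k : ℕ) (F : Finset ι → ℝ) :
    ∑ c ∈ X, ∑ d ∈ X.erase c,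
        (((X.powersetCard k).filter (split c d)).card : ℝ) *
          ((∑ A ∈ (X.powersetCard k).filter (split c d), F A) /
              (((X.powersetCard k).filter (split c d)).card : ℝ) -
            (∑ A ∈ X.powersetCard k, F A) / ((X.powersetCard k).card : ℝ)) ^ 2 ≤
      (1 / 4) * ∑ c ∈ X, ∑ d ∈ X, ∑ A ∈ X.powersetCard k, (F A - F (swp c d A)) ^ 2 := by
  have hRHS : 0 ≤ (1 / 4) * ∑ c ∈ X, ∑ d ∈ X, ∑ A ∈ X.powersetCard k, (F A - F (swp c d A)) ^ 2 := by
    positivity
  by_cases hX : X.card ≤ 1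
  · refine le_trans (le_of_eq ?_) hRHS
    refine Finset.sum_eq_zero fun c hc => ?_
    have : X.erase c = ∅ := by
      rw [← Finset.card_eq_zero, Finset.card_erase_of_mem hc]; omega
    rw [this, Finset.sum_empty]
  have hX2 : 2 ≤ Fintype.card X := by rw [Fintype.card_coe]; omega
  obtain ⟨c0, d0, hcd0⟩ := Fintype.exists_pair_of_one_lt_card (α := X) (by omega)
  set J := (univ : Finset X).powersetCard k with hJ
  set G : Finset X → ℝ := fun A => F (A.map (Function.Embedding.subtype _)) with hG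
  rcases J.eq_empty_or_nonempty with hE | hNE
  · refine le_trans (le_of_eq ?_) hRHS
    have hE' : X.powersetCard k = ∅ := by
      rw [← Finset.card_eq_zero, jh_card, ← hJ, hE]; rfl
    rw [hE']; simp
  have hc : (J.card : ℝ) ≠ 0 := by
    have : 0 < J.card := Finset.card_pos.mpr hNE
    exact_mod_cast this.ne'
  set μ := (∑ B ∈ J, G B) / (J.card : ℝ) with hμ
  set s : ℝ := ((J.filter (fun A => SwitchChain.sp c0 d0 A)).card : ℝ) with hs
  have hcs : ∀ c d : X, c ≠ d → ((J.filter (fun A => SwitchChain.sp c d A)).card : ℝ) = s := by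
    intro c d hcd
    rw [hs, jh_card_split k c d c0 d0 hcd hcd0]
  have h2 := SwitchChain.johnson_split k s hX2 hcs (fun A => G A - μ) (jh_mean J G hc)
  have h1 := johnson_J1_type (X := X) k G
  rw [← hJ] at h1 h2
  rw [jh_energy]
  refine le_trans ?_ h1
  have hs0 : 0 ≤ s := Nat.cast_nonneg _
  -- the left side in terms of the type version
  have hL : ∀ c ∈ X, ∀ d ∈ X.erase c,
      (((X.powersetCard k).filter (split c d)).card : ℝ) *
          ((∑ A ∈ (X.powersetCard k).filter (split c d), F A) /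
              (((X.powersetCard k).filter (split c d)).card : ℝ) -
            (∑ A ∈ X.powersetCard k, F A) / ((X.powersetCard k).card : ℝ)) ^ 2
        = (1 / s) * (∑ A ∈ J, if (∃ (hc : c ∈ X) (hd : d ∈ X), SwitchChain.sp (⟨c, hc⟩ : X) ⟨d, hd⟩ A)
            then G A - μ else 0) ^ 2 := by
    intro c hcX d hd
    obtain ⟨hdc, hdX⟩ := Finset.mem_erase.mp hd
    have hne : (⟨c, hcX⟩ : X) ≠ ⟨d, hdX⟩ := fun h => hdc (Subtype.ext_iff.mp h).symm
    have e1 : ∀ H : Finset ι → ℝ, ∑ A ∈ (X.powersetCard k).filter (split c d), H A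
        = ∑ A ∈ J, if SwitchChain.sp (⟨c, hcX⟩ : X) ⟨d, hdX⟩ A then
            H (A.map (Function.Embedding.subtype _)) else 0 := by
      intro H
      rw [Finset.sum_filter, jh_sum]
      refine Finset.sum_congr rfl fun A _ => ?_
      have := jh_split X ⟨c, hcX⟩ ⟨d, hdX⟩ A
      by_cases h : SwitchChain.sp (⟨c, hcX⟩ : X) ⟨d, hdX⟩ A
      · rw [if_pos h, if_pos (this.mpr h)]
      · rw [if_neg h, if_neg (fun h' => h (this.mp h'))]
    have e2 : (((X.powersetCard k).filter (split c d)).card : ℝ) = s := by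
      have h3 := e1 (fun _ => 1)
      rw [Finset.sum_const, nsmul_eq_mul, mul_one, ← Finset.sum_filter, Finset.sum_const,
        nsmul_eq_mul, mul_one, hcs _ _ hne] at h3
      exact h3
    have e3 : ∑ A ∈ X.powersetCard k, F A = ∑ A ∈ J, G A := jh_sum X k F
    have e4 : ((X.powersetCard k).card : ℝ) = J.card := by rw [jh_card]
    have e5 : (∑ A ∈ J, if (∃ (hc : c ∈ X) (hd : d ∈ X), SwitchChain.sp (⟨c, hc⟩ : X) ⟨d, hd⟩ A)
            then G A - μ else 0) = ∑ A ∈ (X.powersetCard k).filter (split c d), F A - s * μ := by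
      have h4 : ∀ A ∈ J, (if (∃ (hc : c ∈ X) (hd : d ∈ X), SwitchChain.sp (⟨c, hc⟩ : X) ⟨d, hd⟩ A)
            then G A - μ else 0) = if SwitchChain.sp (⟨c, hcX⟩ : X) ⟨d, hdX⟩ A then G A - μ else 0 := by
        intro A _
        by_cases h : SwitchChain.sp (⟨c, hcX⟩ : X) ⟨d, hdX⟩ A
        · rw [if_pos h, if_pos ⟨hcX, hdX, h⟩]
        · rw [if_neg h, if_neg (fun ⟨_, _, h'⟩ => h h')]
      rw [Finset.sum_congr rfl h4, e1, ← Finset.sum_filter, ← Finset.sum_filter,
        Finset.sum_sub_distrib, Finset.sum_const, nsmul_eq_mul, hcs _ _ hne]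
    rw [e2, e3, e4, e5, ← hμ]
    by_cases hs1 : s = 0
    · rw [hs1]; simp
    · field_simp
  have hL2 : ∑ c ∈ X, ∑ d ∈ X.erase c,
        (((X.powersetCard k).filter (split c d)).card : ℝ) *
          ((∑ A ∈ (X.powersetCard k).filter (split c d), F A) /
              (((X.powersetCard k).filter (split c d)).card : ℝ) -
            (∑ A ∈ X.powersetCard k, F A) / ((X.powersetCard k).card : ℝ)) ^ 2
      = (1 / s) * ∑ x : X, ∑ y : X, (∑ A ∈ J, if SwitchChain.sp x y A then G A - μ else 0) ^ 2 := by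
    set Φ : ι → ι → ℝ := fun c d => (∑ A ∈ J, if (∃ (hc : c ∈ X) (hd : d ∈ X),
        SwitchChain.sp (⟨c, hc⟩ : X) ⟨d, hd⟩ A) then G A - μ else 0) ^ 2 with hΦ
    have hΦ1 : ∀ x y : X, (∑ A ∈ J, if SwitchChain.sp x y A then G A - μ else 0) ^ 2 = Φ x y := by
      intro x y
      simp only [hΦ]
      congr 1
      refine Finset.sum_congr rfl fun A _ => ?_
      by_cases h : SwitchChain.sp x y A
      · rw [if_pos h, if_pos ⟨x.2, y.2, h⟩]
      · rw [if_neg h, if_neg (fun ⟨_, _, h'⟩ => h h')]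
    have hΦ2 : ∀ c, Φ c c = 0 := by
      intro c
      simp only [hΦ]
      rw [Finset.sum_eq_zero]
      · ring
      · intro A _
        rw [if_neg]
        rintro ⟨h1, h2, h3⟩
        exact SwitchChain.sp_self _ _ h3
    have e1 : ∑ x : X, ∑ y : X, (∑ A ∈ J, if SwitchChain.sp x y A then G A - μ else 0) ^ 2
        = ∑ c ∈ X, ∑ d ∈ X, Φ c d := by
      rw [← Finset.sum_coe_sort X (fun c => ∑ d ∈ X, Φ c d)]
      refine Finset.sum_congr rfl fun c _ => ?_
      rw [← Finset.sum_coe_sort X (fun d => Φ c d)]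
      exact Finset.sum_congr rfl fun d _ => hΦ1 c d
    rw [Finset.sum_congr rfl fun c hc => Finset.sum_congr rfl fun d hd => hL c hc d hd, e1,
      Finset.mul_sum]
    refine Finset.sum_congr rfl fun c hc => ?_
    rw [Finset.mul_sum, ← Finset.sum_erase_add X _ hc]
    have : (1 / s) * Φ c c = 0 := by rw [hΦ2]; ring
    rw [this, add_zero]
  rw [hL2]
  by_cases hs1 : s = 0
  · rw [hs1, div_zero, zero_mul]; positivity
  · have hs2 : 0 < s := lt_of_le_of_ne hs0 (Ne.symm hs1)
    have h3 : (1 / s) * ∑ x : X, ∑ y : X, (∑ A ∈ J, if SwitchChain.sp x y A then G A - μ else 0) ^ 2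
        ≤ (1 / s) * (s * ((Fintype.card X : ℝ) - 2) * ∑ A ∈ J, (G A - μ) ^ 2) :=
      mul_le_mul_of_nonneg_left h2 (by positivity)
    refine h3.trans ?_
    have h4 : 0 ≤ ∑ A ∈ J, (G A - μ) ^ 2 := Finset.sum_nonneg fun _ _ => sq_nonneg _
    have h5 : (1 / s) * (s * ((Fintype.card X : ℝ) - 2) * ∑ A ∈ J, (G A - μ) ^ 2)
        = ((Fintype.card X : ℝ) - 2) * ∑ A ∈ J, (G A - μ) ^ 2 := by field_simp
    rw [h5]
    nlinarith

end Crest.Agent.SW
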