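import Crest.Agent.SW.Defs
import Crest.Agent.SW.Johnson

/-!
Chunk G (row 299): trade classes are Johnson schemes.
-/

set_option autoImplicit false
open Finset

namespace Crest.Agent.SW

section trade

variable {n : ℕ}

theorem tr_dg (G : Adj n) (v : Fin n) : dg G v = ∑ u, (G v u).toNat := by
  unfold dg
  rw [Finset.card_filter]
  refine Finset.sum_congr rfl fun u _ => ?_
  cases G v u <;> simp

/-- the exclusive neighbours -/
def trX (a b : Fin n) (G : Adj n) : Finset (Fin n) :=
  univ.filter fun x => x ≠ a ∧ x ≠ b ∧ G a x ≠ G b x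

theorem mem_trX {a b : Fin n} {G : Adj n} {x : Fin n} :
    x ∈ trX a b G ↔ x ≠ a ∧ x ≠ b ∧ G a x ≠ G b x := by simp [trX]

theorem off_eq {a b : Fin n} {G H : Adj n} (h : off {a, b} H = off {a, b} G) {x y : Fin n}
    (hx : x ≠ a ∧ x ≠ b) (hy : y ≠ a ∧ y ≠ b) : H x y = G x y := by
  have := congrFun (congrFun h x) y
  simpa [off, hx.1, hx.2, hy.1, hy.2] using this

theorem tr_split (a b : Fin n) (hab : a ≠ b) (g : Fin n → ℕ) :
    ∑ u, g u = g a + g b + ∑ u ∈ univ.filter (fun u => u ≠ a ∧ u ≠ b), g u := by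
  rw [← Finset.add_sum_erase univ g (Finset.mem_univ a),
    ← Finset.add_sum_erase (univ.erase a) g (by simp [hab.symm] : b ∈ univ.erase a), add_assoc]
  congr 2
  apply Finset.sum_congr _ fun _ _ => rfl
  ext u
  simp only [Finset.mem_erase, Finset.mem_univ, and_true, Finset.mem_filter, true_and]
  tauto

theorem tr_pair {δ : Fin n → ℕ} {a b : Fin n} (hab : a ≠ b) {G H : Adj n} (hG : G ∈ Om δ)
    (hH : H ∈ Om δ) (h : off {a, b} H = off {a, b} G) {v : Fin n} (hva : v ≠ a) (hvb : v ≠ b) :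
    (H v a).toNat + (H v b).toNat = (G v a).toNat + (G v b).toNat := by
  simp only [Om, mem_filter, mem_univ, true_and] at hG hH
  have h1 := hG.2 v
  have h2 := hH.2 v
  rw [tr_dg, tr_split a b hab] at h1 h2
  have h3 : ∑ u ∈ univ.filter (fun u => u ≠ a ∧ u ≠ b), (H v u).toNat =
      ∑ u ∈ univ.filter (fun u => u ≠ a ∧ u ≠ b), (G v u).toNat := by
    refine Finset.sum_congr rfl fun u hu => ?_
    simp only [mem_filter, mem_univ, true_and] at hu
    rw [off_eq h ⟨hva, hvb⟩ hu]
  omega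

/-- outside of `X` the rows `a`, `b` are fixed -/
theorem tr_same {δ : Fin n → ℕ} {a b : Fin n} (hab : a ≠ b) {G H : Adj n} (hG : G ∈ Om δ)
    (hH : H ∈ Om δ) (h : off {a, b} H = off {a, b} G) {v : Fin n} (hva : v ≠ a) (hvb : v ≠ b)
    (hv : v ∉ trX a b G) : H a v = G a v ∧ H b v = G b v := by
  have h1 := tr_pair hab hG hH h hva hvb
  simp only [Om, mem_filter, mem_univ, true_and] at hG hH
  rw [mem_trX] at hv
  have h2 : G a v = G b v := by
    by_contra h3; exact hv ⟨hva, hvb, h3⟩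
  rw [hG.1.1 v a, hG.1.1 v b, hH.1.1 v a, hH.1.1 v b, ← h2] at h1
  rw [← h2]
  cases hx : H a v <;> cases hy : H b v <;> cases hz : G a v <;> simp [hx, hy, hz] at h1 ⊢

theorem tr_diff {δ : Fin n → ℕ} {a b : Fin n} (hab : a ≠ b) {G H : Adj n} (hG : G ∈ Om δ)
    (hH : H ∈ Om δ) (h : off {a, b} H = off {a, b} G) {v : Fin n} (hv : v ∈ trX a b G) :
    H b v = !(H a v) := by
  rw [mem_trX] at hv
  have h1 := tr_pair hab hG hH h hv.1 hv.2.1
  simp only [Om, mem_filter, mem_univ, true_and] at hG hH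
  have h2 := hv.2.2
  rw [hG.1.1 v a, hG.1.1 v b, hH.1.1 v a, hH.1.1 v b] at h1
  cases hx : H a v <;> cases hy : H b v <;> cases hz : G a v <;> cases hw : G b v <;>
    simp [hx, hy, hz, hw] at h1 h2 ⊢

/-- the part of `X` joined to `a` -/
def trPsi (a : Fin n) (X : Finset (Fin n)) (H : Adj n) : Finset (Fin n) :=
  X.filter fun x => H a x = true

theorem tr_sumX (a b : Fin n) (hab : a ≠ b) (X : Finset (Fin n)) (hX : ∀ x ∈ X, x ≠ a ∧ x ≠ b)
    (g : Fin n → ℕ) :
    ∑ u ∈ univ.filter (fun u => u ≠ a ∧ u ≠ b), g u = ∑ u ∈ X, g u +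
      ∑ u ∈ univ.filter (fun u => (u ≠ a ∧ u ≠ b) ∧ u ∉ X), g u := by
  rw [← Finset.sum_filter_add_sum_filter_not (univ.filter (fun u => u ≠ a ∧ u ≠ b))
    (fun u => u ∈ X) g]
  congr 1
  · apply Finset.sum_congr _ fun _ _ => rfl
    ext u
    simp only [mem_filter, mem_univ, true_and]
    exact ⟨fun h => h.2, fun h => ⟨hX u h, h⟩⟩
  · apply Finset.sum_congr _ fun _ _ => rfl
    ext u
    simp only [mem_filter, mem_univ, true_and]

theorem tr_ab_card {δ : Fin n → ℕ} {a b : Fin n} (hab : a ≠ b) {G H : Adj n} (hG : G ∈ Om δ)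
    (hH : H ∈ Om δ) (h : off {a, b} H = off {a, b} G) :
    H a b = G a b ∧ (trPsi a (trX a b G) H).card = (trPsi a (trX a b G) G).card := by
  have hsame := fun v (h1 : v ≠ a) (h2 : v ≠ b) (h3 : v ∉ trX a b G) => tr_same hab hG hH h h1 h2 h3
  have hdH := fun v (h3 : v ∈ trX a b G) => tr_diff hab hG hH h h3
  have hdG := fun v (h3 : v ∈ trX a b G) => tr_diff hab hG hG rfl h3
  simp only [Om, mem_filter, mem_univ, true_and] at hG hH
  have hXX : ∀ x ∈ trX a b G, x ≠ a ∧ x ≠ b := fun x hx => by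
    rw [mem_trX] at hx; exact ⟨hx.1, hx.2.1⟩
  have hcard : ∀ K : Adj n, ∑ u ∈ trX a b G, (K a u).toNat = (trPsi a (trX a b G) K).card := by
    intro K
    unfold trPsi
    rw [Finset.card_filter]
    refine Finset.sum_congr rfl fun u _ => ?_
    cases K a u <;> simp
  have hcard' : ∀ K : Adj n, (∀ v ∈ trX a b G, K b v = !(K a v)) →
      ∑ u ∈ trX a b G, (K b u).toNat + (trPsi a (trX a b G) K).card = (trX a b G).card := by
    intro K hK
    rw [← hcard K, ← Finset.sum_add_distrib, Finset.card_eq_sum_ones]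
    refine Finset.sum_congr rfl fun u hu => ?_
    rw [hK u hu]
    cases K a u <;> simp
  have a1 := hG.2 a
  have a2 := hH.2 a
  have b1 := hG.2 b
  have b2 := hH.2 b
  rw [tr_dg, tr_split a b hab, tr_sumX a b hab _ hXX] at a1 a2 b1 b2
  rw [hcard] at a1 a2
  have c1 := hcard' G hdG
  have c2 := hcard' H hdH
  have e1 : ∑ u ∈ univ.filter (fun u => (u ≠ a ∧ u ≠ b) ∧ u ∉ trX a b G), (H a u).toNat =
      ∑ u ∈ univ.filter (fun u => (u ≠ a ∧ u ≠ b) ∧ u ∉ trX a b G), (G a u).toNat := by
    refine Finset.sum_congr rfl fun u hu => ?_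
    simp only [mem_filter, mem_univ, true_and] at hu
    rw [(hsame u hu.1.1 hu.1.2 hu.2).1]
  have e2 : ∑ u ∈ univ.filter (fun u => (u ≠ a ∧ u ≠ b) ∧ u ∉ trX a b G), (H b u).toNat =
      ∑ u ∈ univ.filter (fun u => (u ≠ a ∧ u ≠ b) ∧ u ∉ trX a b G), (G b u).toNat := by
    refine Finset.sum_congr rfl fun u hu => ?_
    simp only [mem_filter, mem_univ, true_and] at hu
    rw [(hsame u hu.1.1 hu.1.2 hu.2).2]
  have g1 := hG.1.2 a
  have g2 := hG.1.2 b
  have g3 := hH.1.2 a
  have g4 := hH.1.2 b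
  have s1 := hG.1.1 b a
  have s2 := hH.1.1 b a
  rw [g1] at a1
  rw [g3] at a2
  rw [g2, s1] at b1
  rw [g4, s2] at b2
  simp only [Bool.toNat_false] at a1 a2 b1 b2
  have hab' : (H a b).toNat = (G a b).toNat := by omega
  refine ⟨?_, by omega⟩
  cases hx : H a b <;> cases hy : G a b <;> simp [hx, hy] at hab' ⊢

/-- the graph of the class with `N(a) ∩ X = A` -/
def trPhi (a b : Fin n) (X : Finset (Fin n)) (G : Adj n) (A : Finset (Fin n)) : Adj n :=
  fun x y =>
    if x = a ∧ y ∈ X then decide (y ∈ A)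
    else if x = b ∧ y ∈ X then decide (y ∉ A)
    else if y = a ∧ x ∈ X then decide (x ∈ A)
    else if y = b ∧ x ∈ X then decide (x ∉ A)
    else G x y

section phi
variable {a b : Fin n} (hab : a ≠ b) {X : Finset (Fin n)} (ha : a ∉ X) (hb : b ∉ X) (G : Adj n)
  (A : Finset (Fin n))
include hab ha hb

theorem phi_aX {y : Fin n} (hy : y ∈ X) : trPhi a b X G A a y = decide (y ∈ A) := by
  simp [trPhi, hy]

theorem phi_bX {y : Fin n} (hy : y ∈ X) : trPhi a b X G A b y = decide (y ∉ A) := by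
  simp [trPhi, hy, hab.symm]

theorem phi_Xa {y : Fin n} (hy : y ∈ X) : trPhi a b X G A y a = decide (y ∈ A) := by
  have h1 : y ≠ a := fun h => ha (h ▸ hy)
  have h2 : y ≠ b := fun h => hb (h ▸ hy)
  simp [trPhi, hy, ha, h1, h2]

theorem phi_Xb {y : Fin n} (hy : y ∈ X) : trPhi a b X G A y b = decide (y ∉ A) := by
  have h1 : y ≠ a := fun h => ha (h ▸ hy)
  have h2 : y ≠ b := fun h => hb (h ▸ hy)
  simp [trPhi, hy, hb, h1, h2, hab.symm]

theorem phi_a {y : Fin n} (hy : y ∉ X) : trPhi a b X G A a y = G a y := by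
  simp [trPhi, hy, ha]

theorem phi_b {y : Fin n} (hy : y ∉ X) : trPhi a b X G A b y = G b y := by
  simp [trPhi, hy, hb]

theorem phi_a' {y : Fin n} (hy : y ∉ X) : trPhi a b X G A y a = G y a := by
  simp [trPhi, hy, ha]

theorem phi_b' {y : Fin n} (hy : y ∉ X) : trPhi a b X G A y b = G y b := by
  simp [trPhi, hy, hb]

theorem phi_off {x y : Fin n} (hx : x ≠ a ∧ x ≠ b) (hy : y ≠ a ∧ y ≠ b) :
    trPhi a b X G A x y = G x y := by
  simp [trPhi, hx.1, hx.2, hy.1, hy.2]

theorem phi_off_eq : off {a, b} (trPhi a b X G A) = off {a, b} G := by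
  funext x y
  by_cases h : x ∈ ({a, b} : Finset (Fin n)) ∨ y ∈ ({a, b} : Finset (Fin n))
  · simp only [off, if_pos h]
  · simp only [off, if_neg h]
    simp only [mem_insert, mem_singleton, not_or] at h
    exact phi_off hab ha hb G A h.1 h.2

end phi

theorem trX_a {a b : Fin n} (G : Adj n) : a ∉ trX a b G := by simp [mem_trX]
theorem trX_b {a b : Fin n} (G : Adj n) : b ∉ trX a b G := by simp [mem_trX]

theorem psi_phi {a b : Fin n} (hab : a ≠ b) (G : Adj n) {A : Finset (Fin n)}
    (hA : A ⊆ trX a b G) : trPsi a (trX a b G) (trPhi a b (trX a b G) G A) = A := by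
  ext x
  simp only [trPsi, mem_filter]
  constructor
  · rintro ⟨hx, h⟩
    rw [phi_aX hab (trX_a G) (trX_b G) G A hx] at h
    exact of_decide_eq_true h
  · intro hx
    refine ⟨hA hx, ?_⟩
    rw [phi_aX hab (trX_a G) (trX_b G) G A (hA hx)]
    exact decide_eq_true hx

theorem phi_psi {δ : Fin n → ℕ} {a b : Fin n} (hab : a ≠ b) {G H : Adj n} (hG : G ∈ Om δ)
    (hH : H ∈ Om δ) (h : off {a, b} H = off {a, b} G) :
    trPhi a b (trX a b G) G (trPsi a (trX a b G) H) = H := by
  have hsame := fun v (h1 : v ≠ a) (h2 : v ≠ b) (h3 : v ∉ trX a b G) => tr_same hab hG hH h h1 h2 h3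
  have hdH := fun v (h3 : v ∈ trX a b G) => tr_diff hab hG hH h h3
  have habH := (tr_ab_card hab hG hH h).1
  have ha := trX_a (b := b) (a := a) G
  have hb := trX_b (b := b) (a := a) G
  have hoff := fun x y hx hy => off_eq h (x := x) (y := y) hx hy
  simp only [Om, mem_filter, mem_univ, true_and] at hG hH
  have hrow : ∀ y, trPhi a b (trX a b G) G (trPsi a (trX a b G) H) a y = H a y ∧
      trPhi a b (trX a b G) G (trPsi a (trX a b G) H) b y = H b y := by
    intro y
    by_cases hy : y ∈ trX a b G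
    · rw [phi_aX hab ha hb G _ hy, phi_bX hab ha hb G _ hy, hdH y hy]
      simp [trPsi, hy]
    · rw [phi_a hab ha hb G _ hy, phi_b hab ha hb G _ hy]
      by_cases h1 : y = a
      · subst h1
        rw [hG.1.2, hH.1.2, hG.1.1 b y, hH.1.1 b y, habH]; exact ⟨rfl, rfl⟩
      · by_cases h2 : y = b
        · subst h2
          rw [hG.1.2 y, hH.1.2 y, habH]; exact ⟨rfl, rfl⟩
        · have := hsame y h1 h2 hy
          exact ⟨this.1.symm, this.2.symm⟩
  have hcol : ∀ y, trPhi a b (trX a b G) G (trPsi a (trX a b G) H) y a = H y a ∧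
      trPhi a b (trX a b G) G (trPsi a (trX a b G) H) y b = H y b := by
    intro y
    by_cases hy : y ∈ trX a b G
    · rw [phi_Xa hab ha hb G _ hy, phi_Xb hab ha hb G _ hy, hH.1.1 y a, hH.1.1 y b, hdH y hy]
      simp [trPsi, hy]
    · have := hrow y
      rw [phi_a hab ha hb G _ hy, phi_b hab ha hb G _ hy] at this
      rw [phi_a' hab ha hb G _ hy, phi_b' hab ha hb G _ hy, hG.1.1 y a, hG.1.1 y b, hH.1.1 y a,
        hH.1.1 y b]
      exact this
  funext x y
  by_cases h1 : x = a
  · subst h1; exact (hrow y).1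
  by_cases h2 : x = b
  · subst h2; exact (hrow y).2
  by_cases h3 : y = a
  · subst h3; exact (hcol x).1
  by_cases h4 : y = b
  · subst h4; exact (hcol x).2
  rw [phi_off hab ha hb G _ ⟨h1, h2⟩ ⟨h3, h4⟩, hoff x y ⟨h1, h2⟩ ⟨h3, h4⟩]

theorem phi_mem {δ : Fin n → ℕ} {a b : Fin n} (hab : a ≠ b) {G : Adj n} (hG : G ∈ Om δ)
    {A : Finset (Fin n)} (hA : A ⊆ trX a b G)
    (hk : A.card = (trPsi a (trX a b G) G).card) : trPhi a b (trX a b G) G A ∈ Om δ := by
  have hdG := fun v (h3 : v ∈ trX a b G) => tr_diff hab hG hG rfl h3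
  have ha := trX_a (b := b) (a := a) G
  have hb := trX_b (b := b) (a := a) G
  have hG0 := hG
  simp only [Om, mem_filter, mem_univ, true_and] at hG ⊢
  set X := trX a b G with hXdef
  have hXX : ∀ x ∈ X, x ≠ a ∧ x ≠ b := fun x hx => by
    rw [hXdef, mem_trX] at hx; exact ⟨hx.1, hx.2.1⟩
  -- symmetry for rows
  have hsy : ∀ y, trPhi a b X G A a y = trPhi a b X G A y a ∧
      trPhi a b X G A b y = trPhi a b X G A y b := by
    intro y
    by_cases hy : y ∈ X
    · rw [phi_aX hab ha hb G _ hy, phi_bX hab ha hb G _ hy, phi_Xa hab ha hb G _ hy,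
        phi_Xb hab ha hb G _ hy]; exact ⟨rfl, rfl⟩
    · rw [phi_a hab ha hb G _ hy, phi_b hab ha hb G _ hy, phi_a' hab ha hb G _ hy,
        phi_b' hab ha hb G _ hy]; exact ⟨hG.1.1 a y, hG.1.1 b y⟩
  refine ⟨⟨?_, ?_⟩, ?_⟩
  · intro x y
    by_cases h1 : x = a
    · subst h1; exact (hsy y).1
    by_cases h2 : x = b
    · subst h2; exact (hsy y).2
    by_cases h3 : y = a
    · subst h3; exact (hsy x).1.symm
    by_cases h4 : y = b
    · subst h4; exact (hsy x).2.symm
    rw [phi_off hab ha hb G _ ⟨h1, h2⟩ ⟨h3, h4⟩, phi_off hab ha hb G _ ⟨h3, h4⟩ ⟨h1, h2⟩, hG.1.1]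
  · intro x
    by_cases h1 : x = a
    · subst h1; rw [phi_a hab ha hb G _ ha, hG.1.2]
    by_cases h2 : x = b
    · subst h2; rw [phi_b hab ha hb G _ hb, hG.1.2]
    rw [phi_off hab ha hb G _ ⟨h1, h2⟩ ⟨h1, h2⟩, hG.1.2]
  · intro v
    have hv := hG.2 v
    rw [tr_dg, tr_split a b hab] at hv
    rw [tr_dg, tr_split a b hab]
    have hcardX : ∀ K : Adj n, ∑ u ∈ X, (K a u).toNat = (trPsi a X K).card := by
      intro K
      unfold trPsi
      rw [Finset.card_filter]
      refine Finset.sum_congr rfl fun u _ => ?_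
      cases K a u <;> simp
    by_cases h1 : v = a
    · subst h1
      rw [tr_sumX v b hab X hXX, hcardX] at hv
      rw [tr_sumX v b hab X hXX, hcardX, psi_phi hab G hA, phi_a hab ha hb G _ ha,
        phi_a hab ha hb G _ hb, hk]
      rw [← hv]
      congr 2
      refine Finset.sum_congr rfl fun u hu => ?_
      simp only [mem_filter, mem_univ, true_and] at hu
      rw [phi_a hab ha hb G _ hu.2]
    by_cases h2 : v = b
    · subst h2
      rw [tr_sumX a v hab X hXX] at hv
      rw [tr_sumX a v hab X hXX, phi_b hab ha hb G _ ha, phi_b hab ha hb G _ hb]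
      rw [← hv]
      have e1 : ∑ u ∈ X, (trPhi a v X G A v u).toNat + A.card = X.card := by
        rw [← psi_phi hab G hA, ← hXdef, ← hcardX, ← Finset.sum_add_distrib,
          Finset.card_eq_sum_ones]
        refine Finset.sum_congr rfl fun u hu => ?_
        rw [psi_phi hab G hA, phi_aX hab ha hb G _ hu, phi_bX hab ha hb G _ hu]
        by_cases hu' : u ∈ A <;> simp [hu']
      have e2 : ∑ u ∈ X, (G v u).toNat + (trPsi a X G).card = X.card := by
        rw [← hcardX, ← Finset.sum_add_distrib, Finset.card_eq_sum_ones]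
        refine Finset.sum_congr rfl fun u hu => ?_
        rw [hdG u hu]
        cases G a u <;> simp
      have e3 : ∑ u ∈ univ.filter (fun u => (u ≠ a ∧ u ≠ v) ∧ u ∉ X), (trPhi a v X G A v u).toNat
          = ∑ u ∈ univ.filter (fun u => (u ≠ a ∧ u ≠ v) ∧ u ∉ X), (G v u).toNat := by
        refine Finset.sum_congr rfl fun u hu => ?_
        simp only [mem_filter, mem_univ, true_and] at hu
        rw [phi_b hab ha hb G _ hu.2]
      rw [e3]
      omega
    · rw [← hv]
      have e3 : ∑ u ∈ univ.filter (fun u => u ≠ a ∧ u ≠ b), (trPhi a b X G A v u).toNat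
          = ∑ u ∈ univ.filter (fun u => u ≠ a ∧ u ≠ b), (G v u).toNat := by
        refine Finset.sum_congr rfl fun u hu => ?_
        simp only [mem_filter, mem_univ, true_and] at hu
        rw [phi_off hab ha hb G _ ⟨h1, h2⟩ hu]
      rw [e3]
      congr 1
      by_cases hvX : v ∈ X
      · rw [phi_Xa hab ha hb G _ hvX, phi_Xb hab ha hb G _ hvX, hG.1.1 v a, hG.1.1 v b,
          hdG v hvX]
        by_cases hvA : v ∈ A <;> cases G a v <;> simp [hvA]
      · rw [phi_a' hab ha hb G _ hvX, phi_b' hab ha hb G _ hvX]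

/-- sums over a class -/
theorem sum_cls {δ : Fin n → ℕ} {a b : Fin n} (hab : a ≠ b) {G : Adj n} (hG : G ∈ Om δ)
    (g : Adj n → ℝ) :
    ∑ H ∈ cls (Om δ) (off {a, b}) G, g H =
      ∑ A ∈ (trX a b G).powersetCard (trPsi a (trX a b G) G).card,
        g (trPhi a b (trX a b G) G A) := by
  refine Finset.sum_bij' (fun H _ => trPsi a (trX a b G) H)
    (fun A _ => trPhi a b (trX a b G) G A) ?_ ?_ ?_ ?_ ?_
  · intro H hH
    simp only [cls, mem_filter] at hH
    rw [mem_powersetCard]
    exact ⟨Finset.filter_subset _ _, (tr_ab_card hab hG hH.1 hH.2).2⟩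
  · intro A hA
    rw [mem_powersetCard] at hA
    simp only [cls, mem_filter]
    exact ⟨phi_mem hab hG hA.1 hA.2, phi_off_eq hab (trX_a G) (trX_b G) G A⟩
  · intro H hH
    simp only [cls, mem_filter] at hH
    exact phi_psi hab hG hH.1 hH.2
  · intro A hA
    rw [mem_powersetCard] at hA
    exact psi_phi hab G hA.1
  · intro H hH
    simp only [cls, mem_filter] at hH
    rw [phi_psi hab hG hH.1 hH.2]

theorem swp_mem {c d : Fin n} {A : Finset (Fin n)} {x : Fin n} :
    x ∈ swp c d A ↔ Equiv.swap c d x ∈ A := by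
  unfold swp
  rw [Finset.mem_map]
  constructor
  · rintro ⟨y, hy, rfl⟩
    simpa using hy
  · intro h
    exact ⟨Equiv.swap c d x, h, by simp⟩

theorem swp_of_not_split {c d : Fin n} {A : Finset (Fin n)} (h : ¬ split c d A) :
    swp c d A = A := by
  have h' : c ∈ A ↔ d ∈ A := by unfold split at h; tauto
  ext x
  rw [swp_mem]
  by_cases h1 : x = c
  · subst h1; rw [Equiv.swap_apply_left]; exact h'.symm
  · by_cases h2 : x = d
    · subst h2; rw [Equiv.swap_apply_right]; exact h'
    · rw [Equiv.swap_apply_of_ne_of_ne h1 h2]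

theorem D4_ij_iff {a b : Fin n} (hab : a ≠ b) {G : Adj n} {δ : Fin n → ℕ} (hG : G ∈ Om δ)
    {A : Finset (Fin n)} (hA : A ⊆ trX a b G) (c d : Fin n) :
    (D4 a b c d ∧ ij a b c d (trPhi a b (trX a b G) G A) = true) ↔
      c ∈ trX a b G ∧ d ∈ trX a b G ∧ split c d A := by
  have ha := trX_a (b := b) (a := a) G
  have hb := trX_b (b := b) (a := a) G
  have hrow : ∀ y, y ≠ a → y ≠ b → y ∉ trX a b G →
      trPhi a b (trX a b G) G A a y = trPhi a b (trX a b G) G A b y := by
    intro y h1 h2 h3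
    rw [phi_a hab ha hb G _ h3, phi_b hab ha hb G _ h3]
    by_contra h4
    exact h3 (mem_trX.2 ⟨h1, h2, h4⟩)
  constructor
  · rintro ⟨⟨-, hcd, hac, had, hbc, hbd⟩, hij⟩
    simp only [ij, Bool.and_eq_true, beq_iff_eq, bne_iff_ne] at hij
    obtain ⟨⟨h1, h2⟩, h3⟩ := hij
    have hc : c ∈ trX a b G := by
      by_contra h
      have := hrow c hac.symm hbc.symm h
      rw [← h2] at this
      exact h3 this
    have hd : d ∈ trX a b G := by
      by_contra h
      have := hrow d had.symm hbd.symm h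
      rw [← h1] at this
      exact h3 this.symm
    refine ⟨hc, hd, ?_⟩
    rw [phi_aX hab ha hb G _ hc, phi_aX hab ha hb G _ hd] at h3
    unfold split
    by_cases hcA : c ∈ A <;> by_cases hdA : d ∈ A <;> simp [hcA, hdA] at h3 ⊢
  · rintro ⟨hc, hd, hs⟩
    have hc' := mem_trX.1 hc
    have hd' := mem_trX.1 hd
    have hcd : c ≠ d := by
      rintro rfl
      unfold split at hs; tauto
    refine ⟨⟨hab, hcd, hc'.1.symm, hd'.1.symm, hc'.2.1.symm, hd'.2.1.symm⟩, ?_⟩
    simp only [ij, Bool.and_eq_true, beq_iff_eq, bne_iff_ne]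
    rw [phi_aX hab ha hb G _ hc, phi_aX hab ha hb G _ hd, phi_bX hab ha hb G _ hc,
      phi_bX hab ha hb G _ hd]
    unfold split at hs
    by_cases hcA : c ∈ A <;> by_cases hdA : d ∈ A <;> simp [hcA, hdA] at hs ⊢

theorem sg_phi {a b : Fin n} (hab : a ≠ b) {G : Adj n}
    {A : Finset (Fin n)} {c d : Fin n} (hc : c ∈ trX a b G)
    (hd : d ∈ trX a b G) (hs : split c d A) :
    sg a b c d (trPhi a b (trX a b G) G A) = trPhi a b (trX a b G) G (swp c d A) := by
  have ha := trX_a (b := b) (a := a) G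
  have hb := trX_b (b := b) (a := a) G
  have hc' := mem_trX.1 hc
  have hd' := mem_trX.1 hd
  have hcd : c ≠ d := by
    rintro rfl
    unfold split at hs; tauto
  have hcs : (c ∈ swp c d A) ↔ c ∉ A := by
    rw [swp_mem, Equiv.swap_apply_left]; unfold split at hs; tauto
  have hds : (d ∈ swp c d A) ↔ d ∉ A := by
    rw [swp_mem, Equiv.swap_apply_right]; unfold split at hs; tauto
  have hxs : ∀ x, x ≠ c → x ≠ d → ((x ∈ swp c d A) ↔ x ∈ A) := by
    intro x h1 h2
    rw [swp_mem, Equiv.swap_apply_of_ne_of_ne h1 h2]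
  have hrow : ∀ y, sg a b c d (trPhi a b (trX a b G) G A) a y =
        trPhi a b (trX a b G) G (swp c d A) a y ∧
      sg a b c d (trPhi a b (trX a b G) G A) b y = trPhi a b (trX a b G) G (swp c d A) b y ∧
      sg a b c d (trPhi a b (trX a b G) G A) y a = trPhi a b (trX a b G) G (swp c d A) y a ∧
      sg a b c d (trPhi a b (trX a b G) G A) y b = trPhi a b (trX a b G) G (swp c d A) y b := by
    intro y
    by_cases h1 : y = c
    · subst h1
      have e1 : blk a b y d a y := by unfold blk; simp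
      have e2 : blk a b y d b y := by unfold blk; simp
      have e3 : blk a b y d y a := by unfold blk; simp
      have e4 : blk a b y d y b := by unfold blk; simp
      simp only [sg, if_pos e1, if_pos e2, if_pos e3, if_pos e4]
      rw [phi_aX hab ha hb G _ hc, phi_bX hab ha hb G _ hc, phi_aX hab ha hb G _ hc,
        phi_bX hab ha hb G _ hc, phi_Xa hab ha hb G _ hc, phi_Xb hab ha hb G _ hc,
        phi_Xa hab ha hb G _ hc, phi_Xb hab ha hb G _ hc]
      by_cases h : y ∈ A <;> simp [hcs, h]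
    · by_cases h2 : y = d
      · subst h2
        have e1 : blk a b c y a y := by unfold blk; simp
        have e2 : blk a b c y b y := by unfold blk; simp
        have e3 : blk a b c y y a := by unfold blk; simp
        have e4 : blk a b c y y b := by unfold blk; simp
        simp only [sg, if_pos e1, if_pos e2, if_pos e3, if_pos e4]
        rw [phi_aX hab ha hb G _ hd, phi_bX hab ha hb G _ hd, phi_aX hab ha hb G _ hd,
          phi_bX hab ha hb G _ hd, phi_Xa hab ha hb G _ hd, phi_Xb hab ha hb G _ hd,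
          phi_Xa hab ha hb G _ hd, phi_Xb hab ha hb G _ hd]
        by_cases h : y ∈ A <;> simp [hds, h]
      · have e1 : ¬ blk a b c d a y := by
          unfold blk; simp [h1, h2, hc'.1.symm, hd'.1.symm]
        have e2 : ¬ blk a b c d b y := by
          unfold blk; simp [h1, h2, hc'.2.1.symm, hd'.2.1.symm]
        have e3 : ¬ blk a b c d y a := by
          unfold blk; simp [h1, h2, hc'.1.symm, hd'.1.symm]
        have e4 : ¬ blk a b c d y b := by
          unfold blk; simp [h1, h2, hc'.2.1.symm, hd'.2.1.symm]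
        simp only [sg, if_neg e1, if_neg e2, if_neg e3, if_neg e4]
        by_cases hy : y ∈ trX a b G
        · rw [phi_aX hab ha hb G _ hy, phi_bX hab ha hb G _ hy, phi_aX hab ha hb G _ hy,
            phi_bX hab ha hb G _ hy, phi_Xa hab ha hb G _ hy, phi_Xb hab ha hb G _ hy,
            phi_Xa hab ha hb G _ hy, phi_Xb hab ha hb G _ hy]
          simp only [hxs y h1 h2, and_self]
        · rw [phi_a hab ha hb G _ hy, phi_b hab ha hb G _ hy, phi_a hab ha hb G _ hy,
            phi_b hab ha hb G _ hy, phi_a' hab ha hb G _ hy, phi_b' hab ha hb G _ hy,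
            phi_a' hab ha hb G _ hy, phi_b' hab ha hb G _ hy]
          exact ⟨rfl, rfl, rfl, rfl⟩
  funext x y
  by_cases h1 : x = a
  · subst h1; exact (hrow y).1
  by_cases h2 : x = b
  · subst h2; exact (hrow y).2.1
  by_cases h3 : y = a
  · subst h3; exact (hrow x).2.2.1
  by_cases h4 : y = b
  · subst h4; exact (hrow x).2.2.2
  have e1 : ¬ blk a b c d x y := by
    unfold blk; simp [h1, h2, h3, h4]
  simp only [sg, if_neg e1]
  rw [phi_off hab ha hb G _ ⟨h1, h2⟩ ⟨h3, h4⟩, phi_off hab ha hb G _ ⟨h1, h2⟩ ⟨h3, h4⟩]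

theorem EE_phi {δ : Fin n → ℕ} {a b : Fin n} (hab : a ≠ b) {G : Adj n} (hG : G ∈ Om δ)
    (f : Adj n → ℝ) (A : Finset (Fin n)) :
    EE δ {a, b} f (trPhi a b (trX a b G) G A) =
      (∑ A ∈ (trX a b G).powersetCard (trPsi a (trX a b G) G).card,
        f (trPhi a b (trX a b G) G A)) /
      (((trX a b G).powersetCard (trPsi a (trX a b G) G).card).card : ℝ) := by
  have h0 : cls (Om δ) (off {a, b}) (trPhi a b (trX a b G) G A) = cls (Om δ) (off {a, b}) G := by
    unfold cls
    rw [phi_off_eq hab (trX_a G) (trX_b G) G A]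
  unfold EE condE
  rw [h0, sum_cls hab hG f]
  congr 1
  have := sum_cls hab hG (fun _ => (1 : ℝ))
  simpa using this

theorem condE_key2_phi {δ : Fin n → ℕ} {a b : Fin n} (hab : a ≠ b) {G : Adj n} (hG : G ∈ Om δ)
    (f : Adj n → ℝ) {A : Finset (Fin n)} (hA : A ⊆ trX a b G) {c d : Fin n}
    (hc : c ∈ trX a b G) (hd : d ∈ trX a b G) (hs : split c d A) :
    condE (Om δ) (key2 a b c d) f (trPhi a b (trX a b G) G A) =
      (∑ A ∈ ((trX a b G).powersetCard (trPsi a (trX a b G) G).card).filter (split c d),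
        f (trPhi a b (trX a b G) G A)) /
      ((((trX a b G).powersetCard (trPsi a (trX a b G) G).card).filter (split c d)).card : ℝ) := by
  have hij := ((D4_ij_iff hab hG hA c d).2 ⟨hc, hd, hs⟩)
  have h0 : cls (Om δ) (key2 a b c d) (trPhi a b (trX a b G) G A) =
      (cls (Om δ) (off {a, b}) G).filter (fun H => ij a b c d H = true) := by
    ext H
    simp only [cls, key2, mem_filter, Prod.mk.injEq, phi_off_eq hab (trX_a G) (trX_b G) G A,
      hij.2, and_assoc]
  have key : ∀ g : Adj n → ℝ, ∑ H ∈ cls (Om δ) (key2 a b c d) (trPhi a b (trX a b G) G A), g H =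
      ∑ A ∈ ((trX a b G).powersetCard (trPsi a (trX a b G) G).card).filter (split c d),
        g (trPhi a b (trX a b G) G A) := by
    intro g
    rw [h0, Finset.sum_filter, sum_cls hab hG (fun H => if ij a b c d H = true then g H else 0),
      Finset.sum_filter]
    refine Finset.sum_congr rfl fun A' hA' => ?_
    rw [mem_powersetCard] at hA'
    have h1 := D4_ij_iff hab hG hA'.1 c d
    by_cases h2 : split c d A'
    · rw [if_pos h2, if_pos (h1.2 ⟨hc, hd, h2⟩).2]
    · rw [if_neg h2, if_neg]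
      intro h3
      exact h2 (h1.1 ⟨hij.1, h3⟩).2.2
  unfold condE
  rw [key f]
  congr 1
  have := key (fun _ => (1 : ℝ))
  simpa using this

/-- reduction of an inequality to classes -/
theorem class_ineq (Ω : Finset (Adj n)) (κ : Adj n → Adj n) (P Q : Adj n → ℝ)
    (h : ∀ G ∈ Ω, ∑ H ∈ cls Ω κ G, P H ≤ ∑ H ∈ cls Ω κ G, Q H) :
    ∑ G ∈ Ω, P G ≤ ∑ G ∈ Ω, Q G := by
  rw [← Finset.sum_fiberwise_of_maps_to (s := Ω) (t := Ω.image κ) (g := κ)
      (fun x hx => Finset.mem_image_of_mem κ hx) P,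
    ← Finset.sum_fiberwise_of_maps_to (s := Ω) (t := Ω.image κ) (g := κ)
      (fun x hx => Finset.mem_image_of_mem κ hx) Q]
  refine Finset.sum_le_sum fun k hk => ?_
  obtain ⟨G, hG, rfl⟩ := Finset.mem_image.1 hk
  exact h G hG

theorem swap_sum (δ : Fin n → ℕ) (a b : Fin n) (T : Fin n → Fin n → Adj n → ℝ) :
    ∑ c, ∑ d, (if D4 a b c d then ∑ G ∈ IJs δ a b c d, T c d G else 0) =
      ∑ G ∈ Om δ, ∑ c, ∑ d, (if D4 a b c d ∧ ij a b c d G = true then T c d G else 0) := by
  rw [Finset.sum_comm (s := Om δ)]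
  refine Finset.sum_congr rfl fun c _ => ?_
  rw [Finset.sum_comm (s := Om δ)]
  refine Finset.sum_congr rfl fun d _ => ?_
  by_cases h : D4 a b c d
  · simp only [h, if_true, true_and, IJs, Finset.sum_filter]
  · simp [h]

/-- class sums of block terms -/
theorem cls_block_sum {δ : Fin n → ℕ} {a b : Fin n} (hab : a ≠ b) {G : Adj n} (hG : G ∈ Om δ)
    (T : Fin n → Fin n → Adj n → ℝ) :
    ∑ H ∈ cls (Om δ) (off {a, b}) G, ∑ c, ∑ d,
        (if D4 a b c d ∧ ij a b c d H = true then T c d H else 0) =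
      ∑ c ∈ trX a b G, ∑ d ∈ trX a b G,
        ∑ A ∈ ((trX a b G).powersetCard (trPsi a (trX a b G) G).card).filter (split c d),
          T c d (trPhi a b (trX a b G) G A) := by
  rw [sum_cls hab hG, Finset.sum_comm]
  have h1 : ∀ c, ∑ A ∈ (trX a b G).powersetCard (trPsi a (trX a b G) G).card, ∑ d,
      (if D4 a b c d ∧ ij a b c d (trPhi a b (trX a b G) G A) = true then
        T c d (trPhi a b (trX a b G) G A) else 0) =
      if c ∈ trX a b G then ∑ d ∈ trX a b G,
        ∑ A ∈ ((trX a b G).powersetCard (trPsi a (trX a b G) G).card).filter (split c d),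
          T c d (trPhi a b (trX a b G) G A) else 0 := by
    intro c
    rw [Finset.sum_comm]
    have h2 : ∀ d, ∑ A ∈ (trX a b G).powersetCard (trPsi a (trX a b G) G).card,
        (if D4 a b c d ∧ ij a b c d (trPhi a b (trX a b G) G A) = true then
          T c d (trPhi a b (trX a b G) G A) else 0) =
        if c ∈ trX a b G then (if d ∈ trX a b G then
          ∑ A ∈ ((trX a b G).powersetCard (trPsi a (trX a b G) G).card).filter (split c d),
            T c d (trPhi a b (trX a b G) G A) else 0) else 0 := by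
      intro d
      by_cases hc : c ∈ trX a b G
      · by_cases hd : d ∈ trX a b G
        · rw [if_pos hc, if_pos hd, Finset.sum_filter]
          refine Finset.sum_congr rfl fun A hA => ?_
          rw [mem_powersetCard] at hA
          have := D4_ij_iff hab hG hA.1 c d
          by_cases hs : split c d A
          · rw [if_pos hs, if_pos (this.2 ⟨hc, hd, hs⟩)]
          · rw [if_neg hs, if_neg (fun h => hs (this.1 h).2.2)]
        · rw [if_pos hc, if_neg hd]
          refine Finset.sum_eq_zero fun A hA => ?_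
          rw [mem_powersetCard] at hA
          exact if_neg (fun h => hd ((D4_ij_iff hab hG hA.1 c d).1 h).2.1)
      · rw [if_neg hc]
        refine Finset.sum_eq_zero fun A hA => ?_
        rw [mem_powersetCard] at hA
        exact if_neg (fun h => hc ((D4_ij_iff hab hG hA.1 c d).1 h).1)
    simp only [h2]
    by_cases hc : c ∈ trX a b G
    · simp only [if_pos hc]
      rw [← Finset.sum_filter]
      apply Finset.sum_congr _ fun _ _ => rfl
      ext x; simp
    · simp only [if_neg hc, Finset.sum_const_zero]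
  simp only [h1]
  rw [← Finset.sum_filter]
  apply Finset.sum_congr _ fun _ _ => rfl
  ext x; simp

/-- the Dirichlet form of a class -/
theorem cls_energy {δ : Fin n → ℕ} {a b : Fin n} (hab : a ≠ b) {G : Adj n} (hG : G ∈ Om δ)
    (f : Adj n → ℝ) :
    ∑ H ∈ cls (Om δ) (off {a, b}) G, ∑ c, ∑ d,
        (if D4 a b c d ∧ ij a b c d H = true then (f H - f (sg a b c d H)) ^ 2 else 0) =
      ∑ c ∈ trX a b G, ∑ d ∈ trX a b G,
        ∑ A ∈ (trX a b G).powersetCard (trPsi a (trX a b G) G).card,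
          (f (trPhi a b (trX a b G) G A) - f (trPhi a b (trX a b G) G (swp c d A))) ^ 2 := by
  rw [cls_block_sum hab hG]
  refine Finset.sum_congr rfl fun c hc => Finset.sum_congr rfl fun d hd => ?_
  rw [Finset.sum_filter]
  refine Finset.sum_congr rfl fun A hA => ?_
  by_cases hs : split c d A
  · rw [if_pos hs, sg_phi hab hc hd hs]
  · rw [if_neg hs, swp_of_not_split hs, sub_self]; ring

end trade

theorem trade_TC1 {n : ℕ} (δ : Fin n → ℕ) (a b : Fin n) (hab : a ≠ b) (f : Adj n → ℝ) :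
    ∑ c, ∑ d, (if D4 a b c d then
        ∑ G ∈ IJs δ a b c d, (condE (Om δ) (key2 a b c d) f G - EE δ {a, b} f G) ^ 2 else 0) ≤
      (1 / 4) * ∑ c, ∑ d, (if D4 a b c d then
        ∑ G ∈ IJs δ a b c d, (f G - f (sg a b c d G)) ^ 2 else 0) := by
  rw [swap_sum δ a b (fun c d G => (condE (Om δ) (key2 a b c d) f G - EE δ {a, b} f G) ^ 2),
    swap_sum δ a b (fun c d G => (f G - f (sg a b c d G)) ^ 2), Finset.mul_sum]
  refine class_ineq (Om δ) (off {a, b}) _ _ fun G hG => ?_
  rw [← Finset.mul_sum, cls_energy hab hG,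
    cls_block_sum hab hG (fun c d G => (condE (Om δ) (key2 a b c d) f G - EE δ {a, b} f G) ^ 2)]
  refine le_trans (le_of_eq ?_) (johnson_J2 (trX a b G) (trPsi a (trX a b G) G).card
    (fun A => f (trPhi a b (trX a b G) G A)))
  refine Finset.sum_congr rfl fun c hc => ?_
  rw [← Finset.add_sum_erase _ _ hc]
  have h0 : ∑ A ∈ ((trX a b G).powersetCard (trPsi a (trX a b G) G).card).filter (split c c),
      (condE (Om δ) (key2 a b c c) f (trPhi a b (trX a b G) G A) -
        EE δ {a, b} f (trPhi a b (trX a b G) G A)) ^ 2 = 0 := by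
    refine Finset.sum_eq_zero fun A hA => ?_
    rw [mem_filter] at hA
    have := hA.2
    unfold split at this
    tauto
  rw [h0, zero_add]
  refine Finset.sum_congr rfl fun d hd => ?_
  have hd' := Finset.mem_of_mem_erase hd
  rw [← nsmul_eq_mul, ← Finset.sum_const]
  refine Finset.sum_congr rfl fun A hA => ?_
  rw [mem_filter, mem_powersetCard] at hA
  rw [EE_phi hab hG, condE_key2_phi hab hG f hA.1.1 hc hd' hA.2]

theorem trade_TC2 {n : ℕ} (δ : Fin n → ℕ) (a b : Fin n) (hab : a ≠ b) (f : Adj n → ℝ) :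
    8 * ∑ G ∈ Om δ, (f G - EE δ {a, b} f G) ^ 2 ≤
      ∑ c, ∑ d, (if D4 a b c d then
        ∑ G ∈ IJs δ a b c d, (f G - f (sg a b c d G)) ^ 2 else 0) := by
  rw [swap_sum δ a b (fun c d G => (f G - f (sg a b c d G)) ^ 2), Finset.mul_sum]
  refine class_ineq (Om δ) (off {a, b}) _ _ fun G hG => ?_
  rw [← Finset.mul_sum, cls_energy hab hG, sum_cls hab hG]
  set X := trX a b G with hX
  set k := (trPsi a X G).card with hk
  set F : Finset (Fin n) → ℝ := fun A => f (trPhi a b X G A) with hF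
  set m : ℝ := (∑ A ∈ X.powersetCard k, F A) / ((X.powersetCard k).card : ℝ) with hm
  have hJ := johnson_J1 X k F
  have h1 : ∑ A ∈ X.powersetCard k, (f (trPhi a b X G A) - EE δ {a, b} f (trPhi a b X G A)) ^ 2 =
      ∑ A ∈ X.powersetCard k, (F A - m) ^ 2 := by
    refine Finset.sum_congr rfl fun A _ => ?_
    rw [EE_phi hab hG]
  rw [h1]
  have hne : ((X.powersetCard k).card : ℝ) ≠ 0 := by
    have : X.powersetCard k ≠ ∅ := by
      rw [← Finset.nonempty_iff_ne_empty]
      exact ⟨trPsi a X G, mem_powersetCard.2 ⟨Finset.filter_subset _ _, rfl⟩⟩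
    have h2 : (X.powersetCard k).card ≠ 0 := fun h => this (Finset.card_eq_zero.1 h)
    exact_mod_cast h2
  have h2 : ∑ A ∈ X.powersetCard k, (F A - m) ^ 2 = ∑ A ∈ X.powersetCard k, F A ^ 2 -
      (∑ A ∈ X.powersetCard k, F A) ^ 2 / ((X.powersetCard k).card : ℝ) := by
    have : ∀ A ∈ X.powersetCard k, (F A - m) ^ 2 = F A ^ 2 - 2 * m * F A + m ^ 2 := by
      intro A _; ring
    rw [Finset.sum_congr rfl this, Finset.sum_add_distrib, Finset.sum_sub_distrib,
      ← Finset.mul_sum, Finset.sum_const, nsmul_eq_mul, hm]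
    field_simp
    ring
  have h3 : 0 ≤ ∑ A ∈ X.powersetCard k, (F A - m) ^ 2 := Finset.sum_nonneg fun _ _ => sq_nonneg _
  rw [← h2] at hJ
  by_cases hX2 : 2 ≤ X.card
  · have h4 : (2 : ℝ) ≤ X.card := by exact_mod_cast hX2
    nlinarith
  · have hsub : ∀ A ∈ X.powersetCard k, A = trPsi a X G := by
      intro A hA
      rw [mem_powersetCard] at hA
      have hP : trPsi a X G ⊆ X := Finset.filter_subset _ _
      have hX1 : X.card ≤ 1 := by omega
      have c3 : A.card = (trPsi a X G).card := hA.2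
      rcases Nat.eq_zero_or_pos A.card with h5 | h5
      · rw [Finset.card_eq_zero.1 h5]
        exact (Finset.card_eq_zero.1 (c3 ▸ h5)).symm
      · rw [Finset.eq_of_subset_of_card_le hA.1 (by omega),
          Finset.eq_of_subset_of_card_le hP (by omega)]
    have h4 : ∑ A ∈ X.powersetCard k, (F A - m) ^ 2 = 0 := by
      have hs : X.powersetCard k = {trPsi a X G} := by
        ext A
        rw [mem_singleton]
        exact ⟨hsub A, fun h => h ▸ mem_powersetCard.2 ⟨Finset.filter_subset _ _, rfl⟩⟩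
      rw [hm, hs]
      simp
    rw [h4, mul_zero]
    refine Finset.sum_nonneg fun _ _ => Finset.sum_nonneg fun _ _ => Finset.sum_nonneg fun _ _ =>
      sq_nonneg _

end Crest.Agent.SW
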