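import Crest.Agent.SW.Defs
import Crest.Agent.SwitchChain.Color

/-!
Chunk C (row 299): the three-colour inequality.
-/

set_option autoImplicit false
open Finset

namespace Crest.Agent.SW

variable {ι : Type*} [Fintype ι] [DecidableEq ι]

/-- colourings `φ : ι → Fin 3` with prescribed signed colour sizes -/
def Col (ε : ι → ℤ) (s : Fin 3 → ℤ) : Finset (ι → Fin 3) :=
  univ.filter fun φ => ∀ i, (∑ x, if φ x = i then ε x else 0) = s i

/-- the colour class `i` -/
def ckey (i : Fin 3) (φ : ι → Fin 3) : Finset ι := univ.filter fun x => φ x = i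

theorem three_color (ε : ι → ℤ) (hε : ∀ x, ε x = 1 ∨ ε x = -1) (s : Fin 3 → ℤ)
    (F : (ι → Fin 3) → ℝ) :
    ∑ φ ∈ Col ε s, (F φ - (∑ ψ ∈ Col ε s, F ψ) / ((Col ε s).card : ℝ)) ^ 2 ≤
      ∑ i : Fin 3, ∑ φ ∈ Col ε s, (F φ - condE (Col ε s) (ckey i) F φ) ^ 2 :=
  SwitchChain.color_poincare hε F

end Crest.Agent.SW
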