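import Crest.Agent.SW.Basic
import Crest.Agent.SW.ThreeColor

/-!
Chunk D (row 299): triples of rows.
-/

set_option autoImplicit false
open Finset

namespace Crest.Agent.SW

section gen
variable {α β γ α' β' : Type*} [DecidableEq β] [DecidableEq γ] [DecidableEq β']

/-- class-wise inequality implies the global one -/
theorem sum_le_of_cls {Ω : Finset α} {κ : α → β} (A B : α → ℝ)
    (h : ∀ x ∈ Ω, ∑ y ∈ cls Ω κ x, A y ≤ ∑ y ∈ cls Ω κ x, B y) :
    ∑ x ∈ Ω, A x ≤ ∑ x ∈ Ω, B x := by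
  have key : ∀ C : α → ℝ, ∑ x ∈ Ω, C x = ∑ x ∈ Ω, condE Ω κ C x := by
    intro C
    have := sum_condE_mul_meas (Ω := Ω) (κ := κ) (f := C) (g := fun _ => (1 : ℝ)) (fun _ _ _ _ _ => rfl)
    simpa using this.symm
  rw [key A, key B]
  refine sum_le_sum fun x hx => ?_
  unfold condE
  exact div_le_div_of_nonneg_right (h x hx) (Nat.cast_nonneg _)

/-- transfer of `condE` residuals along a bijection of a class -/
theorem transfer {Ω : Finset α} {κt : α → γ} {κ : α → β} {Ω' : Finset α'} {κ' : α' → β'} {G0 : α}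
    (e : α → α') (e' : α' → α)
    (he : ∀ H ∈ cls Ω κt G0, e H ∈ Ω') (he' : ∀ φ ∈ Ω', e' φ ∈ cls Ω κt G0)
    (hee' : ∀ H ∈ cls Ω κt G0, e' (e H) = H) (he'e : ∀ φ ∈ Ω', e (e' φ) = φ)
    (hfine : ∀ x ∈ Ω, ∀ y ∈ Ω, κ y = κ x → κt y = κt x)
    (hk : ∀ H ∈ cls Ω κt G0, ∀ H' ∈ cls Ω κt G0, κ H' = κ H ↔ κ' (e H') = κ' (e H)) (f : α → ℝ) :
    ∑ H ∈ cls Ω κt G0, (f H - condE Ω κ f H) ^ 2 =
      ∑ φ ∈ Ω', (f (e' φ) - condE Ω' κ' (fun ψ => f (e' ψ)) φ) ^ 2 := by
  have hcond : ∀ H ∈ cls Ω κt G0, condE Ω κ f H = condE Ω' κ' (fun ψ => f (e' ψ)) (e H) := by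
    intro H hH
    have hHO := (mem_cls.1 hH).1
    have hsub : ∀ H' ∈ cls Ω κ H, H' ∈ cls Ω κt G0 := by
      intro H' hH'
      obtain ⟨h1, h2⟩ := mem_cls.1 hH'
      exact mem_cls.2 ⟨h1, (hfine H hHO H' h1 h2).trans (mem_cls.1 hH).2⟩
    unfold condE
    have hs : ∑ y ∈ cls Ω κ H, f y = ∑ ψ ∈ cls Ω' κ' (e H), f (e' ψ) := by
      refine sum_bij' (fun H' _ => e H') (fun ψ _ => e' ψ) ?_ ?_ ?_ ?_ ?_
      · intro H' hH'
        exact mem_cls.2 ⟨he H' (hsub H' hH'), (hk H hH H' (hsub H' hH')).1 (mem_cls.1 hH').2⟩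
      · intro ψ hψ
        obtain ⟨h1, h2⟩ := mem_cls.1 hψ
        have h3 := he' ψ h1
        refine mem_cls.2 ⟨(mem_cls.1 h3).1, (hk H hH (e' ψ) h3).2 ?_⟩
        rw [he'e ψ h1]; exact h2
      · intro H' hH'; exact hee' H' (hsub H' hH')
      · intro ψ hψ; exact he'e ψ (mem_cls.1 hψ).1
      · intro H' hH'; rw [hee' H' (hsub H' hH')]
    have hc : (cls Ω κ H).card = (cls Ω' κ' (e H)).card := by
      refine card_bij' (fun H' _ => e H') (fun ψ _ => e' ψ) ?_ ?_ ?_ ?_
      · intro H' hH'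
        exact mem_cls.2 ⟨he H' (hsub H' hH'), (hk H hH H' (hsub H' hH')).1 (mem_cls.1 hH').2⟩
      · intro ψ hψ
        obtain ⟨h1, h2⟩ := mem_cls.1 hψ
        have h3 := he' ψ h1
        refine mem_cls.2 ⟨(mem_cls.1 h3).1, (hk H hH (e' ψ) h3).2 ?_⟩
        rw [he'e ψ h1]; exact h2
      · intro H' hH'; exact hee' H' (hsub H' hH')
      · intro ψ hψ; exact he'e ψ (mem_cls.1 hψ).1
    rw [hs, hc]
  refine sum_bij' (fun H _ => e H) (fun ψ _ => e' ψ) he he' hee' he'e ?_
  intro H hH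
  rw [hcond H hH, hee' H hH]

theorem transfer_const {Ω : Finset α} {κt : α → γ} {Ω' : Finset α'} {G0 : α}
    (e : α → α') (e' : α' → α)
    (he : ∀ H ∈ cls Ω κt G0, e H ∈ Ω') (he' : ∀ φ ∈ Ω', e' φ ∈ cls Ω κt G0)
    (hee' : ∀ H ∈ cls Ω κt G0, e' (e H) = H) (he'e : ∀ φ ∈ Ω', e (e' φ) = φ) (f : α → ℝ) :
    ∑ H ∈ cls Ω κt G0, (f H - condE Ω κt f H) ^ 2 =
      ∑ φ ∈ Ω', (f (e' φ) - (∑ ψ ∈ Ω', f (e' ψ)) / (Ω'.card : ℝ)) ^ 2 := by
  have hcond : ∀ H ∈ cls Ω κt G0, condE Ω κt f H = (∑ ψ ∈ Ω', f (e' ψ)) / (Ω'.card : ℝ) := by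
    intro H hH
    have : cls Ω κt H = cls Ω κt G0 := cls_congr (mem_cls.1 hH).2
    unfold condE
    rw [this]
    have hs : ∑ y ∈ cls Ω κt G0, f y = ∑ ψ ∈ Ω', f (e' ψ) :=
      sum_bij' (fun H' _ => e H') (fun ψ _ => e' ψ) he he' hee' he'e
        (fun H' hH' => by rw [hee' H' hH'])
    have hc : (cls Ω κt G0).card = Ω'.card :=
      card_bij' (fun H' _ => e H') (fun ψ _ => e' ψ) he he' hee' he'e
    rw [hs, hc]
  refine sum_bij' (fun H _ => e H) (fun ψ _ => e' ψ) he he' hee' he'e ?_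
  intro H hH
  rw [hcond H hH, hee' H hH]

end gen

section three

def cs3 (e : Fin 3 → Bool) : ℕ :=
  (if e 0 then 1 else 0) + (if e 1 then 1 else 0) + (if e 2 then 1 else 0)

def odd3 (e : Fin 3 → Bool) : Fin 3 := if e 0 = e 1 then 2 else if e 0 = e 2 then 1 else 0

def kap (m : ℕ) : ℤ := if m ≤ 1 then 0 else 1

def b2z (b : Bool) : ℤ := if b then 1 else 0

def reb (m : ℕ) (j i : Fin 3) : Bool := if m = 1 then decide (j = i) else !decide (j = i)

theorem fun3_cases {P : (Fin 3 → Bool) → Prop} (h : ∀ p q r : Bool, P ![p, q, r]) (e : Fin 3 → Bool) :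
    P e := by
  have : e = ![e 0, e 1, e 2] := by funext i; fin_cases i <;> rfl
  rw [this]; exact h _ _ _

theorem lemA (e : Fin 3 → Bool) (i : Fin 3) (h : cs3 e = 1 ∨ cs3 e = 2) :
    (if odd3 e = i then (if cs3 e = 1 then (1 : ℤ) else -1) else 0) = b2z (e i) - kap (cs3 e) := by
  revert h
  refine fun3_cases (P := fun e => (cs3 e = 1 ∨ cs3 e = 2) →
    (if odd3 e = i then (if cs3 e = 1 then (1 : ℤ) else -1) else 0) = b2z (e i) - kap (cs3 e)) ?_ e
  revert i
  decide

theorem lemB (e : Fin 3 → Bool) (i : Fin 3) (h : ¬ (cs3 e = 1 ∨ cs3 e = 2)) :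
    b2z (e i) = kap (cs3 e) := by
  revert h
  refine fun3_cases (P := fun e => ¬ (cs3 e = 1 ∨ cs3 e = 2) → b2z (e i) = kap (cs3 e)) ?_ e
  revert i
  decide

theorem lemB' (e e' : Fin 3 → Bool) (i : Fin 3) (h : ¬ (cs3 e = 1 ∨ cs3 e = 2)) (hc : cs3 e' = cs3 e) :
    e' i = e i := by
  have h1 := lemB e i h
  have h2 := lemB e' i (by rw [hc]; exact h)
  rw [hc, ← h1] at h2
  revert h2
  cases e' i <;> cases e i <;> simp [b2z]

theorem cs3_reb (m : ℕ) (hm : m = 1 ∨ m = 2) (j : Fin 3) : cs3 (reb m j) = m := by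
  rcases hm with rfl | rfl <;> fin_cases j <;> rfl

theorem odd3_reb (m : ℕ) (hm : m = 1 ∨ m = 2) (j : Fin 3) : odd3 (reb m j) = j := by
  rcases hm with rfl | rfl <;> fin_cases j <;> rfl

theorem reb_odd3 (e : Fin 3 → Bool) (i : Fin 3) (h : cs3 e = 1 ∨ cs3 e = 2) :
    reb (cs3 e) (odd3 e) i = e i := by
  revert h
  refine fun3_cases (P := fun e => (cs3 e = 1 ∨ cs3 e = 2) → reb (cs3 e) (odd3 e) i = e i) ?_ e
  revert i
  decide

theorem odd3_eq_iff (e e' : Fin 3 → Bool) (i : Fin 3) (h : cs3 e = 1 ∨ cs3 e = 2) (hc : cs3 e' = cs3 e) :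
    (odd3 e' = i ↔ odd3 e = i) ↔ e' i = e i := by
  have h1 := lemA e i h
  have h2 := lemA e' i (by rw [hc]; exact h)
  rw [hc] at h2
  constructor
  · intro hh
    have h3 : b2z (e' i) = b2z (e i) := by
      by_cases h4 : odd3 e = i
      · rw [if_pos h4] at h1
        rw [if_pos (hh.2 h4)] at h2
        omega
      · rw [if_neg h4] at h1
        rw [if_neg (fun h5 => h4 (hh.1 h5))] at h2
        omega
    revert h3
    cases e' i <;> cases e i <;> simp [b2z]
  · intro he
    rw [he, ← h1] at h2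
    by_cases h4 : odd3 e = i <;> by_cases h5 : odd3 e' = i
    · simp [h4, h5]
    · rw [if_pos h4, if_neg h5] at h2
      rcases h with h | h <;> rw [h] at h2 <;> simp at h2
    · rw [if_neg h4, if_pos h5] at h2
      rcases h with h | h <;> rw [h] at h2 <;> simp at h2
    · simp [h4, h5]

theorem cs3_b2z (e : Fin 3 → Bool) (i : Fin 3) :
    (cs3 e : ℤ) = b2z (e i) + b2z (e (i + 1)) + b2z (e (i + 2)) := by
  refine fun3_cases (P := fun e => (cs3 e : ℤ) = b2z (e i) + b2z (e (i + 1)) + b2z (e (i + 2))) ?_ e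
  revert i
  decide

end three

section graph

variable {n : ℕ} {δ : Fin n → ℕ} (v : Fin 3 → Fin n)

/-- the entries of the extended three-row matrix; `none` is the virtual column -/
def ent (H : Adj n) : Option (Fin n) → Fin 3 → Bool
  | some x, i => H x (v i)
  | none, i => H (v (i + 1)) (v (i + 2))

/-- `v`-index of a vertex -/
def idx (x : Fin n) : Option (Fin 3) :=
  if x = v 0 then some 0 else if x = v 1 then some 1 else if x = v 2 then some 2 else none

variable {v}

theorem idx_v (hv : Function.Injective v) (i : Fin 3) : idx v (v i) = some i := by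
  have h10 : v 1 ≠ v 0 := fun h => by simpa using hv h
  have h20 : v 2 ≠ v 0 := fun h => by simpa using hv h
  have h21 : v 2 ≠ v 1 := fun h => by simpa using hv h
  fin_cases i
  · simp [idx]
  · simp [idx, h10]
  · simp [idx, h20, h21]

theorem idx_none {x : Fin n} (hx : ∀ i, x ≠ v i) : idx v x = none := by
  unfold idx; rw [if_neg (hx 0), if_neg (hx 1), if_neg (hx 2)]

theorem idx_cases (v : Fin 3 → Fin n) (x : Fin n) : (∀ i, x ≠ v i) ∨ ∃ i, x = v i := by
  by_cases h : ∃ i, x = v i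
  · exact Or.inr h
  · push Not at h; exact Or.inl h

/-- the graph with prescribed extended three-row matrix -/
def mkG (v : Fin 3 → Fin n) (G0 : Adj n) (E : Option (Fin n) → Fin 3 → Bool) : Adj n := fun x y =>
  match idx v x, idx v y with
  | none, none => G0 x y
  | some i, none => E (some y) i
  | none, some j => E (some x) j
  | some i, some j => if i = j then false else E none (-(i + j))

variable {G0 : Adj n} {E : Option (Fin n) → Fin 3 → Bool}

theorem mkG_out {x y : Fin n} (hx : ∀ i, x ≠ v i) (hy : ∀ i, y ≠ v i) : mkG v G0 E x y = G0 x y := by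
  unfold mkG; rw [idx_none hx, idx_none hy]

theorem mkG_xv (hv : Function.Injective v) {x : Fin n} (hx : ∀ i, x ≠ v i) (i : Fin 3) :
    mkG v G0 E x (v i) = E (some x) i := by
  unfold mkG; rw [idx_none hx, idx_v hv]

theorem mkG_vx (hv : Function.Injective v) {x : Fin n} (hx : ∀ i, x ≠ v i) (i : Fin 3) :
    mkG v G0 E (v i) x = E (some x) i := by
  unfold mkG; rw [idx_none hx, idx_v hv]

theorem mkG_vv (hv : Function.Injective v) (i j : Fin 3) :
    mkG v G0 E (v i) (v j) = if i = j then false else E none (-(i + j)) := by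
  unfold mkG; rw [idx_v hv, idx_v hv]

theorem mkG_symm (hv : Function.Injective v) (hs : ∀ x y, G0 x y = G0 y x) (x y : Fin n) :
    mkG v G0 E x y = mkG v G0 E y x := by
  rcases idx_cases v x with hx | ⟨i, rfl⟩ <;> rcases idx_cases v y with hy | ⟨j, rfl⟩
  · rw [mkG_out hx hy, mkG_out hy hx, hs]
  · rw [mkG_xv hv hx, mkG_vx hv hx]
  · rw [mkG_xv hv hy, mkG_vx hv hy]
  · rw [mkG_vv hv, mkG_vv hv, add_comm j i]
    by_cases h : i = j
    · rw [if_pos h, if_pos h.symm]
    · rw [if_neg h, if_neg (Ne.symm h)]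

theorem mkG_irr (hv : Function.Injective v) (hi : ∀ x, G0 x x = false) (x : Fin n) :
    mkG v G0 E x x = false := by
  rcases idx_cases v x with hx | ⟨i, rfl⟩
  · rw [mkG_out hx hx, hi]
  · rw [mkG_vv hv, if_pos rfl]

theorem ent_mkG_some (hv : Function.Injective v) {x : Fin n} (hx : ∀ i, x ≠ v i) :
    ent v (mkG v G0 E) (some x) = E (some x) := by
  funext i; exact mkG_xv hv hx i

theorem ent_mkG_none (hv : Function.Injective v) : ent v (mkG v G0 E) none = E none := by
  funext i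
  show mkG v G0 E (v (i + 1)) (v (i + 2)) = E none i
  rw [mkG_vv hv, if_neg (by fin_cases i <;> decide)]
  congr 1
  fin_cases i <;> decide

/-- two graphs with the same outside and the same entries are equal -/
theorem graph_ext (hv : Function.Injective v) {H H' : Adj n} (hs : ∀ x y, H x y = H y x)
    (hs' : ∀ x y, H' x y = H' y x) (hi : ∀ x, H x x = false) (hi' : ∀ x, H' x x = false)
    (hout : ∀ x y, (∀ i, x ≠ v i) → (∀ i, y ≠ v i) → H x y = H' x y)
    (hsome : ∀ x, (∀ i, x ≠ v i) → ∀ i, ent v H (some x) i = ent v H' (some x) i)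
    (hnone : ∀ i, ent v H none i = ent v H' none i) : H = H' := by
  funext x y
  rcases idx_cases v x with hx | ⟨i, rfl⟩ <;> rcases idx_cases v y with hy | ⟨j, rfl⟩
  · exact hout x y hx hy
  · exact hsome x hx j
  · rw [hs, hs' (v i)]; exact hsome y hy i
  · have h0 := hnone 0
    have h1 := hnone 1
    have h2 := hnone 2
    simp only [ent] at h0 h1 h2
    have e1 : ((0 : Fin 3) + 1) = 1 := rfl
    have e2 : ((0 : Fin 3) + 2) = 2 := rfl
    have e3 : ((1 : Fin 3) + 1) = 2 := rfl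
    have e4 : ((1 : Fin 3) + 2) = 0 := rfl
    have e5 : ((2 : Fin 3) + 1) = 0 := rfl
    have e6 : ((2 : Fin 3) + 2) = 1 := rfl
    rw [e1, e2] at h0
    rw [e3, e4] at h1
    rw [e5, e6] at h2
    fin_cases i <;> fin_cases j
    · show H (v 0) (v 0) = H' (v 0) (v 0); rw [hi, hi']
    · exact h2
    · show H (v 0) (v 2) = H' (v 0) (v 2); rw [hs, hs' (v 0)]; exact h1
    · show H (v 1) (v 0) = H' (v 1) (v 0); rw [hs, hs' (v 1)]; exact h2
    · show H (v 1) (v 1) = H' (v 1) (v 1); rw [hi, hi']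
    · exact h0
    · exact h1
    · show H (v 2) (v 1) = H' (v 2) (v 1); rw [hs, hs' (v 2)]; exact h0
    · show H (v 2) (v 2) = H' (v 2) (v 2); rw [hi, hi']

theorem dg_eq_sum (H : Adj n) (x : Fin n) : (dg H x : ℤ) = ∑ y, b2z (H x y) := by
  unfold dg b2z
  rw [card_filter]
  push_cast
  rfl

theorem sum_split_v (hv : Function.Injective v) (g : Fin n → ℤ) :
    ∑ y, g y = ∑ y, (if ∀ i, y ≠ v i then g y else 0) + ∑ i, g (v i) := by
  have h1 : ∑ i, g (v i) = ∑ y, (if ∀ i, y ≠ v i then 0 else g y) := by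
    rw [← sum_filter_add_sum_filter_not univ (fun y => ∀ i, y ≠ v i)]
    have e1 : ∑ y ∈ univ.filter (fun y => ∀ i, y ≠ v i), (if ∀ i, y ≠ v i then 0 else g y) = 0 := by
      refine sum_eq_zero fun y hy => ?_
      rw [if_pos (mem_filter.1 hy).2]
    have e2 : ∑ y ∈ univ.filter (fun y => ¬ ∀ i, y ≠ v i), (if ∀ i, y ≠ v i then 0 else g y)
        = ∑ y ∈ univ.image v, g y := by
      have : univ.filter (fun y => ¬ ∀ i, y ≠ v i) = univ.image v := by
        ext y; simp only [mem_filter, mem_univ, true_and, mem_image, not_forall, not_not]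
        exact ⟨fun ⟨i, h⟩ => ⟨i, h.symm⟩, fun ⟨i, h⟩ => ⟨i, h.symm⟩⟩
      rw [← this]
      refine sum_congr rfl fun y hy => ?_
      rw [if_neg (mem_filter.1 hy).2]
    rw [e1, e2, zero_add, sum_image (fun i _ j _ h => hv h)]
  rw [h1, ← sum_add_distrib]
  refine sum_congr rfl fun y _ => ?_
  by_cases h : ∀ i, y ≠ v i
  · rw [if_pos h, if_pos h, add_zero]
  · rw [if_neg h, if_neg h, zero_add]

/-- degree of an outside vertex -/
theorem dg_out (hv : Function.Injective v) {H : Adj n} {x : Fin n} :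
    (dg H x : ℤ) = ∑ y, (if ∀ i, y ≠ v i then b2z (H x y) else 0) + (cs3 (ent v H (some x)) : ℤ) := by
  rw [dg_eq_sum, sum_split_v hv]
  congr 1
  rw [Fin.sum_univ_three, cs3_b2z _ 0]
  rfl

/-- degree of one of the three vertices -/
theorem dg_in (hv : Function.Injective v) {H : Adj n} (hs : ∀ x y, H x y = H y x)
    (hi : ∀ x, H x x = false) (i : Fin 3) :
    (dg H (v i) : ℤ) = ∑ y, (if ∀ i, y ≠ v i then b2z (ent v H (some y) i) else 0)
      + ((cs3 (ent v H none) : ℤ) - b2z (ent v H none i)) := by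
  rw [dg_eq_sum, sum_split_v hv]
  congr 1
  · refine sum_congr rfl fun y _ => ?_
    rw [hs]; rfl
  · rw [cs3_b2z _ i]
    have h3 : ∑ j, b2z (H (v i) (v j)) =
        b2z (H (v i) (v i)) + b2z (H (v i) (v (i + 1))) + b2z (H (v i) (v (i + 2))) := by
      rw [Fin.sum_univ_three]
      fin_cases i
      · rfl
      · show _ = b2z (H (v 1) (v 1)) + b2z (H (v 1) (v 2)) + b2z (H (v 1) (v 0))
        show b2z (H (v 1) (v 0)) + b2z (H (v 1) (v 1)) + b2z (H (v 1) (v 2)) = _
        ring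
      · show _ = b2z (H (v 2) (v 2)) + b2z (H (v 2) (v 0)) + b2z (H (v 2) (v 1))
        show b2z (H (v 2) (v 0)) + b2z (H (v 2) (v 1)) + b2z (H (v 2) (v 2)) = _
        ring
    rw [h3, hi]
    have e1 : ent v H none (i + 1) = H (v i) (v (i + 2)) := by
      show H (v (i + 1 + 1)) (v (i + 1 + 2)) = _
      rw [hs]
      congr 2 <;> fin_cases i <;> rfl
    have e2 : ent v H none (i + 2) = H (v i) (v (i + 1)) := by
      show H (v (i + 2 + 1)) (v (i + 2 + 2)) = _
      congr 2 <;> fin_cases i <;> rfl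
    rw [e1, e2]
    have : b2z false = 0 := rfl
    rw [this]
    ring

/-- sign of a column type -/
def eta : Option (Fin n) → ℤ
  | some _ => 1
  | none => -1

variable (v) (G0)

/-- active columns -/
def actv (X : Option (Fin n)) : Prop :=
  (cs3 (ent v G0 X) = 1 ∨ cs3 (ent v G0 X) = 2) ∧ ∀ x, X = some x → ∀ i, x ≠ v i

instance : DecidablePred (actv v G0) := fun X => by unfold actv; infer_instance

/-- sign of an active column -/
def sgn (X : Option (Fin n)) : ℤ := eta X * (if cs3 (ent v G0 X) = 1 then 1 else -1)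

/-- the colouring of a graph -/
def toCol (H : Adj n) (X : {X : Option (Fin n) // actv v G0 X}) : Fin 3 := odd3 (ent v H X.1)

/-- entries from a colouring -/
def ofCol (φ : {X : Option (Fin n) // actv v G0 X} → Fin 3) (X : Option (Fin n)) (i : Fin 3) : Bool :=
  if h : actv v G0 X then reb (cs3 (ent v G0 X)) (φ ⟨X, h⟩) i else ent v G0 X i

variable {v} {G0}

theorem cs3_ofCol (φ : {X : Option (Fin n) // actv v G0 X} → Fin 3) (X : Option (Fin n)) :
    cs3 (ofCol v G0 φ X) = cs3 (ent v G0 X) := by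
  by_cases h : actv v G0 X
  · have : ofCol v G0 φ X = reb (cs3 (ent v G0 X)) (φ ⟨X, h⟩) := by
      funext i; unfold ofCol; rw [dif_pos h]
    rw [this, cs3_reb _ h.1]
  · have : ofCol v G0 φ X = ent v G0 X := by
      funext i; unfold ofCol; rw [dif_neg h]
    rw [this]

/-- the signed colour-class size in terms of the entries -/
theorem col_sum {H : Adj n} (hcs : ∀ x, (∀ i, x ≠ v i) → cs3 (ent v H (some x)) = cs3 (ent v G0 (some x)))
    (hcn : cs3 (ent v H none) = cs3 (ent v G0 none)) (i : Fin 3) :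
    ∑ X : {X : Option (Fin n) // actv v G0 X}, (if toCol v G0 H X = i then sgn v G0 X.1 else 0) =
      ∑ x, (if ∀ i, x ≠ v i then b2z (ent v H (some x) i) - kap (cs3 (ent v G0 (some x))) else 0)
        - (b2z (ent v H none i) - kap (cs3 (ent v G0 none))) := by
  have h1 : ∑ X : {X : Option (Fin n) // actv v G0 X}, (if toCol v G0 H X = i then sgn v G0 X.1 else 0)
      = ∑ X : Option (Fin n), (if actv v G0 X then
          (if odd3 (ent v H X) = i then sgn v G0 X else 0) else 0) := by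
    rw [← sum_filter (s := (univ : Finset (Option (Fin n)))) (p := actv v G0)]
    exact (sum_subtype (p := actv v G0) (univ.filter (actv v G0)) (fun X => by simp)
      (fun X => if odd3 (ent v H X) = i then sgn v G0 X else 0)).symm
  rw [h1, Fintype.sum_option]
  have hnone : (if actv v G0 none then (if odd3 (ent v H none) = i then sgn v G0 none else 0) else 0)
      = -(b2z (ent v H none i) - kap (cs3 (ent v G0 none))) := by
    by_cases h : actv v G0 none
    · rw [if_pos h]
      have hA := lemA (ent v H none) i (by rw [hcn]; exact h.1)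
      rw [hcn] at hA
      rw [← hA]
      unfold sgn eta
      by_cases h2 : odd3 (ent v H none) = i
      · rw [if_pos h2, if_pos h2]; ring
      · rw [if_neg h2, if_neg h2]; ring
    · rw [if_neg h]
      have h' : ¬ (cs3 (ent v H none) = 1 ∨ cs3 (ent v H none) = 2) := by
        rw [hcn]; intro h2; exact h ⟨h2, fun x hx => by simp at hx⟩
      have hB := lemB (ent v H none) i h'
      rw [hcn] at hB
      rw [hB]; ring
  have hsome : ∀ x, (if actv v G0 (some x) then
      (if odd3 (ent v H (some x)) = i then sgn v G0 (some x) else 0) else 0)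
      = (if ∀ i, x ≠ v i then b2z (ent v H (some x) i) - kap (cs3 (ent v G0 (some x))) else 0) := by
    intro x
    by_cases hx : ∀ i, x ≠ v i
    · rw [if_pos hx]
      by_cases h : actv v G0 (some x)
      · rw [if_pos h]
        have hA := lemA (ent v H (some x)) i (by rw [hcs x hx]; exact h.1)
        rw [hcs x hx] at hA
        rw [← hA]
        unfold sgn eta
        by_cases h2 : odd3 (ent v H (some x)) = i
        · rw [if_pos h2, if_pos h2]; ring
        · rw [if_neg h2, if_neg h2]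
      · rw [if_neg h]
        have h' : ¬ (cs3 (ent v H (some x)) = 1 ∨ cs3 (ent v H (some x)) = 2) := by
          rw [hcs x hx]; intro h2
          exact h ⟨h2, fun y hy => by simp only [Option.some.injEq] at hy; rw [← hy]; exact hx⟩
        have hB := lemB (ent v H (some x)) i h'
        rw [hcs x hx] at hB
        rw [hB]; ring
    · rw [if_neg hx, if_neg (fun h => hx (h.2 x rfl))]
  rw [hnone, sum_congr rfl fun x _ => hsome x]
  ring

/-- column sums on a class -/
theorem cs_some_of_mem (hv : Function.Injective v) {H : Adj n} (hG : G0 ∈ Om δ) (hH : H ∈ Om δ)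
    (hout : ∀ x y, (∀ i, x ≠ v i) → (∀ i, y ≠ v i) → H x y = G0 x y) (x : Fin n) (hx : ∀ i, x ≠ v i) :
    cs3 (ent v H (some x)) = cs3 (ent v G0 (some x)) := by
  have h1 := dg_out hv (H := H) (x := x)
  have h2 := dg_out hv (H := G0) (x := x)
  rw [Om_dg hH] at h1
  rw [Om_dg hG] at h2
  have h3 : ∑ y, (if ∀ i, y ≠ v i then b2z (H x y) else 0) = ∑ y, (if ∀ i, y ≠ v i then b2z (G0 x y) else 0) := by
    refine sum_congr rfl fun y _ => ?_
    by_cases h : ∀ i, y ≠ v i
    · rw [if_pos h, if_pos h, hout x y hx h]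
    · rw [if_neg h, if_neg h]
  rw [h3] at h1
  have : (cs3 (ent v H (some x)) : ℤ) = (cs3 (ent v G0 (some x)) : ℤ) := by linarith
  exact_mod_cast this

theorem cs_none_of_mem (hv : Function.Injective v) {H : Adj n} (hG : G0 ∈ Om δ) (hH : H ∈ Om δ)
    (hout : ∀ x y, (∀ i, x ≠ v i) → (∀ i, y ≠ v i) → H x y = G0 x y) :
    cs3 (ent v H none) = cs3 (ent v G0 none) := by
  have key : ∀ K : Adj n, K ∈ Om δ → 2 * (cs3 (ent v K none) : ℤ) =
      ∑ i, (δ (v i) : ℤ) - ∑ y, (if ∀ i, y ≠ v i then (cs3 (ent v K (some y)) : ℤ) else 0) := by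
    intro K hK
    have h1 : ∑ i, (δ (v i) : ℤ) = ∑ i, (∑ y, (if ∀ i, y ≠ v i then b2z (ent v K (some y) i) else 0)
        + ((cs3 (ent v K none) : ℤ) - b2z (ent v K none i))) := by
      refine sum_congr rfl fun i _ => ?_
      rw [← Om_dg hK, dg_in hv (Om_symm hK) (Om_irr hK)]
    have h2 : ∑ i, ∑ y, (if ∀ i, y ≠ v i then b2z (ent v K (some y) i) else 0) =
        ∑ y, (if ∀ i, y ≠ v i then (cs3 (ent v K (some y)) : ℤ) else 0) := by
      rw [sum_comm]
      refine sum_congr rfl fun y _ => ?_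
      by_cases h : ∀ i, y ≠ v i
      · simp only [if_pos h]
        rw [cs3_b2z _ 0, Fin.sum_univ_three]; rfl
      · simp only [if_neg h, sum_const_zero]
    have h3 : ∑ i, ((cs3 (ent v K none) : ℤ) - b2z (ent v K none i)) = 2 * (cs3 (ent v K none) : ℤ) := by
      rw [Fin.sum_univ_three, cs3_b2z (ent v K none) 0]
      have e1 : ((0 : Fin 3) + 1) = 1 := rfl
      have e2 : ((0 : Fin 3) + 2) = 2 := rfl
      rw [e1, e2]; ring
    rw [h1, sum_add_distrib, h2, h3]; ring
  have h1 := key H hH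
  have h2 := key G0 hG
  have h3 : ∑ y, (if ∀ i, y ≠ v i then (cs3 (ent v H (some y)) : ℤ) else 0) =
      ∑ y, (if ∀ i, y ≠ v i then (cs3 (ent v G0 (some y)) : ℤ) else 0) := by
    refine sum_congr rfl fun y _ => ?_
    by_cases h : ∀ i, y ≠ v i
    · rw [if_pos h, if_pos h, cs_some_of_mem hv hG hH hout y h]
    · rw [if_neg h, if_neg h]
  rw [h3, ← h2] at h1
  have : (cs3 (ent v H none) : ℤ) = (cs3 (ent v G0 none) : ℤ) := by linarith
  exact_mod_cast this

/-- colour targets -/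
def tgt (v : Fin 3 → Fin n) (δ : Fin n → ℕ) (G0 : Adj n) (i : Fin 3) : ℤ :=
  (δ (v i) : ℤ) - (cs3 (ent v G0 none) : ℤ)
    - ∑ x, (if ∀ i, x ≠ v i then kap (cs3 (ent v G0 (some x))) else 0) + kap (cs3 (ent v G0 none))

theorem col_sum' (hv : Function.Injective v) {H : Adj n} (hs : ∀ x y, H x y = H y x)
    (hi : ∀ x, H x x = false)
    (hcs : ∀ x, (∀ i, x ≠ v i) → cs3 (ent v H (some x)) = cs3 (ent v G0 (some x)))
    (hcn : cs3 (ent v H none) = cs3 (ent v G0 none)) (i : Fin 3) :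
    ∑ X : {X : Option (Fin n) // actv v G0 X}, (if toCol v G0 H X = i then sgn v G0 X.1 else 0) =
      tgt v δ G0 i + ((dg H (v i) : ℤ) - (δ (v i) : ℤ)) := by
  rw [col_sum hcs hcn i, dg_in hv hs hi i, hcn]
  unfold tgt
  have h1 : ∑ x, (if ∀ i, x ≠ v i then b2z (ent v H (some x) i) - kap (cs3 (ent v G0 (some x))) else 0)
      = ∑ x, (if ∀ i, x ≠ v i then b2z (ent v H (some x) i) else 0)
        - ∑ x, (if ∀ i, x ≠ v i then kap (cs3 (ent v G0 (some x))) else 0) := by
    rw [← sum_sub_distrib]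
    refine sum_congr rfl fun x _ => ?_
    by_cases h : ∀ i, x ≠ v i
    · rw [if_pos h, if_pos h, if_pos h]
    · rw [if_neg h, if_neg h, if_neg h, sub_zero]
  rw [h1]; ring

/-- the three rows as a finset -/
def rows3 (v : Fin 3 → Fin n) : Finset (Fin n) := univ.image v

theorem not_mem_rows3 {x : Fin n} : x ∉ rows3 v ↔ ∀ i, x ≠ v i := by
  simp [rows3, eq_comm]

theorem toCol_mem (hv : Function.Injective v) {H : Adj n} (hG : G0 ∈ Om δ)
    (hH : H ∈ cls (Om δ) (off (rows3 v)) G0) :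
    toCol v G0 H ∈ Col (fun X : {X : Option (Fin n) // actv v G0 X} => sgn v G0 X.1) (tgt v δ G0) := by
  obtain ⟨hHO, hoff⟩ := mem_cls.1 hH
  rw [off_eq_iff] at hoff
  have hout : ∀ x y, (∀ i, x ≠ v i) → (∀ i, y ≠ v i) → H x y = G0 x y := fun x y hx hy =>
    hoff x y (not_mem_rows3.2 hx) (not_mem_rows3.2 hy)
  unfold Col
  rw [mem_filter]
  refine ⟨mem_univ _, fun i => ?_⟩
  rw [col_sum' (δ := δ) hv (Om_symm hHO) (Om_irr hHO) (cs_some_of_mem hv hG hHO hout)
    (cs_none_of_mem hv hG hHO hout) i, Om_dg hHO]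
  ring

theorem toCol_mkG (hv : Function.Injective v) (φ : {X : Option (Fin n) // actv v G0 X} → Fin 3) :
    toCol v G0 (mkG v G0 (ofCol v G0 φ)) = φ := by
  funext X
  obtain ⟨X, hX⟩ := X
  have h1 : ent v (mkG v G0 (ofCol v G0 φ)) X = ofCol v G0 φ X := by
    cases X with
    | none => exact ent_mkG_none hv
    | some x => exact ent_mkG_some hv (hX.2 x rfl)
  unfold toCol
  simp only
  rw [h1]
  have : ofCol v G0 φ X = reb (cs3 (ent v G0 X)) (φ ⟨X, hX⟩) := by
    funext i; unfold ofCol; rw [dif_pos hX]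
  rw [this, odd3_reb _ hX.1]

theorem mkG_mem (hv : Function.Injective v) (hG : G0 ∈ Om δ)
    (φ : {X : Option (Fin n) // actv v G0 X} → Fin 3)
    (hφ : φ ∈ Col (fun X : {X : Option (Fin n) // actv v G0 X} => sgn v G0 X.1) (tgt v δ G0)) :
    mkG v G0 (ofCol v G0 φ) ∈ cls (Om δ) (off (rows3 v)) G0 := by
  set H := mkG v G0 (ofCol v G0 φ) with hH
  have hs : ∀ x y, H x y = H y x := mkG_symm hv (Om_symm hG)
  have hi : ∀ x, H x x = false := mkG_irr hv (Om_irr hG)
  have hout : ∀ x y, (∀ i, x ≠ v i) → (∀ i, y ≠ v i) → H x y = G0 x y := fun x y hx hy => mkG_out hx hy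
  have hcs : ∀ x, (∀ i, x ≠ v i) → cs3 (ent v H (some x)) = cs3 (ent v G0 (some x)) := by
    intro x hx; rw [hH, ent_mkG_some hv hx, cs3_ofCol]
  have hcn : cs3 (ent v H none) = cs3 (ent v G0 none) := by
    rw [hH, ent_mkG_none hv, cs3_ofCol]
  refine mem_cls.2 ⟨mem_Om.2 ⟨⟨hs, hi⟩, fun x => ?_⟩, ?_⟩
  · rcases idx_cases v x with hx | ⟨i, rfl⟩
    · have h1 := dg_out hv (H := H) (x := x)
      have h2 := dg_out hv (H := G0) (x := x)
      rw [Om_dg hG] at h2
      have h3 : ∑ y, (if ∀ i, y ≠ v i then b2z (H x y) else 0) = ∑ y, (if ∀ i, y ≠ v i then b2z (G0 x y) else 0) := by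
        refine sum_congr rfl fun y _ => ?_
        by_cases h : ∀ i, y ≠ v i
        · rw [if_pos h, if_pos h, hout x y hx h]
        · rw [if_neg h, if_neg h]
      rw [h3, hcs x hx, ← h2] at h1
      exact_mod_cast h1
    · have h1 := col_sum' (δ := δ) hv hs hi hcs hcn i
      have h2 : toCol v G0 H = φ := toCol_mkG hv φ
      rw [h2] at h1
      unfold Col at hφ
      rw [mem_filter] at hφ
      rw [hφ.2 i] at h1
      have : (dg H (v i) : ℤ) = (δ (v i) : ℤ) := by linarith
      exact_mod_cast this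
  · rw [off_eq_iff]
    intro x y hx hy
    exact hout x y (not_mem_rows3.1 hx) (not_mem_rows3.1 hy)

theorem mkG_toCol (hv : Function.Injective v) {H : Adj n} (hG : G0 ∈ Om δ)
    (hH : H ∈ cls (Om δ) (off (rows3 v)) G0) :
    mkG v G0 (ofCol v G0 (toCol v G0 H)) = H := by
  obtain ⟨hHO, hoff⟩ := mem_cls.1 hH
  rw [off_eq_iff] at hoff
  have hout : ∀ x y, (∀ i, x ≠ v i) → (∀ i, y ≠ v i) → H x y = G0 x y := fun x y hx hy =>
    hoff x y (not_mem_rows3.2 hx) (not_mem_rows3.2 hy)
  have hcs := cs_some_of_mem hv hG hHO hout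
  have hcn := cs_none_of_mem hv hG hHO hout
  refine graph_ext hv (mkG_symm hv (Om_symm hG)) (Om_symm hHO) (mkG_irr hv (Om_irr hG)) (Om_irr hHO) ?_ ?_ ?_
  · intro x y hx hy; rw [mkG_out hx hy, hout x y hx hy]
  · intro x hx i
    rw [ent_mkG_some hv hx]
    unfold ofCol
    by_cases h : actv v G0 (some x)
    · rw [dif_pos h]
      unfold toCol
      simp only
      rw [← hcs x hx]
      exact reb_odd3 _ i (by rw [hcs x hx]; exact h.1)
    · rw [dif_neg h]
      have h' : ¬ (cs3 (ent v G0 (some x)) = 1 ∨ cs3 (ent v G0 (some x)) = 2) := fun h2 =>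
        h ⟨h2, fun y hy => by simp only [Option.some.injEq] at hy; rw [← hy]; exact hx⟩
      exact (lemB' _ _ i h' (hcs x hx)).symm
  · intro i
    rw [ent_mkG_none hv]
    unfold ofCol
    by_cases h : actv v G0 none
    · rw [dif_pos h]
      unfold toCol
      simp only
      rw [← hcn]
      exact reb_odd3 _ i (by rw [hcn]; exact h.1)
    · rw [dif_neg h]
      have h' : ¬ (cs3 (ent v G0 none) = 1 ∨ cs3 (ent v G0 none) = 2) := fun h2 =>
        h ⟨h2, fun y hy => by simp at hy⟩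
      exact (lemB' _ _ i h' hcn).symm

/-- on the class, the trade key of the pair opposite to `i` is the colour class `i` -/
theorem key_iff (hv : Function.Injective v) (hG : G0 ∈ Om δ) (i : Fin 3) {H H' : Adj n}
    (hH : H ∈ cls (Om δ) (off (rows3 v)) G0) (hH' : H' ∈ cls (Om δ) (off (rows3 v)) G0) :
    off {v (i + 1), v (i + 2)} H' = off {v (i + 1), v (i + 2)} H ↔
      ckey i (toCol v G0 H') = ckey i (toCol v G0 H) := by
  obtain ⟨hHO, hoff⟩ := mem_cls.1 hH
  obtain ⟨hHO', hoff'⟩ := mem_cls.1 hH'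
  rw [off_eq_iff] at hoff hoff'
  have hout : ∀ x y, (∀ i, x ≠ v i) → (∀ i, y ≠ v i) → H x y = G0 x y := fun x y hx hy =>
    hoff x y (not_mem_rows3.2 hx) (not_mem_rows3.2 hy)
  have hout' : ∀ x y, (∀ i, x ≠ v i) → (∀ i, y ≠ v i) → H' x y = G0 x y := fun x y hx hy =>
    hoff' x y (not_mem_rows3.2 hx) (not_mem_rows3.2 hy)
  have hcs := cs_some_of_mem hv hG hHO hout
  have hcn := cs_none_of_mem hv hG hHO hout
  have hcs' := cs_some_of_mem hv hG hHO' hout'
  have hcn' := cs_none_of_mem hv hG hHO' hout'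
  have hne1 : v i ≠ v (i + 1) := fun h => by have := hv h; revert this; fin_cases i <;> decide
  have hne2 : v i ≠ v (i + 2) := fun h => by have := hv h; revert this; fin_cases i <;> decide
  have hcase : ∀ x : Fin n, x ≠ v (i + 1) → x ≠ v (i + 2) → x ≠ v i → ∀ j, x ≠ v j := by
    intro x h1 h2 h3 j
    have : j = i ∨ j = i + 1 ∨ j = i + 2 := by fin_cases i <;> fin_cases j <;> decide
    rcases this with rfl | rfl | rfl
    · exact h3
    · exact h1
    · exact h2
  -- left side in terms of row `i`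
  have hL : off {v (i + 1), v (i + 2)} H' = off {v (i + 1), v (i + 2)} H ↔
      ∀ x, (∀ j, x ≠ v j) → ent v H' (some x) i = ent v H (some x) i := by
    rw [off_eq_iff]
    constructor
    · intro h x hx
      refine h x (v i) ?_ ?_
      · simp only [mem_insert, mem_singleton, not_or]; exact ⟨hx _, hx _⟩
      · simp only [mem_insert, mem_singleton, not_or]; exact ⟨hne1, hne2⟩
    · intro h x y hx hy
      simp only [mem_insert, mem_singleton, not_or] at hx hy
      by_cases hxi : x = v i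
      · by_cases hyi : y = v i
        · rw [hxi, hyi, Om_irr hHO', Om_irr hHO]
        · rw [hxi, Om_symm hHO', Om_symm hHO (v i)]
          exact h y (hcase y hy.1 hy.2 hyi)
      · by_cases hyi : y = v i
        · rw [hyi]; exact h x (hcase x hx.1 hx.2 hxi)
        · rw [hout' x y (hcase x hx.1 hx.2 hxi) (hcase y hy.1 hy.2 hyi),
            hout x y (hcase x hx.1 hx.2 hxi) (hcase y hy.1 hy.2 hyi)]
  have hR : ckey i (toCol v G0 H') = ckey i (toCol v G0 H) ↔
      ∀ X : {X : Option (Fin n) // actv v G0 X}, ent v H' X.1 i = ent v H X.1 i := by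
    unfold ckey
    rw [Finset.ext_iff]
    refine forall_congr' fun X => ?_
    simp only [mem_filter, mem_univ, true_and]
    have hcX : cs3 (ent v H X.1) = cs3 (ent v G0 X.1) := by
      obtain ⟨X, hX⟩ := X
      cases X with
      | none => exact hcn
      | some x => exact hcs x (hX.2 x rfl)
    have hcX' : cs3 (ent v H' X.1) = cs3 (ent v G0 X.1) := by
      obtain ⟨X, hX⟩ := X
      cases X with
      | none => exact hcn'
      | some x => exact hcs' x (hX.2 x rfl)
    exact odd3_eq_iff (ent v H X.1) (ent v H' X.1) i (by rw [hcX]; exact X.2.1) (by rw [hcX, hcX'])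
  rw [hL, hR]
  constructor
  · intro h X
    obtain ⟨X, hX⟩ := X
    cases X with
    | some x => exact h x (hX.2 x rfl)
    | none =>
      -- from the degree of `v i`
      have h1 := dg_in hv (Om_symm hHO) (Om_irr hHO) i
      have h2 := dg_in hv (Om_symm hHO') (Om_irr hHO') i
      rw [Om_dg hHO] at h1
      rw [Om_dg hHO'] at h2
      have h3 : ∑ y, (if ∀ i, y ≠ v i then b2z (ent v H' (some y) i) else 0)
          = ∑ y, (if ∀ i, y ≠ v i then b2z (ent v H (some y) i) else 0) := by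
        refine sum_congr rfl fun y _ => ?_
        by_cases h4 : ∀ i, y ≠ v i
        · rw [if_pos h4, if_pos h4, h y h4]
        · rw [if_neg h4, if_neg h4]
      rw [h3, hcn'] at h2
      rw [hcn] at h1
      have h5 : b2z (ent v H' none i) = b2z (ent v H none i) := by linarith
      simp only
      revert h5
      cases ent v H' none i <;> cases ent v H none i <;> simp [b2z]
  · intro h x hx
    by_cases hX : actv v G0 (some x)
    · exact h ⟨some x, hX⟩
    · have h' : ¬ (cs3 (ent v G0 (some x)) = 1 ∨ cs3 (ent v G0 (some x)) = 2) := fun h2 =>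
        hX ⟨h2, fun y hy => by simp only [Option.some.injEq] at hy; rw [← hy]; exact hx⟩
      rw [lemB' _ _ i h' (hcs' x hx), lemB' _ _ i h' (hcs x hx)]

theorem triple_v (hv : Function.Injective v) (f : Adj n → ℝ) :
    ∑ G ∈ Om δ, (f G - EE δ (rows3 v) f G) ^ 2 ≤
      ∑ i : Fin 3, ∑ G ∈ Om δ, (f G - EE δ {v (i + 1), v (i + 2)} f G) ^ 2 := by
  rw [sum_comm]
  refine sum_le_of_cls (κ := off (rows3 v)) _ _ fun G0 hG => ?_
  rw [sum_comm]
  have hε : ∀ X : {X : Option (Fin n) // actv v G0 X}, sgn v G0 X.1 = 1 ∨ sgn v G0 X.1 = -1 := by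
    intro X
    obtain ⟨X, hX⟩ := X
    unfold sgn
    cases X with
    | none => by_cases h : cs3 (ent v G0 none) = 1 <;> simp [eta, h]
    | some x => by_cases h : cs3 (ent v G0 (some x)) = 1 <;> simp [eta, h]
  have h3 := three_color (fun X : {X : Option (Fin n) // actv v G0 X} => sgn v G0 X.1) hε
    (tgt v δ G0) (fun φ => f (mkG v G0 (ofCol v G0 φ)))
  have e0 : ∑ H ∈ cls (Om δ) (off (rows3 v)) G0, (f H - EE δ (rows3 v) f H) ^ 2 = _ :=
    transfer_const (e := toCol v G0) (e' := fun φ => mkG v G0 (ofCol v G0 φ))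
      (fun H hH => toCol_mem hv hG hH) (fun φ hφ => mkG_mem hv hG φ hφ)
      (fun H hH => mkG_toCol hv hG hH) (fun φ _ => toCol_mkG hv φ) f
  have ei : ∀ i : Fin 3, ∑ H ∈ cls (Om δ) (off (rows3 v)) G0,
      (f H - EE δ {v (i + 1), v (i + 2)} f H) ^ 2 = _ := fun i =>
    transfer (κ' := ckey i) (e := toCol v G0) (e' := fun φ => mkG v G0 (ofCol v G0 φ))
      (fun H hH => toCol_mem hv hG hH) (fun φ hφ => mkG_mem hv hG φ hφ)
      (fun H hH => mkG_toCol hv hG hH) (fun φ _ => toCol_mkG hv φ)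
      (fun x _ y _ h => off_mono (by
        intro z hz
        simp only [mem_insert, mem_singleton] at hz
        unfold rows3
        rw [mem_image]
        rcases hz with rfl | rfl
        · exact ⟨_, mem_univ _, rfl⟩
        · exact ⟨_, mem_univ _, rfl⟩) h)
      (fun H hH H' hH' => key_iff hv hG i hH hH') f
  rw [e0, sum_congr rfl fun i _ => ei i]
  exact h3

end graph

/-- Poincare inequality for three rows. -/
theorem triple_poincare {n : ℕ} (δ : Fin n → ℕ) (a b c : Fin n) (hab : a ≠ b) (hac : a ≠ c)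
    (hbc : b ≠ c) (f : Adj n → ℝ) :
    ∑ G ∈ Om δ, (f G - EE δ {a, b, c} f G) ^ 2 ≤
      ∑ G ∈ Om δ, (f G - EE δ {a, b} f G) ^ 2 + ∑ G ∈ Om δ, (f G - EE δ {a, c} f G) ^ 2
        + ∑ G ∈ Om δ, (f G - EE δ {b, c} f G) ^ 2 := by
  have hv : Function.Injective ![a, b, c] := by
    intro i j h
    fin_cases i <;> fin_cases j <;> simp_all
  have h := triple_v (δ := δ) hv f
  rw [Fin.sum_univ_three] at h
  have e0 : rows3 ![a, b, c] = {a, b, c} := by
    ext x
    simp only [rows3, mem_image, mem_univ, true_and, mem_insert, mem_singleton]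
    constructor
    · rintro ⟨i, rfl⟩
      fin_cases i <;> simp
    · rintro (rfl | rfl | rfl)
      · exact ⟨0, rfl⟩
      · exact ⟨1, rfl⟩
      · exact ⟨2, rfl⟩
  have e1 : ({![a, b, c] (0 + 1), ![a, b, c] (0 + 2)} : Finset (Fin n)) = {b, c} := rfl
  have e2 : ({![a, b, c] (1 + 1), ![a, b, c] (1 + 2)} : Finset (Fin n)) = {c, a} := rfl
  have e3 : ({![a, b, c] (2 + 1), ![a, b, c] (2 + 2)} : Finset (Fin n)) = {a, b} := rfl
  rw [e0, e1, e2, e3, pair_comm c a] at h
  linarith

end Crest.Agent.SW
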