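import Crest.Agent.SW.Basic
import Crest.Agent.SW.Pair
import Crest.Agent.SW.Trade
import Crest.Agent.SW.Triple
import Crest.Agent.SW.Irred
import Crest.Agent.SwitchChain.Spec

/-!
Assembly (row 299): the Bochner inequality and the Poincare inequality in the Boolean model.
-/

set_option autoImplicit false
open Finset

namespace Crest.Agent.SW

variable {n : ℕ}

/-- the complementary projection of the trade `{a,b}` -/
noncomputable def Ga (δ : Fin n → ℕ) (a b : Fin n) (f : Adj n → ℝ) : Adj n → ℝ :=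
  fun G => f G - EE δ {a, b} f G

/-- inner product on `Om δ` -/
noncomputable def ip (δ : Fin n → ℕ) (f g : Adj n → ℝ) : ℝ := ∑ G ∈ Om δ, f G * g G

variable {δ : Fin n → ℕ} {a b c d : Fin n} {f g : Adj n → ℝ}

theorem Ga_comm : Ga δ a b f = Ga δ b a f := by
  unfold Ga; rw [pair_comm]

theorem ip_comm (f g : Adj n → ℝ) : ip δ f g = ip δ g f := by
  unfold ip; exact sum_congr rfl fun _ _ => mul_comm _ _

theorem ip_Ga (f g : Adj n → ℝ) : ip δ (Ga δ a b f) g = ip δ f (Ga δ a b g) :=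
  sum_sub_condE_mul f g

theorem ip_Ga_self (f : Adj n → ℝ) : ip δ f (Ga δ a b f) = ∑ G ∈ Om δ, (Ga δ a b f G) ^ 2 :=
  sum_mul_sub_condE f

theorem ip_Ga_nonneg (f : Adj n → ℝ) : 0 ≤ ip δ f (Ga δ a b f) := by
  rw [ip_Ga_self]; exact sum_nonneg fun _ _ => sq_nonneg _

theorem ip_add_left (f g h : Adj n → ℝ) : ip δ (fun G => f G + g G) h = ip δ f h + ip δ g h := by
  unfold ip; simp_rw [add_mul]; rw [sum_add_distrib]

theorem ip_add_right (f g h : Adj n → ℝ) : ip δ h (fun G => f G + g G) = ip δ h f + ip δ h g := by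
  unfold ip; simp_rw [mul_add]; rw [sum_add_distrib]

theorem ip_cs (f g : Adj n → ℝ) : ip δ f g ^ 2 ≤ ip δ f f * ip δ g g := by
  unfold ip
  have := sum_mul_sq_le_sq_mul_sq (Om δ) f g
  simpa [pow_two] using this

theorem ip_congr {f f' g g' : Adj n → ℝ} (hf : ∀ G ∈ Om δ, f G = f' G) (hg : ∀ G ∈ Om δ, g G = g' G) :
    ip δ f g = ip δ f' g' := by
  unfold ip; exact sum_congr rfl fun G hG => by rw [hf G hG, hg G hG]

/-- the off-diagonal terms of a triple are nonnegative -/
theorem triple_nonneg (hab : a ≠ b) (hac : a ≠ c) (hbc : b ≠ c) (f : Adj n → ℝ) :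
    0 ≤ ip δ (Ga δ a b f) (Ga δ a c f) + ip δ (Ga δ a b f) (Ga δ b c f)
      + ip δ (Ga δ a c f) (Ga δ b c f) := by
  -- `N f` and `g = f - E_t f`
  set N : Adj n → ℝ := fun G => (Ga δ a b f G + Ga δ a c f G) + Ga δ b c f G with hN
  set t : Finset (Fin n) := {a, b, c} with ht
  set e : Adj n → ℝ := EE δ t f with he
  set g : Adj n → ℝ := fun G => f G - e G with hg
  have hmeas : ∀ s : Finset (Fin n), s ⊆ t → ∀ x y : Adj n, off s x = off s y → e x = e y := by
    intro s hs x y hxy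
    exact condE_congr (off_mono hs hxy)
  -- ip e (Ga ..) = 0
  have hez : ∀ u v : Fin n, ({u, v} : Finset (Fin n)) ⊆ t → ip δ e (Ga δ u v f) = 0 := by
    intro u v huv
    have h1 : ip δ e (Ga δ u v f) = ip δ f (Ga δ u v e) := by
      rw [← ip_Ga, ip_comm]
    rw [h1]
    unfold ip
    refine sum_eq_zero fun G hG => ?_
    have : Ga δ u v e G = 0 := by
      unfold Ga EE
      rw [condE_of_meas hG (fun y _ h => hmeas _ huv y G h), sub_self]
    rw [this, mul_zero]
  have hsab : ({a, b} : Finset (Fin n)) ⊆ t := by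
    intro x hx; simp only [mem_insert, mem_singleton, ht] at hx ⊢; tauto
  have hsac : ({a, c} : Finset (Fin n)) ⊆ t := by
    intro x hx; simp only [mem_insert, mem_singleton, ht] at hx ⊢; tauto
  have hsbc : ({b, c} : Finset (Fin n)) ⊆ t := by
    intro x hx; simp only [mem_insert, mem_singleton, ht] at hx ⊢; tauto
  have hNe : ip δ e N = 0 := by
    rw [hN, ip_add_right, ip_add_right, hez a b hsab, hez a c hsac, hez b c hsbc]; ring
  have hNf : ip δ f N = ip δ g N := by
    have : ip δ f N = ip δ g N + ip δ e N := by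
      rw [← ip_add_left]
      refine ip_congr (fun G _ => ?_) (fun _ _ => rfl)
      simp [hg]
    rw [this, hNe, add_zero]
  have hfN : ip δ f N = ∑ G ∈ Om δ, (Ga δ a b f G) ^ 2 + ∑ G ∈ Om δ, (Ga δ a c f G) ^ 2
      + ∑ G ∈ Om δ, (Ga δ b c f G) ^ 2 := by
    rw [hN, ip_add_right, ip_add_right, ip_Ga_self, ip_Ga_self, ip_Ga_self]
  have hPt : ip δ g g ≤ ip δ f N := by
    have := triple_poincare δ a b c hab hac hbc f
    rw [hfN]
    calc ip δ g g = ∑ G ∈ Om δ, (f G - EE δ {a, b, c} f G) ^ 2 := by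
          unfold ip; exact sum_congr rfl fun G _ => by simp only [hg, he, ht]; ring
      _ ≤ _ := this
  have hNN : ip δ f N ≤ ip δ N N := by
    have hcs := ip_cs (δ := δ) g N
    rw [← hNf] at hcs
    have h0 : 0 ≤ ip δ f N := by
      rw [hfN]; positivity
    have hNN0 : 0 ≤ ip δ N N := by unfold ip; exact sum_nonneg fun _ _ => mul_self_nonneg _
    rcases h0.eq_or_lt with h | h
    · rw [← h]; exact hNN0
    · by_contra hlt
      push Not at hlt
      have : ip δ g g * ip δ N N ≤ ip δ f N * ip δ N N := mul_le_mul_of_nonneg_right hPt hNN0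
      nlinarith
  have hexp : ip δ N N = ∑ G ∈ Om δ, (Ga δ a b f G) ^ 2 + ∑ G ∈ Om δ, (Ga δ a c f G) ^ 2
      + ∑ G ∈ Om δ, (Ga δ b c f G) ^ 2 + 2 * (ip δ (Ga δ a b f) (Ga δ a c f)
      + ip δ (Ga δ a b f) (Ga δ b c f) + ip δ (Ga δ a c f) (Ga δ b c f)) := by
    unfold ip
    simp only [hN]
    rw [← sum_add_distrib, ← sum_add_distrib, ← sum_add_distrib, ← sum_add_distrib, mul_sum,
      ← sum_add_distrib]
    exact sum_congr rfl fun G _ => by ring
  rw [hexp, hfN] at hNN
  linarith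

/-- combinatorial identity splitting ordered pairs `(c,d)` according to their coincidences with `(a,b)` -/
theorem split_pairs (hab : a ≠ b) (g : Fin n → Fin n → ℝ) :
    ∑ c, ∑ d, (if c ≠ d then g c d else 0) =
      g a b + g b a
        + ∑ x, (if x ≠ a ∧ x ≠ b then (g a x + g b x + g x a + g x b) else 0)
        + ∑ c, ∑ d, (if D4 a b c d then g c d else 0) := by
  have key : ∀ c d : Fin n, (if c ≠ d then g c d else 0) =
      (if c = a then (if d = b then g a b else 0) else 0)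
      + (if c = b then (if d = a then g b a else 0) else 0)
      + (if c = a then (if d ≠ a ∧ d ≠ b then g a d else 0) else 0)
      + (if c = b then (if d ≠ a ∧ d ≠ b then g b d else 0) else 0)
      + (if d = a then (if c ≠ a ∧ c ≠ b then g c a else 0) else 0)
      + (if d = b then (if c ≠ a ∧ c ≠ b then g c b else 0) else 0)
      + (if D4 a b c d then g c d else 0) := by
    intro c d
    unfold D4
    by_cases h1 : c = a
    · subst h1
      by_cases h2 : d = c
      · subst h2; simp [hab]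
      · by_cases h3 : d = b
        · subst h3; simp [hab, Ne.symm hab]
        · simp [h2, h3, hab, Ne.symm h2]
    · by_cases h2 : c = b
      · subst h2
        by_cases h3 : d = a
        · subst h3; simp [hab, Ne.symm hab]
        · by_cases h4 : d = c
          · subst h4; simp [hab, Ne.symm hab]
          · simp [h1, h3, h4, hab, Ne.symm h4]
      · by_cases h3 : d = a
        · subst h3; simp [h1, h2, hab]
        · by_cases h4 : d = b
          · subst h4; simp [h1, h2, Ne.symm hab]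
          · by_cases h5 : c = d
            · subst h5; simp [h1, h2]
            · simp [h1, h2, h3, h4, h5, hab, Ne.symm h1, Ne.symm h2, Ne.symm h3, Ne.symm h4]
  simp_rw [key, sum_add_distrib]
  have e1 : ∑ c, ∑ d, (if c = a then (if d = b then g a b else 0) else 0) = g a b := by
    rw [sum_comm]; simp
  have e2 : ∑ c, ∑ d, (if c = b then (if d = a then g b a else 0) else 0) = g b a := by
    rw [sum_comm]; simp
  have e3 : ∑ c : Fin n, ∑ d, (if c = a then (if d ≠ a ∧ d ≠ b then g a d else 0) else 0)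
      = ∑ d, (if d ≠ a ∧ d ≠ b then g a d else 0) := by
    rw [sum_comm]; simp
  have e4 : ∑ c : Fin n, ∑ d, (if c = b then (if d ≠ a ∧ d ≠ b then g b d else 0) else 0)
      = ∑ d, (if d ≠ a ∧ d ≠ b then g b d else 0) := by
    rw [sum_comm]; simp
  have e5 : ∑ c : Fin n, ∑ d, (if d = a then (if c ≠ a ∧ c ≠ b then g c a else 0) else 0)
      = ∑ d, (if d ≠ a ∧ d ≠ b then g d a else 0) := by
    simp
  have e6 : ∑ c : Fin n, ∑ d, (if d = b then (if c ≠ a ∧ c ≠ b then g c b else 0) else 0)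
      = ∑ d, (if d ≠ a ∧ d ≠ b then g d b else 0) := by
    simp
  rw [e1, e2, e3, e4, e5, e6]
  have e7 : ∑ x, (if x ≠ a ∧ x ≠ b then (g a x + g b x + g x a + g x b) else 0)
      = ∑ d, (if d ≠ a ∧ d ≠ b then g a d else 0) + ∑ d, (if d ≠ a ∧ d ≠ b then g b d else 0)
        + ∑ d, (if d ≠ a ∧ d ≠ b then g d a else 0) + ∑ d, (if d ≠ a ∧ d ≠ b then g d b else 0) := by
    rw [← sum_add_distrib, ← sum_add_distrib, ← sum_add_distrib]
    refine sum_congr rfl fun x _ => ?_
    by_cases h : x ≠ a ∧ x ≠ b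
    · simp only [if_pos h]
    · simp only [if_neg h, add_zero]
  rw [e7]; ring

/-- the operator `M' = ∑_{a ≠ b} (1 - E_{ab})` -/
noncomputable def Mop (δ : Fin n → ℕ) (f : Adj n → ℝ) : Adj n → ℝ :=
  fun G => ∑ a, ∑ b, if a ≠ b then Ga δ a b f G else 0

theorem ip_sum_right {ι : Type*} (s : Finset ι) (f : Adj n → ℝ) (F : ι → Adj n → ℝ) :
    ip δ f (fun G => ∑ i ∈ s, F i G) = ∑ i ∈ s, ip δ f (F i) := by
  unfold ip
  simp_rw [mul_sum]
  rw [sum_comm]

theorem ip_ite_right (p : Prop) [Decidable p] (f g : Adj n → ℝ) :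
    ip δ f (fun G => if p then g G else 0) = if p then ip δ f g else 0 := by
  by_cases h : p
  · simp [h]
  · simp [h, ip]

theorem ip_Mop (f g : Adj n → ℝ) :
    ip δ g (Mop δ f) = ∑ a, ∑ b, if a ≠ b then ip δ g (Ga δ a b f) else 0 := by
  unfold Mop
  rw [ip_sum_right]
  refine sum_congr rfl fun a _ => ?_
  rw [ip_sum_right]
  exact sum_congr rfl fun b _ => ip_ite_right _ _ _

theorem ip_Mop_symm (f g : Adj n → ℝ) : ip δ g (Mop δ f) = ip δ (Mop δ g) f := by
  rw [ip_comm (Mop δ g) f, ip_Mop, ip_Mop]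
  refine sum_congr rfl fun a _ => sum_congr rfl fun b _ => ?_
  by_cases h : a ≠ b
  · rw [if_pos h, if_pos h, ← ip_Ga, ip_comm]
  · rw [if_neg h, if_neg h]

theorem S3_swap12 (g : Fin n → Fin n → Fin n → ℝ) :
    ∑ a, ∑ b, ∑ x, (if a ≠ b ∧ x ≠ a ∧ x ≠ b then g b a x else 0) =
      ∑ a, ∑ b, ∑ x, (if a ≠ b ∧ x ≠ a ∧ x ≠ b then g a b x else 0) := by
  rw [sum_comm]
  refine sum_congr rfl fun a _ => sum_congr rfl fun b _ => sum_congr rfl fun x _ => ?_
  by_cases h : a ≠ b ∧ x ≠ a ∧ x ≠ b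
  · rw [if_pos h, if_pos ⟨h.1.symm, h.2.2, h.2.1⟩]
  · rw [if_neg h, if_neg (fun h' => h ⟨h'.1.symm, h'.2.2, h'.2.1⟩)]

theorem S3_swap13 (g : Fin n → Fin n → Fin n → ℝ) :
    ∑ a, ∑ b, ∑ x, (if a ≠ b ∧ x ≠ a ∧ x ≠ b then g x b a else 0) =
      ∑ a, ∑ b, ∑ x, (if a ≠ b ∧ x ≠ a ∧ x ≠ b then g a b x else 0) := by
  calc ∑ a, ∑ b, ∑ x, (if a ≠ b ∧ x ≠ a ∧ x ≠ b then g x b a else 0)
      = ∑ a, ∑ x, ∑ b, (if a ≠ b ∧ x ≠ a ∧ x ≠ b then g x b a else 0) :=
        sum_congr rfl fun a _ => sum_comm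
    _ = ∑ x, ∑ a, ∑ b, (if a ≠ b ∧ x ≠ a ∧ x ≠ b then g x b a else 0) := sum_comm
    _ = ∑ x, ∑ b, ∑ a, (if a ≠ b ∧ x ≠ a ∧ x ≠ b then g x b a else 0) :=
        sum_congr rfl fun a _ => sum_comm
    _ = _ := by
        refine sum_congr rfl fun a _ => sum_congr rfl fun b _ => sum_congr rfl fun x _ => ?_
        by_cases h : a ≠ b ∧ x ≠ a ∧ x ≠ b
        · rw [if_pos h, if_pos ⟨h.2.2, h.2.1.symm, h.1⟩]
        · rw [if_neg h, if_neg (fun h' => h ⟨h'.2.2, h'.2.1.symm, h'.1⟩)]

/-- the switch energy -/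
noncomputable def WW (δ : Fin n → ℕ) (f : Adj n → ℝ) : ℝ :=
  ∑ a, ∑ b, ∑ c, ∑ d, (if D4 a b c d then
    ∑ G ∈ IJs δ a b c d, (f G - f (sg a b c d G)) ^ 2 else 0)

theorem D4_sum_swap (F : Fin n → Fin n → Fin n → Fin n → ℝ) :
    ∑ a, ∑ b, ∑ c, ∑ d, (if D4 a b c d then F c d a b else 0) =
      ∑ a, ∑ b, ∑ c, ∑ d, (if D4 a b c d then F a b c d else 0) := by
  calc ∑ a, ∑ b, ∑ c, ∑ d, (if D4 a b c d then F c d a b else 0)
      = ∑ p : Fin n × Fin n, ∑ q : Fin n × Fin n,
          (if D4 p.1 p.2 q.1 q.2 then F q.1 q.2 p.1 p.2 else 0) := by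
        rw [Fintype.sum_prod_type]
        refine sum_congr rfl fun a _ => sum_congr rfl fun b _ => ?_
        rw [Fintype.sum_prod_type]
    _ = ∑ q : Fin n × Fin n, ∑ p : Fin n × Fin n,
          (if D4 p.1 p.2 q.1 q.2 then F q.1 q.2 p.1 p.2 else 0) := sum_comm
    _ = _ := by
        rw [Fintype.sum_prod_type]
        refine sum_congr rfl fun a _ => sum_congr rfl fun b _ => ?_
        rw [Fintype.sum_prod_type]
        refine sum_congr rfl fun c _ => sum_congr rfl fun d _ => ?_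
        simp only [D4_swap_iff (a := c) (b := d) (c := a) (d := b)]

theorem quad_nonneg (f : Adj n → ℝ) :
    0 ≤ ∑ a, ∑ b, ∑ c, ∑ d, (if D4 a b c d then ip δ (Ga δ a b f) (Ga δ c d f) else 0) := by
  set R : Fin n → Fin n → Fin n → Fin n → ℝ := fun a b c d =>
    ∑ G ∈ IJs δ a b c d, (condE (Om δ) (key2 a b c d) f G - EE δ {a, b} f G) ^ 2 with hR
  set W : Fin n → Fin n → Fin n → Fin n → ℝ := fun a b c d =>
    ∑ G ∈ IJs δ a b c d, (f G - f (sg a b c d G)) ^ 2 with hW
  have h1 : ∀ a b c d : Fin n, (if D4 a b c d then (1 / 4) * W a b c d else 0)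
      - (if D4 a b c d then (1 / 2) * R a b c d else 0) - (if D4 a b c d then (1 / 2) * R c d a b else 0)
      ≤ (if D4 a b c d then ip δ (Ga δ a b f) (Ga δ c d f) else 0) := by
    intro a b c d
    by_cases h : D4 a b c d
    · simp only [if_pos h]
      have := pair_ineq δ a b c d h f
      have hR2 : R c d a b = ∑ G ∈ IJs δ a b c d,
          (condE (Om δ) (key2 c d a b) f G - EE δ {c, d} f G) ^ 2 := by
        rw [hR]; simp only; rw [← IJs_swap]
      rw [hR2]
      exact this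
    · simp only [if_neg h]; norm_num
  have h2 : ∑ a, ∑ b, ∑ c, ∑ d, (if D4 a b c d then (1 / 4) * W a b c d else 0)
      - ∑ a, ∑ b, ∑ c, ∑ d, (if D4 a b c d then (1 / 2) * R a b c d else 0)
      - ∑ a, ∑ b, ∑ c, ∑ d, (if D4 a b c d then (1 / 2) * R c d a b else 0)
      ≤ ∑ a, ∑ b, ∑ c, ∑ d, (if D4 a b c d then ip δ (Ga δ a b f) (Ga δ c d f) else 0) := by
    simp only [← sum_sub_distrib]
    exact sum_le_sum fun a _ => sum_le_sum fun b _ => sum_le_sum fun c _ => sum_le_sum fun d _ =>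
      h1 a b c d
  have h3 : ∑ a, ∑ b, ∑ c, ∑ d, (if D4 a b c d then (1 / 2) * R c d a b else 0)
      = ∑ a, ∑ b, ∑ c, ∑ d, (if D4 a b c d then (1 / 2) * R a b c d else 0) :=
    D4_sum_swap fun a b c d => (1 / 2) * R a b c d
  have h4 : ∑ a, ∑ b, ∑ c, ∑ d, (if D4 a b c d then (1 / 2) * R a b c d else 0)
      ≤ (1 / 2) * ∑ a, ∑ b, ∑ c, ∑ d, (if D4 a b c d then (1 / 4) * W a b c d else 0) := by
    rw [mul_sum]
    refine sum_le_sum fun a _ => ?_
    rw [mul_sum]
    refine sum_le_sum fun b _ => ?_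
    by_cases hab : a = b
    · subst hab
      have : ∀ c d : Fin n, ¬ D4 a a c d := fun c d h => h.1 rfl
      simp [this]
    · have := trade_TC1 δ a b hab f
      calc ∑ c, ∑ d, (if D4 a b c d then (1 / 2) * R a b c d else 0)
          = (1 / 2) * ∑ c, ∑ d, (if D4 a b c d then R a b c d else 0) := by
            rw [mul_sum]; refine sum_congr rfl fun c _ => ?_
            rw [mul_sum]; refine sum_congr rfl fun d _ => ?_
            by_cases h : D4 a b c d <;> simp [h]
        _ ≤ (1 / 2) * ((1 / 4) * ∑ c, ∑ d, (if D4 a b c d then W a b c d else 0)) := by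
            apply mul_le_mul_of_nonneg_left this (by norm_num)
        _ = (1 / 2) * ∑ c, ∑ d, (if D4 a b c d then (1 / 4) * W a b c d else 0) := by
            congr 1
            rw [mul_sum]; refine sum_congr rfl fun c _ => ?_
            rw [mul_sum]; refine sum_congr rfl fun d _ => ?_
            by_cases h : D4 a b c d <;> simp [h]
  linarith

/-- The Bochner inequality `M'^2 ≥ 2 M'`. -/
theorem bochner (f : Adj n → ℝ) : 2 * ip δ f (Mop δ f) ≤ ip δ (Mop δ f) (Mop δ f) := by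
  set P : Fin n → Fin n → Fin n → Fin n → ℝ := fun a b c d => ip δ (Ga δ a b f) (Ga δ c d f) with hP
  have hexp : ip δ (Mop δ f) (Mop δ f) =
      ∑ a, ∑ b, (if a ≠ b then ∑ c, ∑ d, (if c ≠ d then P a b c d else 0) else 0) := by
    rw [ip_Mop]
    have : ∀ c d : Fin n, ip δ (Mop δ f) (Ga δ c d f) =
        ∑ a, ∑ b, (if a ≠ b then P a b c d else 0) := by
      intro c d
      rw [ip_comm, ip_Mop]
      refine sum_congr rfl fun a _ => sum_congr rfl fun b _ => ?_
      rw [ip_comm]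
    simp_rw [this]
    refine sum_congr rfl fun a _ => sum_congr rfl fun b _ => ?_
    by_cases h : a ≠ b
    · rw [if_pos h, if_pos h]
      refine sum_congr rfl fun c _ => sum_congr rfl fun d _ => ?_
      by_cases h' : c ≠ d
      · rw [if_pos h', if_pos h']; exact ip_comm _ _
      · rw [if_neg h', if_neg h']
    · rw [if_neg h, if_neg h]
  have hsplit : ∀ a b : Fin n, (if a ≠ b then ∑ c, ∑ d, (if c ≠ d then P a b c d else 0) else 0) =
      2 * (if a ≠ b then P a b a b else 0)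
      + (∑ x, (if a ≠ b ∧ x ≠ a ∧ x ≠ b then 2 * P a b a x else 0)
        + ∑ x, (if a ≠ b ∧ x ≠ a ∧ x ≠ b then 2 * P a b b x else 0))
      + ∑ c, ∑ d, (if D4 a b c d then P a b c d else 0) := by
    intro a b
    by_cases hab : a ≠ b
    · rw [if_pos hab, if_pos hab, split_pairs hab, ← sum_add_distrib]
      have e1 : P a b b a = P a b a b := by
        simp only [hP]; rw [Ga_comm (a := b) (b := a)]
      have e2 : ∀ x, (if x ≠ a ∧ x ≠ b then (P a b a x + P a b b x + P a b x a + P a b x b) else 0)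
          = (if a ≠ b ∧ x ≠ a ∧ x ≠ b then 2 * P a b a x else 0)
            + (if a ≠ b ∧ x ≠ a ∧ x ≠ b then 2 * P a b b x else 0) := by
        intro x
        have e3 : P a b x a = P a b a x := by simp only [hP]; rw [Ga_comm (a := x) (b := a)]
        have e4 : P a b x b = P a b b x := by simp only [hP]; rw [Ga_comm (a := x) (b := b)]
        by_cases h : x ≠ a ∧ x ≠ b
        · rw [if_pos h, if_pos ⟨hab, h⟩, if_pos ⟨hab, h⟩, e3, e4]; ring
        · rw [if_neg h, if_neg (fun h' => h h'.2), if_neg (fun h' => h h'.2)]; ring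
      rw [e1, sum_congr rfl fun x _ => e2 x]
      ring
    · push Not at hab
      subst hab
      have : ∀ c d : Fin n, ¬ D4 a a c d := fun c d h => h.1 rfl
      simp [this]
  have hdiag : ip δ f (Mop δ f) = ∑ a, ∑ b, (if a ≠ b then P a b a b else 0) := by
    rw [ip_Mop]
    refine sum_congr rfl fun a _ => sum_congr rfl fun b _ => ?_
    by_cases h : a ≠ b
    · rw [if_pos h, if_pos h, ip_Ga_self]
      simp only [hP, ip, pow_two]
    · rw [if_neg h, if_neg h]
  -- triple part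
  set A1 : ℝ := ∑ a, ∑ b, ∑ x, (if a ≠ b ∧ x ≠ a ∧ x ≠ b then P a b a x else 0) with hA1
  have hA2 : ∑ a, ∑ b, ∑ x, (if a ≠ b ∧ x ≠ a ∧ x ≠ b then P a b b x else 0) = A1 := by
    rw [hA1, ← S3_swap12 (fun a b x => P a b a x)]
    refine sum_congr rfl fun a _ => sum_congr rfl fun b _ => sum_congr rfl fun x _ => ?_
    have : P a b b x = P b a b x := by simp only [hP]; rw [Ga_comm (a := a) (b := b)]
    rw [this]
  have hA3 : ∑ a, ∑ b, ∑ x, (if a ≠ b ∧ x ≠ a ∧ x ≠ b then P a x b x else 0) = A1 := by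
    rw [hA1, ← S3_swap13 (fun a b x => P a b a x)]
    refine sum_congr rfl fun a _ => sum_congr rfl fun b _ => sum_congr rfl fun x _ => ?_
    have : P a x b x = P x b x a := by
      simp only [hP]; rw [Ga_comm (a := a) (b := x), Ga_comm (a := b) (b := x), ip_comm]
    rw [this]
  have hA : 0 ≤ A1 := by
    have h3 : 0 ≤ ∑ a, ∑ b, ∑ x, (if a ≠ b ∧ x ≠ a ∧ x ≠ b then
        (P a b a x + P a b b x + P a x b x) else 0) := by
      refine sum_nonneg fun a _ => sum_nonneg fun b _ => sum_nonneg fun x _ => ?_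
      by_cases h : a ≠ b ∧ x ≠ a ∧ x ≠ b
      · rw [if_pos h]; exact triple_nonneg h.1 h.2.1.symm h.2.2.symm f
      · rw [if_neg h]
    have h4 : ∑ a, ∑ b, ∑ x, (if a ≠ b ∧ x ≠ a ∧ x ≠ b then
        (P a b a x + P a b b x + P a x b x) else 0) = A1 + A1 + A1 := by
      nth_rewrite 2 [← hA2]
      nth_rewrite 2 [← hA3]
      rw [hA1]
      simp only [← sum_add_distrib]
      refine sum_congr rfl fun a _ => sum_congr rfl fun b _ => sum_congr rfl fun x _ => ?_
      by_cases h : a ≠ b ∧ x ≠ a ∧ x ≠ b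
      · simp only [if_pos h]
      · simp only [if_neg h, add_zero]
    rw [h4] at h3
    linarith
  have hquad := quad_nonneg (δ := δ) f
  have htot : ip δ (Mop δ f) (Mop δ f) = 2 * ip δ f (Mop δ f) + (2 * A1 + 2 * A1)
      + ∑ a, ∑ b, ∑ c, ∑ d, (if D4 a b c d then P a b c d else 0) := by
    rw [hexp, hdiag]
    simp_rw [hsplit, sum_add_distrib, ← mul_sum]
    congr 2
    congr 1
    · rw [hA1, mul_sum]
      refine sum_congr rfl fun a _ => ?_
      rw [mul_sum]
      refine sum_congr rfl fun b _ => ?_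
      rw [mul_sum]
      refine sum_congr rfl fun x _ => ?_
      by_cases h : a ≠ b ∧ x ≠ a ∧ x ≠ b <;> simp [h]
    · rw [← hA2, mul_sum]
      refine sum_congr rfl fun a _ => ?_
      rw [mul_sum]
      refine sum_congr rfl fun b _ => ?_
      rw [mul_sum]
      refine sum_congr rfl fun x _ => ?_
      by_cases h : a ≠ b ∧ x ≠ a ∧ x ≠ b <;> simp [h]
  rw [htot]
  linarith

end Crest.Agent.SW
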