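import Crest.Agent.SW.Defs

/-!
Generic facts on `condE` (row 299).
-/

set_option autoImplicit false
open Finset

namespace Crest.Agent.SW

section CondE
variable {α β γ : Type*} [DecidableEq β] [DecidableEq γ]
variable {Ω : Finset α} {κ : α → β} {f g : α → ℝ} {x y : α}

theorem mem_cls : y ∈ cls Ω κ x ↔ y ∈ Ω ∧ κ y = κ x := by simp [cls]

theorem self_mem_cls (hx : x ∈ Ω) : x ∈ cls Ω κ x := mem_cls.2 ⟨hx, rfl⟩

theorem cls_congr (h : κ x = κ y) : cls Ω κ x = cls Ω κ y := by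
  unfold cls; rw [h]

theorem cls_card_pos (hx : x ∈ Ω) : 0 < (cls Ω κ x).card := card_pos.2 ⟨x, self_mem_cls hx⟩

theorem cls_card_ne (hx : x ∈ Ω) : ((cls Ω κ x).card : ℝ) ≠ 0 :=
  Nat.cast_ne_zero.2 (cls_card_pos hx).ne'

theorem condE_congr (h : κ x = κ y) : condE Ω κ f x = condE Ω κ f y := by
  unfold condE; rw [cls_congr h]

theorem condE_congr_fun (h : ∀ y ∈ cls Ω κ x, f y = g y) : condE Ω κ f x = condE Ω κ g x := by
  unfold condE; rw [sum_congr rfl h]

theorem condE_congr_fun' (h : ∀ y ∈ Ω, f y = g y) : condE Ω κ f x = condE Ω κ g x :=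
  condE_congr_fun fun y hy => h y (mem_cls.1 hy).1

theorem condE_add : condE Ω κ (fun z => f z + g z) x = condE Ω κ f x + condE Ω κ g x := by
  unfold condE; rw [sum_add_distrib, add_div]

theorem condE_sub : condE Ω κ (fun z => f z - g z) x = condE Ω κ f x - condE Ω κ g x := by
  unfold condE; rw [sum_sub_distrib, sub_div]

theorem condE_smul (c : ℝ) : condE Ω κ (fun z => c * f z) x = c * condE Ω κ f x := by
  unfold condE; rw [← mul_sum, mul_div_assoc]

/-- sums over `Ω` of `condE` are sums over pairs in the same class -/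
theorem sum_condE_mul (f g : α → ℝ) :
    ∑ x ∈ Ω, condE Ω κ f x * g x = ∑ x ∈ Ω, f x * condE Ω κ g x := by
  have h1 : ∑ x ∈ Ω, condE Ω κ f x * g x =
      ∑ x ∈ Ω, ∑ y ∈ Ω, if κ y = κ x then f y * g x / ((cls Ω κ x).card : ℝ) else 0 := by
    refine sum_congr rfl fun x _ => ?_
    unfold condE
    rw [div_mul_eq_mul_div, sum_mul, sum_div, cls, sum_filter]
  have h2 : ∑ x ∈ Ω, f x * condE Ω κ g x =
      ∑ x ∈ Ω, ∑ y ∈ Ω, if κ y = κ x then f x * g y / ((cls Ω κ x).card : ℝ) else 0 := by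
    refine sum_congr rfl fun x _ => ?_
    unfold condE
    rw [mul_div_assoc', mul_sum, sum_div, cls, sum_filter]
  rw [h1, h2, sum_comm]
  refine sum_congr rfl fun x _ => sum_congr rfl fun y _ => ?_
  by_cases h : κ x = κ y
  · rw [if_pos h, if_pos h.symm, cls_congr h]
  · rw [if_neg h, if_neg (Ne.symm h)]

theorem condE_of_meas (hx : x ∈ Ω) (hf : ∀ y ∈ Ω, κ y = κ x → f y = f x) :
    condE Ω κ f x = f x := by
  unfold condE
  rw [sum_congr rfl (fun y hy => hf y (mem_cls.1 hy).1 (mem_cls.1 hy).2), sum_const, nsmul_eq_mul,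
    mul_div_assoc, mul_div_cancel₀ _ (cls_card_ne hx)]

theorem condE_idem (hx : x ∈ Ω) : condE Ω κ (condE Ω κ f) x = condE Ω κ f x :=
  condE_of_meas hx fun _ _ h => condE_congr h

/-- pull out a measurable factor -/
theorem condE_mul_meas (hf : ∀ y ∈ Ω, κ y = κ x → g y = g x) :
    condE Ω κ (fun z => g z * f z) x = g x * condE Ω κ f x := by
  unfold condE
  rw [← mul_div_assoc, mul_sum]
  congr 1
  exact sum_congr rfl fun y hy => by simp only [hf y (mem_cls.1 hy).1 (mem_cls.1 hy).2]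

theorem sum_condE_mul_meas (hg : ∀ x ∈ Ω, ∀ y ∈ Ω, κ y = κ x → g y = g x) :
    ∑ x ∈ Ω, condE Ω κ f x * g x = ∑ x ∈ Ω, f x * g x := by
  rw [sum_condE_mul]
  exact sum_congr rfl fun x hx => by rw [condE_of_meas hx (hg x hx)]

/-- `condE κ (condE κ' f) = condE κ' f` for `κ'` coarser than `κ`. -/
theorem condE_fine_coarse {κ' : α → γ} (hc : ∀ x ∈ Ω, ∀ y ∈ Ω, κ y = κ x → κ' y = κ' x)
    (hx : x ∈ Ω) : condE Ω κ (condE Ω κ' f) x = condE Ω κ' f x :=
  condE_of_meas hx fun y hy h => condE_congr (hc x hx y hy h)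

/-- `condE κ' (condE κ f) = condE κ' f` for `κ'` coarser than `κ`. -/
theorem condE_coarse_fine {κ' : α → γ} (hc : ∀ x ∈ Ω, ∀ y ∈ Ω, κ y = κ x → κ' y = κ' x)
    (_hx : x ∈ Ω) : condE Ω κ' (condE Ω κ f) x = condE Ω κ' f x := by
  unfold condE
  congr 1
  -- indicator of the coarse class is measurable for the fine key
  have key := sum_condE_mul_meas (Ω := Ω) (κ := κ) (f := f)
    (g := fun y => if κ' y = κ' x then (1 : ℝ) else 0)
    (fun y hy z hz h => by
      have := hc y hy z hz h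
      simp only [this])
  unfold condE at key
  simp only [mul_ite, mul_one, mul_zero] at key
  rw [← sum_filter, ← sum_filter] at key
  exact key

/-- Jensen on a saturated subset. -/
theorem sum_condE_sq_le {Ω' : Finset α} (hsub : Ω' ⊆ Ω)
    (hsat : ∀ x ∈ Ω', ∀ y ∈ Ω, κ y = κ x → y ∈ Ω') (f : α → ℝ) :
    ∑ x ∈ Ω', (condE Ω κ f x) ^ 2 ≤ ∑ x ∈ Ω', f x ^ 2 := by
  have h1 : ∀ x ∈ Ω', (condE Ω κ f x) ^ 2 ≤ condE Ω κ (fun z => f z ^ 2) x := by
    intro x hx
    unfold condE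
    rw [div_pow]
    have hpos : (0 : ℝ) < ((cls Ω κ x).card : ℝ) := Nat.cast_pos.2 (cls_card_pos (hsub hx))
    rw [div_le_div_iff₀ (by positivity) hpos]
    have := sq_sum_le_card_mul_sum_sq (s := cls Ω κ x) (f := f)
    nlinarith [this]
  have h2 : ∑ x ∈ Ω', condE Ω κ (fun z => f z ^ 2) x = ∑ x ∈ Ω', f x ^ 2 := by
    classical
    have key := sum_condE_mul_meas (Ω := Ω) (κ := κ) (f := fun z => f z ^ 2)
      (g := fun y => if y ∈ Ω' then (1 : ℝ) else 0)
      (fun y hy z hz h => by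
        by_cases hy' : y ∈ Ω'
        · rw [if_pos hy', if_pos (hsat y hy' z hz h)]
        · have : z ∉ Ω' := fun hz' => hy' (hsat z hz' y hy h.symm)
          rw [if_neg hy', if_neg this])
    simp only [mul_ite, mul_one, mul_zero] at key
    rw [← sum_filter, ← sum_filter] at key
    have hfil : Ω.filter (fun y => y ∈ Ω') = Ω' := by
      ext y; simp only [mem_filter]; exact ⟨fun h => h.2, fun h => ⟨hsub h, h⟩⟩
    rwa [hfil] at key
  calc _ ≤ ∑ x ∈ Ω', condE Ω κ (fun z => f z ^ 2) x := sum_le_sum h1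
    _ = _ := h2

theorem sum_mul_sub_condE (f : α → ℝ) :
    ∑ x ∈ Ω, f x * (f x - condE Ω κ f x) = ∑ x ∈ Ω, (f x - condE Ω κ f x) ^ 2 := by
  have h1 : ∑ x ∈ Ω, condE Ω κ f x * f x = ∑ x ∈ Ω, condE Ω κ f x * condE Ω κ f x := by
    rw [sum_condE_mul (κ := κ) f (condE Ω κ f)]
    refine sum_congr rfl fun x hx => ?_
    rw [condE_idem hx, mul_comm]
  have h2 : ∀ x, (f x - condE Ω κ f x) ^ 2 = f x * (f x - condE Ω κ f x)
      - (condE Ω κ f x * f x - condE Ω κ f x * condE Ω κ f x) := fun x => by ring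
  simp_rw [h2]
  rw [sum_sub_distrib (f := fun x => f x * (f x - condE Ω κ f x)), sum_sub_distrib
    (f := fun x => condE Ω κ f x * f x), h1, sub_self, sub_zero]

theorem sum_sub_condE_mul (f g : α → ℝ) :
    ∑ x ∈ Ω, (f x - condE Ω κ f x) * g x = ∑ x ∈ Ω, f x * (g x - condE Ω κ g x) := by
  simp_rw [sub_mul, mul_sub]
  rw [sum_sub_distrib (f := fun x => f x * g x), sum_sub_distrib (f := fun x => f x * g x),
    sum_condE_mul]

/-- Commutation of two conditional expectations at a point, from a "mixing" map. -/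
theorem condE_comm_at {κ₂ : α → γ} (m : α → α → α) (G : α)
    (hm : ∀ x ∈ cls Ω κ G, ∀ y ∈ cls Ω κ₂ G,
      m x y ∈ Ω ∧ κ₂ (m x y) = κ₂ x ∧ κ (m x y) = κ y ∧ m G (m x y) = y ∧ m (m x y) G = x)
    (hm1 : ∀ x ∈ cls Ω κ G, ∀ z ∈ cls Ω κ₂ x, m G z ∈ cls Ω κ₂ G ∧ m x (m G z) = z)
    (hm2 : ∀ y ∈ cls Ω κ₂ G, ∀ z ∈ cls Ω κ y, m z G ∈ cls Ω κ G ∧ m (m z G) y = z)
    (f : α → ℝ) :
    condE Ω κ (condE Ω κ₂ f) G = condE Ω κ₂ (condE Ω κ f) G := by
  have hA : ∀ x ∈ cls Ω κ G, ∑ z ∈ cls Ω κ₂ x, f z = ∑ y ∈ cls Ω κ₂ G, f (m x y) := by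
    intro x hx
    refine (sum_bij' (fun y _ => m x y) (fun z _ => m G z) ?_ ?_ ?_ ?_ ?_).symm
    · intro y hy
      obtain ⟨h1, h2, -⟩ := hm x hx y hy
      exact mem_cls.2 ⟨h1, h2⟩
    · intro z hz
      exact (hm1 x hx z hz).1
    · intro y hy
      exact (hm x hx y hy).2.2.2.1
    · intro z hz
      exact (hm1 x hx z hz).2
    · intro y hy
      rfl
  have hAc : ∀ x ∈ cls Ω κ G, (cls Ω κ₂ x).card = (cls Ω κ₂ G).card := by
    intro x hx
    refine (card_bij' (fun y _ => m x y) (fun z _ => m G z) ?_ ?_ ?_ ?_).symm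
    · intro y hy
      obtain ⟨h1, h2, -⟩ := hm x hx y hy
      exact mem_cls.2 ⟨h1, h2⟩
    · intro z hz
      exact (hm1 x hx z hz).1
    · intro y hy
      exact (hm x hx y hy).2.2.2.1
    · intro z hz
      exact (hm1 x hx z hz).2
  have hB : ∀ y ∈ cls Ω κ₂ G, ∑ z ∈ cls Ω κ y, f z = ∑ x ∈ cls Ω κ G, f (m x y) := by
    intro y hy
    refine (sum_bij' (fun x _ => m x y) (fun z _ => m z G) ?_ ?_ ?_ ?_ ?_).symm
    · intro x hx
      obtain ⟨h1, -, h3, -⟩ := hm x hx y hy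
      exact mem_cls.2 ⟨h1, h3⟩
    · intro z hz
      exact (hm2 y hy z hz).1
    · intro x hx
      exact (hm x hx y hy).2.2.2.2
    · intro z hz
      exact (hm2 y hy z hz).2
    · intro x hx
      rfl
  have hBc : ∀ y ∈ cls Ω κ₂ G, (cls Ω κ y).card = (cls Ω κ G).card := by
    intro y hy
    refine (card_bij' (fun x _ => m x y) (fun z _ => m z G) ?_ ?_ ?_ ?_).symm
    · intro x hx
      obtain ⟨h1, -, h3, -⟩ := hm x hx y hy
      exact mem_cls.2 ⟨h1, h3⟩
    · intro z hz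
      exact (hm2 y hy z hz).1
    · intro x hx
      exact (hm x hx y hy).2.2.2.2
    · intro z hz
      exact (hm2 y hy z hz).2
  unfold condE
  rw [sum_congr rfl (fun x hx => by rw [hA x hx, hAc x hx]),
    sum_congr (s₂ := cls Ω κ₂ G) rfl (fun y hy => by rw [hB y hy, hBc y hy]),
    ← sum_div, ← sum_div, sum_comm, div_div, div_div, mul_comm]

end CondE

end Crest.Agent.SW
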