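import Mathlib

/-!
# Row 299 (S0453, switch chain): shared definitions

Graphs on `Fin n` are modelled here as symmetric irreflexive Boolean functions
`G : Fin n → Fin n → Bool`; `Om δ` is the finset of all graphs with degree vector `δ`.
`condE Ω κ f` is the conditional expectation of `f` (uniform law on the finset `Ω`) given the key `κ`.
-/

set_option autoImplicit false
open Finset

namespace Crest.Agent.SW

section CondE
variable {α β : Type*} [DecidableEq β]

/-- The class of `x` in `Ω` for the key `κ`. -/
def cls (Ω : Finset α) (κ : α → β) (x : α) : Finset α := Ω.filter (fun y => κ y = κ x)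

/-- Conditional expectation of `f` on `Ω` (uniform law) given the key `κ`. -/
noncomputable def condE (Ω : Finset α) (κ : α → β) (f : α → ℝ) (x : α) : ℝ :=
  (∑ y ∈ cls Ω κ x, f y) / ((cls Ω κ x).card : ℝ)

end CondE

/-- adjacency functions -/
abbrev Adj (n : ℕ) := Fin n → Fin n → Bool

/-- symmetric and irreflexive -/
def IsG {n : ℕ} (G : Adj n) : Prop := (∀ x y, G x y = G y x) ∧ ∀ x, G x x = false

instance {n : ℕ} : DecidablePred (IsG (n := n)) := fun G => by unfold IsG; infer_instance

/-- degree -/
def dg {n : ℕ} (G : Adj n) (v : Fin n) : ℕ := (univ.filter fun u => G v u = true).card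

/-- all graphs with degree vector `δ` -/
def Om {n : ℕ} (δ : Fin n → ℕ) : Finset (Adj n) :=
  univ.filter fun G => IsG G ∧ ∀ v, dg G v = δ v

/-- `G` with all pairs touching `t` erased. -/
def off {n : ℕ} (t : Finset (Fin n)) (G : Adj n) : Adj n :=
  fun x y => if x ∈ t ∨ y ∈ t then false else G x y

/-- `E δ t f`: resample (uniformly in `Om δ`) all pairs touching `t`, given the rest. For `t = {a,b}` this is
the trade of the rows `a, b`. -/
noncomputable def EE {n : ℕ} (δ : Fin n → ℕ) (t : Finset (Fin n)) (f : Adj n → ℝ) : Adj n → ℝ :=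
  condE (Om δ) (off t) f

/-- the four vertices are distinct -/
def D4 {n : ℕ} (a b c d : Fin n) : Prop := a ≠ b ∧ c ≠ d ∧ a ≠ c ∧ a ≠ d ∧ b ≠ c ∧ b ≠ d

instance {n : ℕ} (a b c d : Fin n) : Decidable (D4 a b c d) := by unfold D4; infer_instance

/-- the 2x2 block `{a,b} × {c,d}` of `G` is a permutation matrix (the 4-cycle `a c b d` is alternating). -/
def ij {n : ℕ} (a b c d : Fin n) (G : Adj n) : Bool :=
  (G a c == G b d) && (G a d == G b c) && (G a c != G a d)

/-- `(x,y)` is one of the eight ordered pairs of the block `{a,b} × {c,d}`. -/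
def blk {n : ℕ} (a b c d x y : Fin n) : Prop :=
  ((x = a ∨ x = b) ∧ (y = c ∨ y = d)) ∨ ((x = c ∨ x = d) ∧ (y = a ∨ y = b))

instance {n : ℕ} (a b c d x y : Fin n) : Decidable (blk a b c d x y) := by unfold blk; infer_instance

/-- flip the four pairs of the block: on `ij` states this is the switch. -/
def sg {n : ℕ} (a b c d : Fin n) (G : Adj n) : Adj n :=
  fun x y => if blk a b c d x y then !(G x y) else G x y

/-- the key "(everything outside the trade `{a,b}`, whether the block is alternating)". -/
def key2 {n : ℕ} (a b c d : Fin n) (G : Adj n) : Adj n × Bool := (off {a, b} G, ij a b c d G)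

/-- the `ij` states -/
def IJs {n : ℕ} (δ : Fin n → ℕ) (a b c d : Fin n) : Finset (Adj n) :=
  (Om δ).filter fun G => ij a b c d G = true

end Crest.Agent.SW
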